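import Vale.Agent.P032.R2.H609.W2Conv
import Vale.Agent.P032.R2.H137.Adm
import Vale.Agent.P032.R2.H784.Ring
import Vale.Agent.P032.R2.H659.Contact

/-!
# P032: the limit letters of the circle of a two-pair point at its two-pair contacts

`z = {ab|cd}`, letters `0 = e`, `1 = f`, `2 = ab`, `3 = cd`; positions `v : ℝ`.

* `LS v l`, `RS v l`: `l` is the only letter just before (after) `v`; `LF v l`, `RF v l`: the letter `l`
  is frequent from the left (right) at `v` (`lf_of_limL`, `rf_of_limR`: the letters of the limit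
  selections).
* `Irr.s4_lr`: contact `ae|bf`: exactly one of the two sides is `ab`, the other one has only `e, f`.
* `Irr.s4r_lr`: contact `ac|ef`: one side `e`, the other one `f`.
* `Irr.t3_lr`: contact `ae|cf`: one side `e`, the other one `f`.
* `WT.s4r_swap`: the flanks of `ac|ef` are swapped.
-/

set_option autoImplicit false

open Set Filter Topology Metric

noncomputable section

namespace Vale.Agent.P032.Six

open S5.H767 (Ex Lt Xs pt Ctr sub_of_closure dist_of_closure ctr_of_dpt dist_pt dist_pt_one pt_sum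
  pt_three pt_six Lt_dist Lt_col ex_self)
open Vale.Agent.P032.Words

variable {U : Fin 6 → Set ℂ} {T : ℂ → Set (Fin 6)} {z y p : ℂ} {a b c d e f : Fin 6} {v : ℝ}

/-! ## positions near `v` -/

theorem arc_pt (z : ℂ) (v τ t : ℝ) :
    z + (pt z v - z) * cis (τ * t) = pt z (v + τ * t * (3 / Real.pi)) := by
  unfold S5.H767.pt
  rw [add_sub_cancel_left]
  have e1 : (v + τ * t * (3 / Real.pi)) * (Real.pi / 3) = v * (Real.pi / 3) + τ * t := by
    have := Real.pi_ne_zero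
    field_simp
  rw [e1]
  unfold cis
  rw [← Complex.exp_add]
  congr 2
  push_cast
  ring

theorem ev_after {P : ℂ → Prop} (h : ∀ᶠ t : ℝ in 𝓝[>] 0, P (z + (pt z v - z) * cis (1 * t))) :
    ∀ᶠ s in 𝓝[>] v, P (pt z s) := by
  have h1 : Tendsto (fun s : ℝ => (s - v) * (Real.pi / 3)) (𝓝[>] v) (𝓝[>] 0) := by
    refine tendsto_nhdsWithin_iff.2 ⟨?_, ?_⟩
    · have : Continuous fun s : ℝ => (s - v) * (Real.pi / 3) := by fun_prop
      have h2 := this.tendsto v
      rw [sub_self, zero_mul] at h2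
      exact h2.mono_left nhdsWithin_le_nhds
    · filter_upwards [self_mem_nhdsWithin] with s hs
      have hs : v < s := hs
      have := Real.pi_pos
      rw [mem_Ioi]
      have : 0 < s - v := by linarith
      positivity
  filter_upwards [h1.eventually h] with s hs
  rw [arc_pt] at hs
  have e : v + 1 * ((s - v) * (Real.pi / 3)) * (3 / Real.pi) = s := by
    have := Real.pi_ne_zero
    field_simp
    ring
  rwa [e] at hs

theorem ev_before {P : ℂ → Prop} (h : ∀ᶠ t : ℝ in 𝓝[>] 0, P (z + (pt z v - z) * cis (-1 * t))) :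
    ∀ᶠ s in 𝓝[<] v, P (pt z s) := by
  have h1 : Tendsto (fun s : ℝ => (v - s) * (Real.pi / 3)) (𝓝[<] v) (𝓝[>] 0) := by
    refine tendsto_nhdsWithin_iff.2 ⟨?_, ?_⟩
    · have : Continuous fun s : ℝ => (v - s) * (Real.pi / 3) := by fun_prop
      have h2 := this.tendsto v
      rw [sub_self, zero_mul] at h2
      exact h2.mono_left nhdsWithin_le_nhds
    · filter_upwards [self_mem_nhdsWithin] with s hs
      have hs : s < v := hs
      have := Real.pi_pos
      rw [mem_Ioi]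
      have : 0 < v - s := by linarith
      positivity
  filter_upwards [h1.eventually h] with s hs
  rw [arc_pt] at hs
  have e : v + -1 * ((v - s) * (Real.pi / 3)) * (3 / Real.pi) = s := by
    have := Real.pi_ne_zero
    field_simp
    ring
  rwa [e] at hs

/-! ## solid and frequent letters -/

variable (T z a b c d e f v) in
/-- `l` is the only letter just before `v` -/
def LS (l : Fin 4) : Prop := ∀ᶠ s in 𝓝[<] v, ∀ m, s ∈ Xs T z a b c d e f m ↔ m = l

variable (T z a b c d e f v) in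
/-- `l` is the only letter just after `v` -/
def RS (l : Fin 4) : Prop := ∀ᶠ s in 𝓝[>] v, ∀ m, s ∈ Xs T z a b c d e f m ↔ m = l

variable (T z a b c d e f v) in
/-- the letter `l` is frequent from the left at `v` -/
def LF (l : Fin 4) : Prop := ∃ᶠ s in 𝓝[<] v, s ∈ Xs T z a b c d e f l

variable (T z a b c d e f v) in
/-- the letter `l` is frequent from the right at `v` -/
def RF (l : Fin 4) : Prop := ∃ᶠ s in 𝓝[>] v, s ∈ Xs T z a b c d e f l

theorem LS.eq {l m : Fin 4} (h : LS T z a b c d e f v l) (h' : LF T z a b c d e f v m) : m = l := by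
  obtain ⟨s, h1, h2⟩ := (h'.and_eventually h).exists
  exact (h2 m).1 h1

theorem RS.eq {l m : Fin 4} (h : RS T z a b c d e f v l) (h' : RF T z a b c d e f v m) : m = l := by
  obtain ⟨s, h1, h2⟩ := (h'.and_eventually h).exists
  exact (h2 m).1 h1

theorem LS.lf {l : Fin 4} (h : LS T z a b c d e f v l) : LF T z a b c d e f v l :=
  (h.mono fun s hs => (hs l).2 rfl).frequently

theorem RS.rf {l : Fin 4} (h : RS T z a b c d e f v l) : RF T z a b c d e f v l :=
  (h.mono fun s hs => (hs l).2 rfl).frequently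

/-- a solid letter from the covering -/
theorem LS.of_ev (C : Ctr U T z a b c d e f) {l : Fin 4}
    (h : ∀ᶠ s in 𝓝[<] v, ∀ m, s ∈ Xs T z a b c d e f m → m = l) : LS T z a b c d e f v l := by
  filter_upwards [h] with s hs m
  refine ⟨hs m, ?_⟩
  rintro rfl
  obtain ⟨n, hn⟩ := C.x_cover s
  rw [← hs n hn]
  exact hn

theorem RS.of_ev (C : Ctr U T z a b c d e f) {l : Fin 4}
    (h : ∀ᶠ s in 𝓝[>] v, ∀ m, s ∈ Xs T z a b c d e f m → m = l) : RS T z a b c d e f v l := by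
  filter_upwards [h] with s hs m
  refine ⟨hs m, ?_⟩
  rintro rfl
  obtain ⟨n, hn⟩ := C.x_cover s
  rw [← hs n hn]
  exact hn

/-- a limit letter is in the palette -/
theorem LF.mem (C : Ctr U T z a b c d e f) {l : Fin 4} (h : LF T z a b c d e f v l) :
    v ∈ Xs T z a b c d e f l := by
  have h1 : v ∈ closure (Xs T z a b c d e f l) :=
    mem_closure_iff_frequently.2 (h.filter_mono nhdsWithin_le_nhds)
  rwa [(C.x_closed l).closure_eq] at h1

theorem RF.mem (C : Ctr U T z a b c d e f) {l : Fin 4} (h : RF T z a b c d e f v l) :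
    v ∈ Xs T z a b c d e f l := by
  have h1 : v ∈ closure (Xs T z a b c d e f l) :=
    mem_closure_iff_frequently.2 (h.filter_mono nhdsWithin_le_nhds)
  rwa [(C.x_closed l).closure_eq] at h1

/-! ## the letters of the limit selections -/

section
open S5.H767

variable {ι : Type}

theorem lf_of_limL {cc : ι → ℂ} {F : ι → Fin 4 → Set ℂ} {G : Set ℝ} {t : ℝ}
    {k : ι × Fin 6 → Fin 4} (h : LimL (posX cc F) G t k) (q : ι × Fin 6)
    (hF : F q.1 = Lt T (cc q.1) a b c d e f) :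
    LF T (cc q.1) a b c d e f (t + (q.2.val : ℝ)) (k q) := by
  have h1 : Tendsto (fun s : ℝ => s + (q.2.val : ℝ)) (𝓝[<] t) (𝓝[<] (t + (q.2.val : ℝ))) := by
    refine tendsto_nhdsWithin_iff.2 ⟨?_, ?_⟩
    · have : Continuous fun s : ℝ => s + (q.2.val : ℝ) := by fun_prop
      exact (this.tendsto t).mono_left nhdsWithin_le_nhds
    · filter_upwards [self_mem_nhdsWithin] with s hs
      have hs : s < t := hs
      rw [mem_Iio]
      linarith
  refine h1.frequently (h.mono fun s hs => ?_)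
  have h2 : pos cc q s ∈ F q.1 (k q) := hs.2 q
  rw [hF] at h2
  exact h2

theorem rf_of_limR {cc : ι → ℂ} {F : ι → Fin 4 → Set ℂ} {G : Set ℝ} {t : ℝ}
    {k : ι × Fin 6 → Fin 4} (h : LimR (posX cc F) G t k) (q : ι × Fin 6)
    (hF : F q.1 = Lt T (cc q.1) a b c d e f) :
    RF T (cc q.1) a b c d e f (t + (q.2.val : ℝ)) (k q) := by
  have h1 : Tendsto (fun s : ℝ => s + (q.2.val : ℝ)) (𝓝[>] t) (𝓝[>] (t + (q.2.val : ℝ))) := by
    refine tendsto_nhdsWithin_iff.2 ⟨?_, ?_⟩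
    · have : Continuous fun s : ℝ => s + (q.2.val : ℝ) := by fun_prop
      exact (this.tendsto t).mono_left nhdsWithin_le_nhds
    · filter_upwards [self_mem_nhdsWithin] with s hs
      have hs : t < s := hs
      rw [mem_Ioi]
      linarith
  refine h1.frequently (h.mono fun s hs => ?_)
  have h2 : pos cc q s ∈ F q.1 (k q) := hs.2 q
  rw [hF] at h2
  exact h2

end

/-! ## letters and palettes -/

theorem xs0 {s : ℝ} : s ∈ Xs T z a b c d e f 0 ↔ e ∈ T (pt z s) :=
  ⟨fun h => h.2, fun h => ⟨dist_pt z s, h⟩⟩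

theorem xs1 {s : ℝ} : s ∈ Xs T z a b c d e f 1 ↔ f ∈ T (pt z s) :=
  ⟨fun h => h.2, fun h => ⟨dist_pt z s, h⟩⟩

theorem xs2 (h : Irr U T) {s : ℝ} (hs : s ∈ Xs T z a b c d e f 2) :
    a ∈ T (pt z s) ∧ b ∈ T (pt z s) :=
  ⟨sub_of_closure h hs (by simp), sub_of_closure h hs (by simp)⟩

theorem xs3 (h : Irr U T) {s : ℝ} (hs : s ∈ Xs T z a b c d e f 3) :
    c ∈ T (pt z s) ∧ d ∈ T (pt z s) :=
  ⟨sub_of_closure h hs (by simp), sub_of_closure h hs (by simp)⟩

theorem fin4_cases (m : Fin 4) : m = 0 ∨ m = 1 ∨ m = 2 ∨ m = 3 := by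
  revert m; decide

/-- the letters of a point whose palette is inside `{a, b}` -/
theorem let_ab (h : Irr U T) (nd : [a, b, c, d, e, f].Nodup) {s : ℝ}
    (hs : T (pt z s) ⊆ {a, b}) {m : Fin 4} (hm : s ∈ Xs T z a b c d e f m) : m = 2 := by
  obtain ⟨⟨ab, ac, ad, ae, af⟩, ⟨bc, bd, be, bf⟩, ⟨cd, ce, cf⟩, ⟨de, df⟩, ef⟩ := nodup_sep nd
  rcases fin4_cases m with rfl | rfl | rfl | rfl
  · rcases hs (xs0.1 hm) with h1 | h1
    exacts [absurd h1.symm ae, absurd h1.symm be]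
  · rcases hs (xs1.1 hm) with h1 | h1
    exacts [absurd h1.symm af, absurd h1.symm bf]
  · rfl
  · rcases hs (xs3 h hm).1 with h1 | h1
    exacts [absurd h1.symm ac, absurd h1.symm bc]

/-- the letters of a point without the colours `a`, `c` -/
theorem let_lt (h : Irr U T) {s : ℝ} {i j : Fin 6} (hi : i = a ∨ i = b) (hj : j = c ∨ j = d)
    (h1 : i ∉ T (pt z s)) (h2 : j ∉ T (pt z s)) {m : Fin 4} (hm : s ∈ Xs T z a b c d e f m) :
    m = 0 ∨ m = 1 := by
  rcases fin4_cases m with rfl | rfl | rfl | rfl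
  · exact Or.inl rfl
  · exact Or.inr rfl
  · exfalso
    obtain ⟨k1, k2⟩ := xs2 h hm
    rcases hi with rfl | rfl
    exacts [h1 k1, h1 k2]
  · exfalso
    obtain ⟨k1, k2⟩ := xs3 h hm
    rcases hj with rfl | rfl
    exacts [h2 k1, h2 k2]

/-- **S4**: exactly one of the two sides is `ab`, the other one has only the letters `e, f` -/
theorem Irr.s4_lr (h : Irr U T) (hz : DPt T z a b c d) (nd : [a, b, c, d, e, f].Nodup)
    (hy : DPt T (pt z v) a e b f) :
    (LS T z a b c d e f v 2 ∧ ∀ᶠ s in 𝓝[>] v, T (pt z s) ⊆ {e, f}) ∨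
      (RS T z a b c d e f v 2 ∧ ∀ᶠ s in 𝓝[<] v, T (pt z s) ⊆ {e, f}) := by
  have C := ctr_of_dpt h hz nd
  obtain ⟨τ, hτ, h1, h2⟩ := h.s4_word hz hy (dist_pt z v)
  rcases hτ with rfl | rfl
  · right
    refine ⟨RS.of_ev C ?_, ?_⟩
    · filter_upwards [ev_after (P := fun x => T x = {a, b}) h1] with s hs m hm
      exact let_ab h nd hs.subset hm
    · exact ev_before (P := fun x => T x ⊆ {e, f}) (h2.mono fun t ht => ht.2.2)
  · left
    rw [neg_neg] at h2
    refine ⟨LS.of_ev C ?_, ?_⟩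
    · filter_upwards [ev_before (P := fun x => T x = {a, b}) h1] with s hs m hm
      exact let_ab h nd hs.subset hm
    · exact ev_after (P := fun x => T x ⊆ {e, f}) (h2.mono fun t ht => ht.2.2)

/-- the letters of a point whose palette is inside `{e, f}` -/
theorem let_ef (h : Irr U T) (nd : [a, b, c, d, e, f].Nodup) {s : ℝ}
    (hs : T (pt z s) ⊆ {e, f}) {m : Fin 4} (hm : s ∈ Xs T z a b c d e f m) : m = 0 ∨ m = 1 := by
  obtain ⟨⟨ab, ac, ad, ae, af⟩, ⟨bc, bd, be, bf⟩, ⟨cd, ce, cf⟩, ⟨de, df⟩, ef⟩ := nodup_sep nd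
  refine let_lt h (i := a) (j := c) (Or.inl rfl) (Or.inl rfl) ?_ ?_ hm
  · intro h1
    rcases hs h1 with h2 | h2
    exacts [ae h2, af h2]
  · intro h1
    rcases hs h1 with h2 | h2
    exacts [ce h2, cf h2]

/-- **S4**, limit letters -/
theorem Irr.s4_letters (h : Irr U T) (hz : DPt T z a b c d) (nd : [a, b, c, d, e, f].Nodup)
    (hy : DPt T (pt z v) a e b f) {l m : Fin 4} (hl : LF T z a b c d e f v l)
    (hm : RF T z a b c d e f v m) : (l = 2 ∧ (m = 0 ∨ m = 1)) ∨ (m = 2 ∧ (l = 0 ∨ l = 1)) := by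
  rcases h.s4_lr hz nd hy with ⟨h1, h2⟩ | ⟨h1, h2⟩
  · refine Or.inl ⟨h1.eq hl, ?_⟩
    obtain ⟨s, h3, h4⟩ := (hm.and_eventually h2).exists
    exact let_ef h nd h4 h3
  · refine Or.inr ⟨h1.eq hm, ?_⟩
    obtain ⟨s, h3, h4⟩ := (hl.and_eventually h2).exists
    exact let_ef h nd h4 h3

/-- the two branches of `S(z)` at a two-pair contact, as positions -/
theorem Irr.two_sides_lr (h : Irr U T) {i j m n : Fin 6} (hy : DPt T (pt z v) i j m n) :
    ∃ x w x' w', ((x = i ∧ w = j) ∨ (x = j ∧ w = i)) ∧ ((x' = m ∧ w' = n) ∨ (x' = n ∧ w' = m)) ∧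
      (∀ᶠ s in 𝓝[>] v, T (pt z s) ⊆ {x, x'}) ∧ ∀ᶠ s in 𝓝[<] v, T (pt z s) ⊆ {w, w'} := by
  obtain ⟨x, w, x', w', h1, h2, h3, h4⟩ := h.hub_two_sides hy (dist_pt z v)
  exact ⟨x, w, x', w', h1, h2, ev_after (P := fun q => T q ⊆ {x, x'}) (h3.mono fun t ht => ht.2.2),
    ev_before (P := fun q => T q ⊆ {w, w'}) (h4.mono fun t ht => ht.2.2)⟩

/-- the only letter of a palette inside `{x, e}`, `x` one of the colours of the centre -/
theorem let_one (h : Irr U T) (nd : [a, b, c, d, e, f].Nodup) {s : ℝ} {x g : Fin 6}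
    (hx : x = a ∨ x = b ∨ x = c ∨ x = d) (hs : T (pt z s) ⊆ {x, g})
    {m : Fin 4} (hm : s ∈ Xs T z a b c d e f m) : (g = e → m = 0) ∧ (g = f → m = 1) := by
  obtain ⟨⟨ab, ac, ad, ae, af⟩, ⟨bc, bd, be, bf⟩, ⟨cd, ce, cf⟩, ⟨de, df⟩, ef⟩ := nodup_sep nd
  have hxe : x ≠ e := by rcases hx with rfl | rfl | rfl | rfl <;> assumption
  have hxf : x ≠ f := by rcases hx with rfl | rfl | rfl | rfl <;> assumption
  have two : ∀ i j : Fin 6, i ≠ j → i ≠ g → j ≠ g → i ∈ T (pt z s) → j ∈ T (pt z s) → False := by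
    intro i j h1 h2 h3 h4 h5
    rcases hs h4 with h6 | h6
    · rcases hs h5 with h7 | h7
      · exact h1 (h6.trans h7.symm)
      · exact h3 h7
    · exact h2 h6
  constructor
  · rintro rfl
    rcases fin4_cases m with rfl | rfl | rfl | rfl
    · rfl
    · rcases hs (xs1.1 hm) with h1 | h1
      exacts [absurd h1.symm hxf, absurd h1.symm ef]
    · exact (two a b ab ae be (xs2 h hm).1 (xs2 h hm).2).elim
    · exact (two c d cd ce de (xs3 h hm).1 (xs3 h hm).2).elim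
  · rintro rfl
    rcases fin4_cases m with rfl | rfl | rfl | rfl
    · rcases hs (xs0.1 hm) with h1 | h1
      exacts [absurd h1.symm hxe, absurd h1 ef]
    · rfl
    · exact (two a b ab af bf (xs2 h hm).1 (xs2 h hm).2).elim
    · exact (two c d cd cf df (xs3 h hm).1 (xs3 h hm).2).elim

/-- **S4r**: one side `e`, the other one `f` -/
theorem Irr.s4r_lr (h : Irr U T) (hz : DPt T z a b c d) (nd : [a, b, c, d, e, f].Nodup)
    (hy : DPt T (pt z v) a c e f) :
    (LS T z a b c d e f v 0 ∧ RS T z a b c d e f v 1) ∨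
      (LS T z a b c d e f v 1 ∧ RS T z a b c d e f v 0) := by
  have C := ctr_of_dpt h hz nd
  obtain ⟨x, w, x', w', h1, h2, h3, h4⟩ := h.two_sides_lr hy
  have hx : x = a ∨ x = b ∨ x = c ∨ x = d := by rcases h1 with ⟨h1, -⟩ | ⟨h1, -⟩ <;> simp [h1]
  have hw : w = a ∨ w = b ∨ w = c ∨ w = d := by rcases h1 with ⟨-, h1⟩ | ⟨-, h1⟩ <;> simp [h1]
  rcases h2 with ⟨e1, e2⟩ | ⟨e1, e2⟩
  · right
    refine ⟨LS.of_ev C ?_, RS.of_ev C ?_⟩
    · filter_upwards [h4] with s hs m hm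
      exact (let_one h nd hw hs hm).2 e2
    · filter_upwards [h3] with s hs m hm
      exact (let_one h nd hx hs hm).1 e1
  · left
    refine ⟨LS.of_ev C ?_, RS.of_ev C ?_⟩
    · filter_upwards [h4] with s hs m hm
      exact (let_one h nd hw hs hm).1 e2
    · filter_upwards [h3] with s hs m hm
      exact (let_one h nd hx hs hm).2 e1

/-- **T3**: one side `e`, the other one `f` -/
theorem Irr.t3_lr (h : Irr U T) (hz : DPt T z a b c d) (nd : [a, b, c, d, e, f].Nodup)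
    (hy : DPt T (pt z v) a e c f) :
    (LS T z a b c d e f v 0 ∧ RS T z a b c d e f v 1) ∨
      (LS T z a b c d e f v 1 ∧ RS T z a b c d e f v 0) := by
  have C := ctr_of_dpt h hz nd
  obtain ⟨⟨ab, ac, ad, ae, af⟩, ⟨bc, bd, be, bf⟩, ⟨cd, ce, cf⟩, ⟨de, df⟩, ef⟩ := nodup_sep nd
  obtain ⟨x, w, x', w', h1, h2, h3, h4⟩ := h.two_sides_lr hy
  -- a palette inside `{a, c}` is impossible
  have hno : ∀ s : ℝ, T (pt z s) ⊆ {a, c} → False := by
    intro s hs
    obtain ⟨m, hm⟩ := C.x_cover s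
    rcases fin4_cases m with rfl | rfl | rfl | rfl
    · rcases hs (xs0.1 hm) with h5 | h5
      exacts [ae h5.symm, ce h5.symm]
    · rcases hs (xs1.1 hm) with h5 | h5
      exacts [af h5.symm, cf h5.symm]
    · rcases hs (xs2 h hm).2 with h5 | h5
      exacts [ab h5.symm, bc h5]
    · rcases hs (xs3 h hm).2 with h5 | h5
      exacts [ad h5.symm, cd h5.symm]
  rcases h1 with ⟨rfl, rfl⟩ | ⟨rfl, rfl⟩ <;> rcases h2 with ⟨rfl, rfl⟩ | ⟨rfl, rfl⟩
  · obtain ⟨s, hs⟩ := h3.exists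
    exact (hno s hs).elim
  · -- right `{a, f}`, left `{e, c}`
    left
    refine ⟨LS.of_ev C ?_, RS.of_ev C ?_⟩
    · filter_upwards [h4] with s hs m hm
      rw [pair_comm] at hs
      exact (let_one h nd (Or.inr (Or.inr (Or.inl rfl))) hs hm).1 rfl
    · filter_upwards [h3] with s hs m hm
      exact (let_one h nd (Or.inl rfl) hs hm).2 rfl
  · -- right `{e, c}`, left `{a, f}`
    right
    refine ⟨LS.of_ev C ?_, RS.of_ev C ?_⟩
    · filter_upwards [h4] with s hs m hm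
      exact (let_one h nd (Or.inl rfl) hs hm).2 rfl
    · filter_upwards [h3] with s hs m hm
      rw [pair_comm] at hs
      exact (let_one h nd (Or.inr (Or.inr (Or.inl rfl))) hs hm).1 rfl
  · obtain ⟨s, hs⟩ := h4.exists
    exact (hno s hs).elim

/-! ## the flanks -/

/-- the neighbours of a solid letter from the left -/
theorem LS.next (w : RawU (Xs T z a b c d e f)) {l : Fin 4} (h : LS T z a b c d e f v l) {σ : ℝ}
    (hσ : σ = 1 ∨ σ = -1) : ∀ᶠ s in 𝓝[<] (v + σ), s ∉ Xs T z a b c d e f l := by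
  obtain ⟨x, hx, hx2⟩ := mem_nhdsLT_iff_exists_Ioo_subset.1 h
  have h1 : Ioo (x + σ) (v + σ) ∈ 𝓝[<] (v + σ) :=
    Ioo_mem_nhdsLT (by have : x < v := hx; linarith)
  filter_upwards [h1] with s hs hcon
  have h2 : s - σ ∈ Ioo x v := ⟨by linarith [hs.1], by linarith [hs.2]⟩
  have h3 : ∀ᶠ t in 𝓝 (s - σ), t ∈ Xs T z a b c d e f l := by
    filter_upwards [isOpen_Ioo.mem_nhds h2] with t ht
    exact (hx2 ht l).2 rfl
  have h4 := w.free l _ h3
  rcases hσ with rfl | rfl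
  · rw [sub_add_cancel] at h4
    exact h4.1 hcon
  · have e : s - -1 - 1 = s := by ring
    rw [e] at h4
    exact h4.2 hcon

theorem RS.next (w : RawU (Xs T z a b c d e f)) {l : Fin 4} (h : RS T z a b c d e f v l) {σ : ℝ}
    (hσ : σ = 1 ∨ σ = -1) : ∀ᶠ s in 𝓝[>] (v + σ), s ∉ Xs T z a b c d e f l := by
  obtain ⟨x, hx, hx2⟩ := mem_nhdsGT_iff_exists_Ioo_subset.1 h
  have h1 : Ioo (v + σ) (x + σ) ∈ 𝓝[>] (v + σ) :=
    Ioo_mem_nhdsGT (by have : v < x := hx; linarith)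
  filter_upwards [h1] with s hs hcon
  have h2 : s - σ ∈ Ioo v x := ⟨by linarith [hs.1], by linarith [hs.2]⟩
  have h3 : ∀ᶠ t in 𝓝 (s - σ), t ∈ Xs T z a b c d e f l := by
    filter_upwards [isOpen_Ioo.mem_nhds h2] with t ht
    exact (hx2 ht l).2 rfl
  have h4 := w.free l _ h3
  rcases hσ with rfl | rfl
  · rw [sub_add_cancel] at h4
    exact h4.1 hcon
  · have e : s - -1 - 1 = s := by ring
    rw [e] at h4
    exact h4.2 hcon

/-- a flank without the colours `i ∈ {a, b}`, `j ∈ {c, d}` -/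
theorem flank_lr (h : Irr U T) (C : Ctr U T z a b c d e f) (w : RawU (Xs T z a b c d e f))
    {i j : Fin 6} (hi : i = a ∨ i = b) (hj : j = c ∨ j = d) {σ : ℝ} (hσ : σ = 1 ∨ σ = -1)
    (h1 : i ∉ T (pt z (v + σ))) (h2 : j ∉ T (pt z (v + σ))) {l l' : Fin 4}
    (hl : (l = 0 ∧ l' = 1) ∨ (l = 1 ∧ l' = 0)) :
    (LS T z a b c d e f v l → LS T z a b c d e f (v + σ) l') ∧
      (RS T z a b c d e f v l → RS T z a b c d e f (v + σ) l') := by
  have hcont : Continuous fun s : ℝ => pt z s := S5.H767.continuous_pt z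
  have hn : ∀ᶠ s in 𝓝 (v + σ), i ∉ T (pt z s) ∧ j ∉ T (pt z s) := by
    have k1 : ∀ᶠ s in 𝓝 (v + σ), i ∉ T (pt z s) :=
      hcont.continuousAt.eventually ((h.closed i).isOpen_compl.mem_nhds h1)
    have k2 : ∀ᶠ s in 𝓝 (v + σ), j ∉ T (pt z s) :=
      hcont.continuousAt.eventually ((h.closed j).isOpen_compl.mem_nhds h2)
    exact k1.and k2
  constructor
  · intro hL
    refine LS.of_ev C ?_
    filter_upwards [hL.next w hσ, hn.filter_mono nhdsWithin_le_nhds] with s k1 k2 m hm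
    rcases let_lt h hi hj k2.1 k2.2 hm with k3 | k3 <;> rcases hl with ⟨rfl, rfl⟩ | ⟨rfl, rfl⟩
    · exact absurd (k3 ▸ hm) k1
    · exact k3
    · exact k3
    · exact absurd (k3 ▸ hm) k1
  · intro hL
    refine RS.of_ev C ?_
    filter_upwards [hL.next w hσ, hn.filter_mono nhdsWithin_le_nhds] with s k1 k2 m hm
    rcases let_lt h hi hj k2.1 k2.2 hm with k3 | k3 <;> rcases hl with ⟨rfl, rfl⟩ | ⟨rfl, rfl⟩
    · exact absurd (k3 ▸ hm) k1
    · exact k3
    · exact k3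
    · exact absurd (k3 ▸ hm) k1

/-- the point of a neighbouring position is a common neighbour -/
theorem flank_dist (z : ℂ) (v : ℝ) {σ : ℝ} (hσ : σ = 1 ∨ σ = -1) :
    dist (pt z (v + σ)) (pt z v) = 1 := by
  rcases hσ with rfl | rfl
  · rw [dist_comm]; exact dist_pt_one z v
  · have := dist_pt_one z (v + -1)
    rw [show v + -1 + 1 = v by ring] at this
    exact this

namespace WT

/-- the flanks of a contact `ac|ef` carry `e, f` and neither `a` nor `c` -/
theorem flank_s4r (H : WT U T) (hmin : MinF U T) (hz : DPt T z a b c d)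
    (nd : [a, b, c, d, e, f].Nodup) (hy : DPt T y a c e f) (hyz : dist y z = 1)
    (hpz : dist p z = 1) (hpy : dist p y = 1) : (e ∈ T p ∧ f ∈ T p) ∧ a ∉ T p ∧ c ∉ T p := by
  obtain ⟨⟨ab, ac, ad, ae, af⟩, ⟨bc, bd, be, bf⟩, ⟨cd, ce, cf⟩, ⟨de, df⟩, ef⟩ := nodup_sep nd
  have nd' : [a, c, e, f, b, d].Nodup := by
    simp [ab, ac, ad, ae, af, Ne.symm bc, bd, be, bf, cd, ce, cf, Ne.symm de, Ne.symm df, ef,
      Ne.symm be, Ne.symm bf]
  have hTz : T z = {a, c, b, d} := by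
    rw [hz.pal]
    ext i
    simp only [mem_insert_iff, mem_singleton_iff]
    tauto
  exact H.flank_same hmin hy nd' (by rw [dist_comm]; exact hyz) hTz hpy hpz

/-- **S4r, triple swap** -/
theorem s4r_swap (H : WT U T) (hmin : MinF U T) (hz : DPt T z a b c d)
    (nd : [a, b, c, d, e, f].Nodup) (hy : DPt T (pt z v) a c e f) : ∃ l l' : Fin 4,
      ((l = 0 ∧ l' = 1) ∨ (l = 1 ∧ l' = 0)) ∧ (LS T z a b c d e f v l ∧ RS T z a b c d e f v l') ∧
      ∀ σ : ℝ, (σ = 1 ∨ σ = -1) →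
        LS T z a b c d e f (v + σ) l' ∧ RS T z a b c d e f (v + σ) l := by
  have h := H.irr
  have C := ctr_of_dpt h hz nd
  have w := C.rawU hz
  have key : ∀ l l' : Fin 4, ((l = 0 ∧ l' = 1) ∨ (l = 1 ∧ l' = 0)) → LS T z a b c d e f v l →
      RS T z a b c d e f v l' → ∀ σ : ℝ, (σ = 1 ∨ σ = -1) →
        LS T z a b c d e f (v + σ) l' ∧ RS T z a b c d e f (v + σ) l := by
    intro l l' hl h1 h2 σ hσ
    obtain ⟨-, h3, h4⟩ := H.flank_s4r hmin hz nd hy (dist_pt z v) (dist_pt z (v + σ))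
      (flank_dist z v hσ)
    refine ⟨(flank_lr h C w (Or.inl rfl) (Or.inl rfl) hσ h3 h4 hl).1 h1,
      (flank_lr h C w (Or.inl rfl) (Or.inl rfl) hσ h3 h4 ?_).2 h2⟩
    rcases hl with ⟨rfl, rfl⟩ | ⟨rfl, rfl⟩
    · exact Or.inr ⟨rfl, rfl⟩
    · exact Or.inl ⟨rfl, rfl⟩
  rcases h.s4r_lr hz nd hy with ⟨h1, h2⟩ | ⟨h1, h2⟩
  · exact ⟨0, 1, Or.inl ⟨rfl, rfl⟩, ⟨h1, h2⟩, key 0 1 (Or.inl ⟨rfl, rfl⟩) h1 h2⟩
  · exact ⟨1, 0, Or.inr ⟨rfl, rfl⟩, ⟨h1, h2⟩, key 1 0 (Or.inr ⟨rfl, rfl⟩) h1 h2⟩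

end WT

end Vale.Agent.P032.Six
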