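import Vale.Agent.P032.R2.H609.Types
import Vale.Agent.P032.R2.H939.Pairs

/-!
# P032: the types of the exact arcs of one pair, without names

`Typ T z P e f SE SF`: the limits of the exact `P`-arcs of `S(z)` are covered by two closed sets,
disjoint on `S(z)`; in `SE` an end with the colour `f` has the colour `e`, in `SF` an end with the
colour `e` has the colour `f`.

`WT.exists_typ`: if a four-coloured point is a limit of exact `ab`-arcs, then the `cd`-arcs have
types.
-/

set_option autoImplicit false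

open Set Filter Topology Metric

noncomputable section

namespace Vale.Agent.P032.Six

open S5.H767 (Ex Lt Xs pt Ctr sub_of_closure dist_of_closure ctr_of_dpt dist_pt dist_pt_one pt_sum
  pt_three pt_six Lt_dist Lt_col ex_self)

variable {U : Fin 6 → Set ℂ} {T : ℂ → Set (Fin 6)} {z y p q : ℂ} {a b c d e f : Fin 6} {v : ℝ}

/-- types of the exact `P`-arcs of `S(z)` -/
structure Typ (T : ℂ → Set (Fin 6)) (z : ℂ) (P : Set (Fin 6)) (e f : Fin 6) (SE SF : Set ℂ) :
    Prop where
  clE : IsClosed SE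
  clF : IsClosed SF
  cover : closure (Ex T z P) ⊆ SE ∪ SF
  not_both : ∀ {q : ℂ}, dist q z = 1 → q ∈ SE → q ∈ SF → False
  endE : ∀ {q : ℂ}, q ∈ closure (Ex T z P) → q ∈ SE → f ∈ T q → e ∈ T q
  endF : ∀ {q : ℂ}, q ∈ closure (Ex T z P) → q ∈ SF → e ∈ T q → f ∈ T q

theorem Typ.swap {P : Set (Fin 6)} {SE SF : Set ℂ} (t : Typ T z P e f SE SF) :
    Typ T z P f e SF SE where
  clE := t.clF
  clF := t.clE
  cover := fun q hq => (t.cover hq).symm
  not_both := fun h1 h2 h3 => t.not_both h1 h3 h2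
  endE := t.endF
  endF := t.endE

theorem EndCt.typE (E : EndCt T z y a b c d e f) (H : WT U T) :
    Typ T z {c, d} e f (TyE T z y b f) (TyE T z y a e) where
  clE := TyE.closed H.irr
  clF := TyE.closed H.irr
  cover := E.cover H
  not_both := E.not_both H
  endE := fun h1 h2 h3 => E.tpend_E H h1 h2 h3
  endF := fun h1 h2 h3 => E.tpend_F H h1 h2 h3

/-- a two-element subset of `{a, b, e, f}` different from `{a, b}` and `{e, f}` -/
theorem pair_cases609 {A : Set (Fin 6)} (hA : A ⊆ {a, b, e, f}) (h2 : A.ncard = 2)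
    (n1 : A ≠ {a, b}) (n2 : A ≠ {e, f}) :
    A = {a, e} ∨ A = {a, f} ∨ A = {b, e} ∨ A = {b, f} := by
  obtain ⟨x, w, hxw, rfl⟩ := Set.ncard_eq_two.1 h2
  have hx := hA (show x ∈ ({x, w} : Set (Fin 6)) by simp)
  have hw := hA (show w ∈ ({x, w} : Set (Fin 6)) by simp)
  simp only [mem_insert_iff, mem_singleton_iff] at hx hw
  rcases hx with rfl | rfl | rfl | rfl <;> rcases hw with rfl | rfl | rfl | rfl <;>
    first
      | exact absurd rfl hxw
      | exact absurd rfl n1
      | exact absurd (pair_comm _ _) n1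
      | exact absurd rfl n2
      | exact absurd (pair_comm _ _) n2
      | exact Or.inl rfl
      | exact Or.inr (Or.inl rfl)
      | exact Or.inr (Or.inr (Or.inl rfl))
      | exact Or.inr (Or.inr (Or.inr rfl))
      | exact Or.inl (pair_comm _ _)
      | exact Or.inr (Or.inl (pair_comm _ _))
      | exact Or.inr (Or.inr (Or.inl (pair_comm _ _)))
      | exact Or.inr (Or.inr (Or.inr (pair_comm _ _)))

namespace WT

/-- **a four-coloured limit of exact `ab`-arcs is an end contact** -/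
theorem exists_endCt (H : WT U T) (hmin : MinF U T) (hz : DPt T z a b c d)
    (nd : [a, b, c, d, e, f].Nodup) (hy : y ∈ closure (Ex T z {a, b})) (h4 : 4 ≤ (T y).ncard) :
    EndCt T z y a b c d e f ∨ EndCt T z y a b c d f e ∨ EndCt T z y b a c d e f ∨
      EndCt T z y b a c d f e := by
  have h := H.irr
  obtain ⟨⟨ab, ac, ad, ae, af⟩, ⟨bc, bd, be, bf⟩, ⟨cd, ce, cf⟩, ⟨de, df⟩, ef⟩ := nodup_sep nd
  have hyz := dist_of_closure hy
  have hsub := sub_of_closure h hy
  have hT : T y = {a, b, e, f} :=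
    H.pal_same hz nd hyz h4 (hsub (by simp)) (hsub (by simp))
  have hT1 : T y = {a, b, f, e} := by
    rw [hT]; ext i; simp only [mem_insert_iff, mem_singleton_iff]; tauto
  have hT2 : T y = {b, a, e, f} := by
    rw [hT]; ext i; simp only [mem_insert_iff, mem_singleton_iff]; tauto
  have hT3 : T y = {b, a, f, e} := by
    rw [hT]; ext i; simp only [mem_insert_iff, mem_singleton_iff]; tauto
  rcases H.contact_same hmin hz nd hyz hT with h1 | h1 | ⟨A, hA, hne⟩
  · exact Or.inl ⟨hz, nd, hyz, hT, Or.inl h1⟩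
  · exact Or.inr (Or.inl ⟨hz, nodup_swap56 nd, hyz, hT1, Or.inl h1⟩)
  · have n1 : A ≠ {a, b} := fun h1 => h.harm_not_end hA h1.subset hy
    rcases pair_cases609 (hT ▸ hA.sub) hA.cardA n1 hne with rfl | rfl | rfl | rfl
    · exact Or.inl ⟨hz, nd, hyz, hT, Or.inr hA⟩
    · exact Or.inr (Or.inl ⟨hz, nodup_swap56 nd, hyz, hT1, Or.inr hA⟩)
    · exact Or.inr (Or.inr (Or.inl ⟨hz.swap12, nodup_swap12 nd, hyz, hT2, Or.inr hA⟩))
    · exact Or.inr (Or.inr (Or.inr ⟨hz.swap12, nodup_swap56 (nodup_swap12 nd), hyz, hT3,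
        Or.inr hA⟩))

/-- **types**: a four-coloured limit of exact `ab`-arcs gives types of the `cd`-arcs -/
theorem exists_typ (H : WT U T) (hmin : MinF U T) (hz : DPt T z a b c d)
    (nd : [a, b, c, d, e, f].Nodup) (hy : y ∈ closure (Ex T z {a, b})) (h4 : 4 ≤ (T y).ncard) :
    ∃ SE SF : Set ℂ, Typ T z {c, d} e f SE SF := by
  rcases H.exists_endCt hmin hz nd hy h4 with E | E | E | E
  · exact ⟨_, _, E.typE H⟩
  · exact ⟨_, _, (E.typE H).swap⟩
  · exact ⟨_, _, E.typE H⟩
  · exact ⟨_, _, (E.typE H).swap⟩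

/-- types of the `ab`-arcs from a four-coloured limit of exact `cd`-arcs -/
theorem exists_typ' (H : WT U T) (hmin : MinF U T) (hz : DPt T z a b c d)
    (nd : [a, b, c, d, e, f].Nodup) (hy : y ∈ closure (Ex T z {c, d})) (h4 : 4 ≤ (T y).ncard) :
    ∃ SE SF : Set ℂ, Typ T z {a, b} e f SE SF :=
  H.exists_typ hmin hz.swap (nodup_swap609 nd) hy h4

/-- the palette of a four-coloured limit of exact `ab`-arcs -/
theorem pal_end (H : WT U T) (hz : DPt T z a b c d) (nd : [a, b, c, d, e, f].Nodup)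
    (hy : y ∈ closure (Ex T z {a, b})) (h4 : 4 ≤ (T y).ncard) : T y = {a, b, e, f} :=
  H.pal_same hz nd (dist_of_closure hy) h4 (sub_of_closure H.irr hy (by simp))
    (sub_of_closure H.irr hy (by simp))

end WT

/-- a two-pair contact `ae|bf` of `z = {ab|cd}` is a limit of exact `ab`-arcs -/
theorem Irr.s4_closure (h : Irr U T) (hz : DPt T z a b c d) (nd : [a, b, c, d, e, f].Nodup)
    (hy : DPt T y a e b f) (hyz : dist y z = 1) : y ∈ closure (Ex T z {a, b}) := by
  have C := ctr_of_dpt h hz nd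
  obtain ⟨v, rfl⟩ := exists_ptc hyz
  rcases h.s4_lr hz nd hy with ⟨h1, -⟩ | ⟨h1, -⟩
  · exact h1.lf.mem C
  · exact h1.rf.mem C

end Vale.Agent.P032.Six
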