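import Vale.Agent.P032.R2.H609.W2E
import Vale.Agent.P032.R2.H833.S3C
import Vale.Agent.P032.S5.H496.Start

/-!
# P032: RULE 2 for every two-pair point (orders at most four, no world needed)

`Irr.rule2`: if `z = {ab|cd}` and the circle of `z` has a point with the palette `{c, d, f}`, then at
most two points of the circle have the palette `{a, b, e}`.
-/

set_option autoImplicit false

open Set Filter Topology Metric

noncomputable section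

namespace Vale.Agent.P032.Six

variable {U : Fin 6 → Set ℂ} {T : ℂ → Set (Fin 6)} {z q x₁ x₂ x₃ : ℂ} {a b c d e f : Fin 6}

/-- **RULE 2** -/
theorem Irr.rule2 (h : Irr U T) (h4 : ∀ x, (T x).ncard ≤ 4) (hz : DPt T z a b c d)
    (nd : [a, b, c, d, e, f].Nodup) (hq : dist q z = 1) (hTq : T q = {c, d, f})
    (d1 : dist x₁ z = 1) (c1 : T x₁ = {a, b, e}) (d2 : dist x₂ z = 1) (c2 : T x₂ = {a, b, e})
    (d3 : dist x₃ z = 1) (c3 : T x₃ = {a, b, e}) (n12 : x₁ ≠ x₂) (n13 : x₁ ≠ x₃) (n23 : x₂ ≠ x₃) :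
    False := by
  obtain ⟨⟨ab, ac, ad, ae, af⟩, ⟨bc, bd, be, bf⟩, ⟨cd, ce, cf⟩, ⟨de, df⟩, ef⟩ := nodup_sep nd
  have he : e ∉ T z := by rw [hz.pal]; simp [Ne.symm ae, Ne.symm be, Ne.symm ce, Ne.symm de]
  have hf : f ∉ T z := by rw [hz.pal]; simp [Ne.symm af, Ne.symm bf, Ne.symm cf, Ne.symm df]
  have key : ∀ x, dist x z = 1 → T x = {a, b, e} → EE T z x ∧ EE T z q ∧ T x = (T q)ᶜ := by
    intro x hx hTx
    obtain ⟨k1, k2, k3⟩ := Cfg.ends h ⟨hz, hx, hq, hTx, hTq, he, hf, ef⟩ (h4 _)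
    exact ⟨k1, k2, by rw [k3, compl_compl]⟩
  obtain ⟨k1, kq, m1⟩ := key x₁ d1 c1
  obtain ⟨k2, -, m2⟩ := key x₂ d2 c2
  obtain ⟨k3, -, m3⟩ := key x₃ d3 c3
  exact three_ends h h4 kq k1 m1 k2 m2 k3 m3 n12 n13 n23

/-- **RULE 2**, as a bound for the number of points -/
theorem Irr.rule2_ncard (h : Irr U T) (h4 : ∀ x, (T x).ncard ≤ 4) (hz : DPt T z a b c d)
    (nd : [a, b, c, d, e, f].Nodup) (hq : dist q z = 1) (hTq : T q = {c, d, f}) :
    {x : ℂ | dist x z = 1 ∧ T x = {a, b, e}}.Finite ∧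
      {x : ℂ | dist x z = 1 ∧ T x = {a, b, e}}.ncard ≤ 2 := by
  have key : ∀ x₁ x₂ x₃, x₁ ∈ {x : ℂ | dist x z = 1 ∧ T x = {a, b, e}} →
      x₂ ∈ {x : ℂ | dist x z = 1 ∧ T x = {a, b, e}} →
      x₃ ∈ {x : ℂ | dist x z = 1 ∧ T x = {a, b, e}} → x₁ = x₂ ∨ x₁ = x₃ ∨ x₂ = x₃ := by
    intro x₁ x₂ x₃ h1 h2 h3
    by_contra hcon
    push Not at hcon
    exact h.rule2 h4 hz nd hq hTq h1.1 h1.2 h2.1 h2.2 h3.1 h3.2 hcon.1 hcon.2.1 hcon.2.2
  obtain ⟨S, hS⟩ : ∃ S, S = {x : ℂ | dist x z = 1 ∧ T x = {a, b, e}} := ⟨_, rfl⟩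
  rw [← hS] at key ⊢
  have hsub : ∃ x y, S ⊆ {x, y} := by
    rcases S.eq_empty_or_nonempty with h1 | ⟨x, hx⟩
    · exact ⟨0, 0, by rw [h1]; exact Set.empty_subset _⟩
    by_cases h2 : ∃ y ∈ S, y ≠ x
    · obtain ⟨y, hy, hyx⟩ := h2
      refine ⟨x, y, fun w hw => ?_⟩
      rcases key x y w hx hy hw with h3 | h3 | h3
      · exact absurd h3.symm hyx
      · exact Or.inl h3.symm
      · exact Or.inr h3.symm
    · push Not at h2
      exact ⟨x, x, fun w hw => Or.inl (h2 w hw)⟩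
  obtain ⟨x, y, hxy⟩ := hsub
  have hfin : S.Finite := (Set.toFinite {x, y}).subset hxy
  refine ⟨hfin, (Set.ncard_le_ncard hxy (Set.toFinite _)).trans ?_⟩
  have := Set.ncard_insert_le x ({y} : Set ℂ)
  rw [Set.ncard_singleton] at this
  exact this

end Vale.Agent.P032.Six
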