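import Vale.Agent.P032.R2.H609.W2E
import Vale.Agent.P032.R2.H784.ConvC

/-!
# P032: convexity in the world `WT`

`z = {ab|cd}`, missing colours `e, f`.  Every open arc of `S(z)` longer than 180 degrees contains an end
`{a, b, e}` or `{c, d, f}` of an exact arc of `z`, or two points `u`, `u + 1` which both carry `e` and
`f` and one of which has four colours.  A contact `{a, b, e, f}` or `{c, d, e, f}` whose flanks have three
colours is not a flip.
-/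

set_option autoImplicit false

open Set Filter Topology Metric

noncomputable section

namespace Vale.Agent.P032.Six

open S5.H767 (Ex Lt Xs pt Ctr sub_of_closure dist_of_closure ctr_of_dpt dist_pt dist_pt_one pt_sum
  pt_three pt_six Lt_dist Lt_col ex_self)
open Vale.Agent.P032.Words

variable {U : Fin 6 → Set ℂ} {T : ℂ → Set (Fin 6)} {z y p q : ℂ} {a b c d e f : Fin 6}

/-- an end of class one of an exact arc of `z = {ab|cd}` -/
def REnd (T : ℂ → Set (Fin 6)) (z : ℂ) (a b c d e f : Fin 6) (p : ℂ) : Prop :=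
  (T p = {a, b, e} ∧ p ∈ closure (Ex T z {a, b})) ∨ (T p = {c, d, f} ∧ p ∈ closure (Ex T z {c, d}))

theorem eq_three {S : Set (Fin 6)} {i j k : Fin 6} (h3 : S.ncard ≤ 3) (hi : i ∈ S) (hj : j ∈ S)
    (hk : k ∈ S) (hij : i ≠ j) (hik : i ≠ k) (hjk : j ≠ k) : S = {i, j, k} := by
  have hs : ({i, j, k} : Set (Fin 6)) ⊆ S := by
    rintro m (rfl | rfl | hm)
    · exact hi
    · exact hj
    · rw [mem_singleton_iff] at hm; subst hm; exact hk
  have hc : ({i, j, k} : Set (Fin 6)).ncard = 3 :=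
    Set.ncard_eq_three.2 ⟨i, j, k, hij, hik, hjk, rfl⟩
  exact (Set.eq_of_subset_of_ncard_le hs (by omega) (Set.toFinite _)).symm

theorem rk1_lt (l m : Fin 4) (h : rk1 l < rk1 m) :
    l = 2 ∨ (l = 1 ∧ (m = 0 ∨ m = 3)) ∨ (l = 0 ∧ m = 3) := by
  revert l m; decide

theorem rk1_lt' (l m : Fin 4) (h : rk1 l < rk1 m) : l ≠ m ∧ l ≠ 3 ∧ m ≠ 2 := by
  revert l m; decide

namespace WT

/-- letters -/
theorem let0 (h : p ∈ Lt T z a b c d e f 0) : e ∈ T p := h.2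
theorem let1 (h : p ∈ Lt T z a b c d e f 1) : f ∈ T p := h.2
theorem let2 (h : Irr U T) (hp : p ∈ Lt T z a b c d e f 2) : a ∈ T p ∧ b ∈ T p :=
  ⟨sub_of_closure h hp (by simp), sub_of_closure h hp (by simp)⟩
theorem let3 (h : Irr U T) (hp : p ∈ Lt T z a b c d e f 3) : c ∈ T p ∧ d ∈ T p :=
  ⟨sub_of_closure h hp (by simp), sub_of_closure h hp (by simp)⟩

/-- a four coloured point of `S(z)` carries the missing colours -/
theorem ef_of_four (H : WT U T) (hz : DPt T z a b c d) (nd : [a, b, c, d, e, f].Nodup)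
    (hp : dist p z = 1) (h4 : 4 ≤ (T p).ncard) : e ∈ T p ∧ f ∈ T p := by
  have h5 := H.le4 hz.card.ge hp
  obtain ⟨i, j, -, -, -, hT⟩ := H.contact_pal hz nd hp (by omega)
  rw [hT]; simp

/-- no point of `S(z)` has the colours of `z` -/
theorem not_abcd (H : WT U T) (hz : DPt T z a b c d) (nd : [a, b, c, d, e, f].Nodup)
    (hp : dist p z = 1) (ha : a ∈ T p) (hb : b ∈ T p) (hc : c ∈ T p) (hd : d ∈ T p) : False := by
  obtain ⟨⟨ab, ac, ad, ae, af⟩, ⟨bc, bd, be, bf⟩, ⟨cd, ce, cf⟩, ⟨de, df⟩, ef⟩ := nodup_sep nd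
  have hs : ({a, b, c, d} : Set (Fin 6)) ⊆ T p := by
    rintro j (rfl | rfl | rfl | hj)
    · exact ha
    · exact hb
    · exact hc
    · rw [mem_singleton_iff] at hj; rw [hj]; exact hd
  have h4 : 4 ≤ (T p).ncard := by
    have h6 : ({a, b, c, d} : Set (Fin 6)).ncard = 4 := card_four (by simp [ab, ac, ad, bc, bd, cd])
    rw [← h6]
    exact Set.ncard_le_ncard hs (Set.toFinite _)
  have h5 := H.le4 hz.card.ge hp
  have haz : a ∈ T z := by rw [hz.pal]; simp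
  have hbz : b ∈ T z := by rw [hz.pal]; simp
  have hcz : c ∈ T z := by rw [hz.pal]; simp
  exact H.no_three hp (by omega) hz.card ab ac bc ⟨ha, haz⟩ ⟨hb, hbz⟩ ⟨hc, hcz⟩

/-- **the pair with a four coloured point** -/
theorem pair_core (H : WT U T) (hmin : MinF U T) (hz : DPt T z a b c d)
    (nd : [a, b, c, d, e, f].Nodup) (hp : dist p z = 1) (hq : dist q z = 1) (hpq : dist q p = 1)
    (h4 : 4 ≤ (T p).ncard)
    (hup : ∃ l m, rk1 l < rk1 m ∧ p ∈ Lt T z a b c d e f l ∧ q ∈ Lt T z a b c d e f m)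
    (hdn : ∃ l m, rk1 m < rk1 l ∧ p ∈ Lt T z a b c d e f l ∧ q ∈ Lt T z a b c d e f m)
    (hint : ∀ m, p ∈ Lt T z a b c d e f m → q ∈ Lt T z a b c d e f m →
      ∃ n, n ≠ m ∧ q ∈ Lt T z a b c d e f n) :
    REnd T z a b c d e f q ∨ ((e ∈ T p ∧ f ∈ T p) ∧ e ∈ T q ∧ f ∈ T q) := by
  have h := H.irr
  obtain ⟨⟨ab, ac, ad, ae, af⟩, ⟨bc, bd, be, bf⟩, ⟨cd, ce, cf⟩, ⟨de, df⟩, ef⟩ := nodup_sep nd
  obtain ⟨hep, hfp⟩ := H.ef_of_four hz nd hp h4
  have hp4 : (T p).ncard = 4 := by have := H.le4 hz.card.ge hp; omega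
  by_cases hq4 : 4 ≤ (T q).ncard
  · exact Or.inr ⟨⟨hep, hfp⟩, H.ef_of_four hz nd hq hq4⟩
  have hq3 : (T q).ncard ≤ 3 := by omega
  -- the two kinds of ends
  have endA : e ∈ T q → q ∈ Lt T z a b c d e f 2 → REnd T z a b c d e f q := by
    intro h1 h2
    obtain ⟨h3, h5⟩ := let2 h h2
    exact Or.inl ⟨eq_three hq3 h3 h5 h1 ab ae be, h2⟩
  have endC : f ∈ T q → q ∈ Lt T z a b c d e f 3 → REnd T z a b c d e f q := by
    intro h1 h2
    obtain ⟨h3, h5⟩ := let3 h h2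
    exact Or.inr ⟨eq_three hq3 h3 h5 h1 cd cf df, h2⟩
  have noAC : q ∈ Lt T z a b c d e f 2 → q ∈ Lt T z a b c d e f 3 → False := by
    intro h1 h2
    obtain ⟨h3, h5⟩ := let2 h h1
    obtain ⟨h6, h7⟩ := let3 h h2
    exact H.not_abcd hz nd hq h3 h5 h6 h7
  obtain ⟨l, m, hlm, hl, hm⟩ := hup
  obtain ⟨l', m', hlm', hl', hm'⟩ := hdn
  -- the palette of `p`
  obtain ⟨i, j, hij, hiz, hjz, hTp⟩ := H.contact_pal hz nd hp hp4
  by_cases hab : T p = {a, b, e, f}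
  · obtain ⟨⟨hc, hd⟩, ha, hb⟩ := H.flank_same hmin hz nd hp hab hq hpq
    have hm2 : ¬ q ∈ Lt T z a b c d e f 2 := fun h1 => ha (let2 h h1).1
    have hl3 : ¬ p ∈ Lt T z a b c d e f 3 := fun h1 => by
      have := (let3 h h1).1
      rw [hab] at this
      simp [Ne.symm ac, Ne.symm bc, ce, cf] at this
    have key : ∀ l m : Fin 4, rk1 m < rk1 l → l ≠ 3 → m ≠ 2 → m = 1 := by decide
    have hm1 : m' = 1 := key l' m' hlm' (by rintro rfl; exact hl3 hl') (by rintro rfl; exact hm2 hm')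
    subst hm1
    have hfq : f ∈ T q := let1 hm'
    obtain ⟨n, hn, hqn⟩ := hint 1 ⟨hp, hfp⟩ hm'
    have key2 : ∀ n : Fin 4, n ≠ 1 → n ≠ 2 → n = 0 ∨ n = 3 := by decide
    rcases key2 n hn (by rintro rfl; exact hm2 hqn) with rfl | rfl
    · exact Or.inr ⟨⟨hep, hfp⟩, let0 hqn, hfq⟩
    · exact Or.inl (endC hfq hqn)
  by_cases hcd : T p = {c, d, e, f}
  · have nd' : [c, d, a, b, e, f].Nodup := by
      simp [Ne.symm ac, Ne.symm bc, Ne.symm ad, Ne.symm bd, ab, ae, af, be, bf, cd, ce, cf, de,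
        df, ef]
    obtain ⟨⟨ha, hb⟩, hc, hd⟩ := H.flank_same hmin hz.swap nd' hp hcd hq hpq
    have hm3 : ¬ q ∈ Lt T z a b c d e f 3 := fun h1 => hc (let3 h h1).1
    have hl2 : ¬ p ∈ Lt T z a b c d e f 2 := fun h1 => by
      have := (let2 h h1).1
      rw [hcd] at this
      simp [ac, ad, ae, af] at this
    have key : ∀ l m : Fin 4, rk1 l < rk1 m → l ≠ 2 → m ≠ 3 → m = 0 := by decide
    have hm1 : m = 0 := key l m hlm (by rintro rfl; exact hl2 hl) (by rintro rfl; exact hm3 hm)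
    subst hm1
    have heq : e ∈ T q := let0 hm
    obtain ⟨n, hn, hqn⟩ := hint 0 ⟨hp, hep⟩ hm
    have key2 : ∀ n : Fin 4, n ≠ 0 → n ≠ 3 → n = 1 ∨ n = 2 := by decide
    rcases key2 n hn (by rintro rfl; exact hm3 hqn) with rfl | rfl
    · exact Or.inr ⟨⟨hep, hfp⟩, heq, let1 hqn⟩
    · exact Or.inl (endA heq hqn)
  -- mixed
  have hpa : ¬ p ∈ Lt T z a b c d e f 2 := by
    intro h1
    obtain ⟨h3, h5⟩ := let2 h h1
    refine hab ?_
    have hs : ({a, b, e, f} : Set (Fin 6)) ⊆ T p := by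
      rintro n (rfl | rfl | rfl | hn)
      · exact h3
      · exact h5
      · exact hep
      · rw [mem_singleton_iff] at hn; rw [hn]; exact hfp
    exact (Set.eq_of_subset_of_ncard_le hs (by rw [hp4, card_four (by simp [ab, ae, af, be, bf, ef])])
      (Set.toFinite _)).symm
  have hpc : ¬ p ∈ Lt T z a b c d e f 3 := by
    intro h1
    obtain ⟨h3, h5⟩ := let3 h h1
    refine hcd ?_
    have hs : ({c, d, e, f} : Set (Fin 6)) ⊆ T p := by
      rintro n (rfl | rfl | rfl | hn)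
      · exact h3
      · exact h5
      · exact hep
      · rw [mem_singleton_iff] at hn; rw [hn]; exact hfp
    exact (Set.eq_of_subset_of_ncard_le hs (by rw [hp4, card_four (by simp [cd, ce, cf, de, df, ef])])
      (Set.toFinite _)).symm
  have hl2 : l ≠ 2 := by rintro rfl; exact hpa hl
  have hl3' : l' ≠ 3 := by rintro rfl; exact hpc hl'
  by_cases heq : e ∈ T q
  · by_cases hfq : f ∈ T q
    · exact Or.inr ⟨⟨hep, hfp⟩, heq, hfq⟩
    · -- `A` at `q`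
      have hm1 : m' ≠ 1 := by rintro rfl; exact hfq (let1 hm')
      have key : ∀ l m : Fin 4, rk1 m < rk1 l → l ≠ 3 → m ≠ 1 → m = 2 := by decide
      have := key l' m' hlm' hl3' hm1
      subst this
      exact Or.inl (endA heq hm')
  · have hm0 : m ≠ 0 := by rintro rfl; exact heq (let0 hm)
    have key : ∀ l m : Fin 4, rk1 l < rk1 m → l ≠ 2 → m ≠ 0 → m = 3 := by decide
    have := key l m hlm hl2 hm0
    subst this
    have hm2 : m' ≠ 2 := by rintro rfl; exact noAC hm' hm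
    have key2 : ∀ l m : Fin 4, rk1 m < rk1 l → l ≠ 3 → m ≠ 2 → m = 1 := by decide
    have := key2 l' m' hlm' hl3' hm2
    subst this
    exact Or.inl (endC (let1 hm') hm)

/-- **Convexity** in the world `WT`, class one -/
theorem conv (H : WT U T) (hmin : MinF U T) (hz : DPt T z a b c d) (nd : [a, b, c, d, e, f].Nodup)
    {x y : ℝ} (hxy : x + 3 < y) :
    (∃ u ∈ Ioo x y, REnd T z a b c d e f (pt z u)) ∨
      ∃ u ∈ Ioo x (y - 1), (4 ≤ (T (pt z u)).ncard ∨ 4 ≤ (T (pt z (u + 1))).ncard) ∧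
        (e ∈ T (pt z u) ∧ f ∈ T (pt z u)) ∧ e ∈ T (pt z (u + 1)) ∧ f ∈ T (pt z (u + 1)) := by
  have C := ctr_of_dpt H.irr hz nd
  have w := C.rawU hz
  obtain ⟨⟨ab, ac, ad, ae, af⟩, ⟨bc, bd, be, bf⟩, ⟨cd, ce, cf⟩, ⟨de, df⟩, ef⟩ := nodup_sep nd
  obtain ⟨u, hu, hU, hD⟩ := w.conv_amb Rk.one hxy
  have hX : ∀ {v : ℝ} {l : Fin 4}, v ∈ Xs T z a b c d e f l → pt z v ∈ Lt T z a b c d e f l :=
    fun h => h
  have hu0 : u ∈ Ioo x y := ⟨hu.1, by linarith [hu.2]⟩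
  have hu1 : u + 1 ∈ Ioo x y := ⟨by linarith [hu.1], by linarith [hu.2]⟩
  have d1 : dist (pt z (u + 1)) (pt z u) = 1 := by rw [dist_comm]; exact dist_pt_one z u
  have hint : ∀ v s : ℝ, s = v + 1 ∨ s = v - 1 → ∀ m, s ∈ Xs T z a b c d e f m →
      v ∈ Xs T z a b c d e f m → ∃ n, n ≠ m ∧ v ∈ Xs T z a b c d e f n := by
    intro v s hs m h1 h2
    by_contra hcon
    push Not at hcon
    have h3 := w.int (u := v) (l := m) fun n hn => by
      by_contra hne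
      exact hcon n hne hn
    rcases hs with rfl | rfl
    · exact h3.1 h1
    · exact h3.2 h1
  by_cases h4 : 4 ≤ (T (pt z u)).ncard
  · rcases H.pair_core hmin hz nd (dist_pt z u) (dist_pt z (u + 1)) d1 h4 hU hD
      (fun m k1 k2 => hint (u + 1) u (Or.inr (by ring)) m k1 k2) with h5 | h5
    · exact Or.inl ⟨u + 1, hu1, h5⟩
    · exact Or.inr ⟨u, hu, Or.inl h4, h5.1, h5.2⟩
  by_cases h4' : 4 ≤ (T (pt z (u + 1))).ncard
  · obtain ⟨l, m, hlm, hl, hm⟩ := hU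
    obtain ⟨l', m', hlm', hl', hm'⟩ := hD
    rcases H.pair_core hmin hz nd (dist_pt z (u + 1)) (dist_pt z u) (dist_pt_one z u) h4'
      ⟨m', l', hlm', hm', hl'⟩ ⟨m, l, hlm, hm, hl⟩
      (fun m k1 k2 => hint u (u + 1) (Or.inl rfl) m k1 k2) with h5 | h5
    · exact Or.inl ⟨u, hu0, h5⟩
    · exact Or.inr ⟨u, hu, Or.inr h4', h5.2, h5.1⟩
  · left
    rcases w.amb Rk.one hU hD with h5 | h5 | h5
    · refine ⟨u, hu0, ?_⟩
      obtain ⟨l, m, hlm, hl, hm⟩ := h5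
      have hcc : ∀ l m : Fin 4, rk1 l + 2 ≤ rk1 m →
          (l = 2 ∧ m = 0) ∨ (l = 2 ∧ m = 3) ∨ (l = 1 ∧ m = 3) := by decide
      have h3 : (T (pt z u)).ncard ≤ 3 := by omega
      rcases hcc l m hlm with ⟨rfl, rfl⟩ | ⟨rfl, rfl⟩ | ⟨rfl, rfl⟩
      · obtain ⟨k1, k2⟩ := let2 H.irr (hX hl)
        exact Or.inl ⟨eq_three h3 k1 k2 hm.2 ab ae be, hl⟩
      · exact absurd hm (fun h' => C.noAC h3 hl h')
      · obtain ⟨k1, k2⟩ := let3 H.irr (hX hm)
        exact Or.inr ⟨eq_three h3 k1 k2 hl.2 cd cf df, hm⟩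
    · refine ⟨u + 1, hu1, ?_⟩
      obtain ⟨l, m, hlm, hl, hm⟩ := h5
      have hcc : ∀ l m : Fin 4, rk1 l + 2 ≤ rk1 m →
          (l = 2 ∧ m = 0) ∨ (l = 2 ∧ m = 3) ∨ (l = 1 ∧ m = 3) := by decide
      have h3 : (T (pt z (u + 1))).ncard ≤ 3 := by omega
      rcases hcc l m hlm with ⟨rfl, rfl⟩ | ⟨rfl, rfl⟩ | ⟨rfl, rfl⟩
      · obtain ⟨k1, k2⟩ := let2 H.irr (hX hl)
        exact Or.inl ⟨eq_three h3 k1 k2 hm.2 ab ae be, hl⟩
      · exact absurd hm (fun h' => C.noAC h3 hl h')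
      · obtain ⟨k1, k2⟩ := let3 H.irr (hX hm)
        exact Or.inr ⟨eq_three h3 k1 k2 hl.2 cd cf df, hm⟩
    · rcases C.swp_four h5 with h6 | h6
      · exact absurd h6 h4
      · exact absurd h6 h4'

/-- **Convexity**, class two: the ends are `{a, b, f}` and `{c, d, e}` -/
theorem conv' (H : WT U T) (hmin : MinF U T) (hz : DPt T z a b c d)
    (nd : [a, b, c, d, e, f].Nodup) {x y : ℝ} (hxy : x + 3 < y) :
    (∃ u ∈ Ioo x y, REnd T z a b c d f e (pt z u)) ∨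
      ∃ u ∈ Ioo x (y - 1), (4 ≤ (T (pt z u)).ncard ∨ 4 ≤ (T (pt z (u + 1))).ncard) ∧
        (e ∈ T (pt z u) ∧ f ∈ T (pt z u)) ∧ e ∈ T (pt z (u + 1)) ∧ f ∈ T (pt z (u + 1)) := by
  obtain ⟨⟨ab, ac, ad, ae, af⟩, ⟨bc, bd, be, bf⟩, ⟨cd, ce, cf⟩, ⟨de, df⟩, ef⟩ := nodup_sep nd
  have nd' : [a, b, c, d, f, e].Nodup := by
    simp [ab, ac, ad, ae, af, bc, bd, be, bf, cd, ce, cf, de, df, Ne.symm ef]
  rcases H.conv hmin hz nd' hxy with h1 | ⟨u, h1, h2, h3, h4⟩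
  · exact Or.inl h1
  · exact Or.inr ⟨u, h1, h2, h3.symm, h4.symm⟩

end WT

end Vale.Agent.P032.Six
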