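import Vale.Agent.P032.R2.H609.WLim
import Vale.Agent.P032.R2.H939.W2Tri
import Vale.Agent.P032.S5.H80.Ends

/-!
# P032: the facts about one circle in the world `WT`, in the form used by the certificates

`z = {ab|cd}`; `p, q ∈ S(z)` at distance one.

* `WT.f_q4e`, `WT.f_notri`, `WT.f_swap4`, `WT.f_flanksame`, `WT.f_flank4`, `WT.f_flankr`,
  `WT.f_q4cases`;
* `Irr.f_s4word`: at a contact `ae|bf` exactly one of the two limit letters is `ab`;
* `Irr.f_vis`: at an end of class one whose complementary palette is present the two limit letters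
  are different.
-/

set_option autoImplicit false

open Set Filter Topology Metric

noncomputable section

namespace Vale.Agent.P032.Six

open S5.H767 (Ex Lt Xs pt Ctr sub_of_closure dist_of_closure ctr_of_dpt dist_pt dist_pt_one pt_sum
  pt_three pt_six Lt_dist Lt_col ex_self)

variable {U : Fin 6 → Set ℂ} {T : ℂ → Set (Fin 6)} {z y p q : ℂ} {a b c d e f : Fin 6} {v : ℝ}

theorem nodup_swap609 (nd : [a, b, c, d, e, f].Nodup) : [c, d, a, b, e, f].Nodup := by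
  obtain ⟨⟨ab, ac, ad, ae, af⟩, ⟨bc, bd, be, bf⟩, ⟨cd, ce, cf⟩, ⟨de, df⟩, ef⟩ := nodup_sep nd
  simp [ab, Ne.symm ac, Ne.symm ad, ae, af, Ne.symm bc, Ne.symm bd, be, bf, cd, ce, cf, de, df, ef]

theorem nodup_swap12 (nd : [a, b, c, d, e, f].Nodup) : [b, a, c, d, e, f].Nodup := by
  obtain ⟨⟨ab, ac, ad, ae, af⟩, ⟨bc, bd, be, bf⟩, ⟨cd, ce, cf⟩, ⟨de, df⟩, ef⟩ := nodup_sep nd
  simp [Ne.symm ab, ac, ad, ae, af, bc, bd, be, bf, cd, ce, cf, de, df, ef]

theorem nodup_swap34 (nd : [a, b, c, d, e, f].Nodup) : [a, b, d, c, e, f].Nodup := by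
  obtain ⟨⟨ab, ac, ad, ae, af⟩, ⟨bc, bd, be, bf⟩, ⟨cd, ce, cf⟩, ⟨de, df⟩, ef⟩ := nodup_sep nd
  simp [ab, ac, ad, ae, af, bc, bd, be, bf, Ne.symm cd, ce, cf, de, df, ef]

theorem nodup_swap56 (nd : [a, b, c, d, e, f].Nodup) : [a, b, c, d, f, e].Nodup := by
  obtain ⟨⟨ab, ac, ad, ae, af⟩, ⟨bc, bd, be, bf⟩, ⟨cd, ce, cf⟩, ⟨de, df⟩, ef⟩ := nodup_sep nd
  simp [ab, ac, ad, ae, af, bc, bd, be, bf, cd, ce, cf, de, df, Ne.symm ef]

namespace WT

/-- family `q4e` -/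
theorem f_q4e (H : WT U T) (hz : DPt T z a b c d) (nd : [a, b, c, d, e, f].Nodup)
    (hp : dist p z = 1) (h4 : 4 ≤ (T p).ncard) : e ∈ T p ∧ f ∈ T p :=
  H.ef_of_four hz nd hp h4

/-- family `notri` -/
theorem f_notri (H : WT U T) (hmin : MinF U T) (hz : DPt T z a b c d) (hp : dist p z = 1)
    (hq : dist q z = 1) (hqp : dist q p = 1) (hp4 : 4 ≤ (T p).ncard) : (T q).ncard ≤ 3 := by
  by_contra hcon
  exact H.no_tri hmin hz hp hq hqp hp4 (by omega)

/-- family `swap4` -/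
theorem f_swap4 (H : WT U T) (hmin : MinF U T) (hz : DPt T z a b c d)
    (nd : [a, b, c, d, e, f].Nodup) (hp : dist p z = 1) (hq : dist q z = 1) (hqp : dist q p = 1)
    (hp4 : 4 ≤ (T p).ncard) (he : e ∈ T q) (hf : f ∈ T q) :
    DPt T p a c e f ∨ DPt T p a d e f ∨ DPt T p b c e f ∨ DPt T p b d e f := by
  obtain ⟨i, j, rfl | rfl, rfl | rfl, h1⟩ := H.swap_s4r hmin hz nd hp hq hqp hp4 he hf
  · exact Or.inl h1
  · exact Or.inr (Or.inl h1)
  · exact Or.inr (Or.inr (Or.inl h1))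
  · exact Or.inr (Or.inr (Or.inr h1))

/-- the palette of a four-coloured point with the colours `a, b` -/
theorem pal_same (H : WT U T) (hz : DPt T z a b c d) (nd : [a, b, c, d, e, f].Nodup)
    (hp : dist p z = 1) (hp4 : 4 ≤ (T p).ncard) (ha : a ∈ T p) (hb : b ∈ T p) :
    T p = {a, b, e, f} := by
  obtain ⟨⟨ab, ac, ad, ae, af⟩, ⟨bc, bd, be, bf⟩, ⟨cd, ce, cf⟩, ⟨de, df⟩, ef⟩ := nodup_sep nd
  have h4 : (T p).ncard = 4 := by have := H.le4 hz.card.ge hp; omega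
  obtain ⟨h1, h2⟩ := H.ef_of_four hz nd hp hp4
  have h3 : ({a, b, e, f} : Set (Fin 6)) ⊆ T p := by
    rintro i (rfl | rfl | rfl | hi)
    · exact ha
    · exact hb
    · exact h1
    · rw [mem_singleton_iff] at hi; rw [hi]; exact h2
  exact (Set.eq_of_subset_of_ncard_le h3 (by
    rw [h4, card_four (by simp [ab, ae, af, be, bf, ef])]) (Set.toFinite _)).symm

/-- family `flanksame` (for the other pair use `hz.swap`) -/
theorem f_flanksame (H : WT U T) (hmin : MinF U T) (hz : DPt T z a b c d)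
    (nd : [a, b, c, d, e, f].Nodup) (hp : dist p z = 1) (hq : dist q z = 1) (hqp : dist q p = 1)
    (hp4 : 4 ≤ (T p).ncard) (ha : a ∈ T p) (hb : b ∈ T p) :
    (c ∈ T q ∧ d ∈ T q) ∧ a ∉ T q ∧ b ∉ T q :=
  H.flank_same hmin hz nd hp (H.pal_same hz nd hp hp4 ha hb) hq hqp

/-- family `flanksame`, the other pair -/
theorem f_flanksame' (H : WT U T) (hmin : MinF U T) (hz : DPt T z a b c d)
    (nd : [a, b, c, d, e, f].Nodup) (hp : dist p z = 1) (hq : dist q z = 1) (hqp : dist q p = 1)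
    (hp4 : 4 ≤ (T p).ncard) (hc : c ∈ T p) (hd : d ∈ T p) :
    (a ∈ T q ∧ b ∈ T q) ∧ c ∉ T q ∧ d ∉ T q :=
  H.f_flanksame hmin hz.swap (nodup_swap609 nd) hp hq hqp hp4 hc hd

/-- no flank of a point `{a, b, e, f}` has both colours `e, f` -/
theorem f_flank4_core (H : WT U T) (hmin : MinF U T) (hz : DPt T z a b c d)
    (nd : [a, b, c, d, e, f].Nodup) (hp : dist p z = 1) (hq : dist q z = 1) (hqp : dist q p = 1)
    (hp4 : 4 ≤ (T p).ncard) (ha : a ∈ T p) (hb : b ∈ T p) (he : e ∈ T q) (hf : f ∈ T q) :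
    False := by
  obtain ⟨⟨ab, ac, ad, ae, af⟩, ⟨bc, bd, be, bf⟩, ⟨cd, ce, cf⟩, ⟨de, df⟩, ef⟩ := nodup_sep nd
  obtain ⟨⟨h1, h2⟩, -, -⟩ := H.f_flanksame hmin hz nd hp hq hqp hp4 ha hb
  have h3 := H.f_notri hmin hz hp hq hqp hp4
  have h4 : ({c, d, e, f} : Set (Fin 6)) ⊆ T q := by
    rintro i (rfl | rfl | rfl | hi)
    · exact h1
    · exact h2
    · exact he
    · rw [mem_singleton_iff] at hi; rw [hi]; exact hf
  have h5 := Set.ncard_le_ncard h4 (Set.toFinite _)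
  rw [card_four (by simp [cd, ce, cf, de, df, ef])] at h5
  omega

/-- family `flank4`: `p = ae|bf` or `af|be` -/
theorem f_flank4 (H : WT U T) (hmin : MinF U T) (hz : DPt T z a b c d)
    (nd : [a, b, c, d, e, f].Nodup) (hp : dist p z = 1) (hq : dist q z = 1) (hqp : dist q p = 1)
    (hD : DPt T p a e b f ∨ DPt T p a f b e) : ¬ (e ∈ T q ∧ f ∈ T q) := by
  rintro ⟨he, hf⟩
  rcases hD with hD | hD
  · exact H.f_flank4_core hmin hz nd hp hq hqp hD.card.ge (by rw [hD.pal]; simp)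
      (by rw [hD.pal]; simp) he hf
  · exact H.f_flank4_core hmin hz nd hp hq hqp hD.card.ge (by rw [hD.pal]; simp)
      (by rw [hD.pal]; simp) he hf

/-- family `flank4`, the other pair: `p = ce|df` or `cf|de` -/
theorem f_flank4' (H : WT U T) (hmin : MinF U T) (hz : DPt T z a b c d)
    (nd : [a, b, c, d, e, f].Nodup) (hp : dist p z = 1) (hq : dist q z = 1) (hqp : dist q p = 1)
    (hD : DPt T p c e d f ∨ DPt T p c f d e) : ¬ (e ∈ T q ∧ f ∈ T q) :=
  H.f_flank4 hmin hz.swap (nodup_swap609 nd) hp hq hqp hD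

/-- family `flankr` for `ac|ef` -/
theorem f_flankr (H : WT U T) (hmin : MinF U T) (hz : DPt T z a b c d)
    (nd : [a, b, c, d, e, f].Nodup) (hp : dist p z = 1) (hq : dist q z = 1) (hqp : dist q p = 1)
    (hD : DPt T p a c e f) :
    (e ∈ T q ∧ f ∈ T q) ∧ a ∉ T q ∧ c ∉ T q ∧ ¬ (b ∈ T q ∧ d ∈ T q) := by
  obtain ⟨⟨ab, ac, ad, ae, af⟩, ⟨bc, bd, be, bf⟩, ⟨cd, ce, cf⟩, ⟨de, df⟩, ef⟩ := nodup_sep nd
  obtain ⟨h1, h2, h3⟩ := H.flank_s4r hmin hz nd hD hp hq hqp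
  refine ⟨h1, h2, h3, fun h4 => ?_⟩
  have h5 := H.f_notri hmin hz hp hq hqp hD.card.ge
  have h6 : ({b, d, e, f} : Set (Fin 6)) ⊆ T q := by
    rintro i (rfl | rfl | rfl | hi)
    · exact h4.1
    · exact h4.2
    · exact h1.1
    · rw [mem_singleton_iff] at hi; rw [hi]; exact h1.2
  have h7 := Set.ncard_le_ncard h6 (Set.toFinite _)
  rw [card_four (by simp [bd, be, bf, de, df, ef])] at h7
  omega

/-- family `flankr` for `ad|ef` -/
theorem f_flankr_ad (H : WT U T) (hmin : MinF U T) (hz : DPt T z a b c d)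
    (nd : [a, b, c, d, e, f].Nodup) (hp : dist p z = 1) (hq : dist q z = 1) (hqp : dist q p = 1)
    (hD : DPt T p a d e f) :
    (e ∈ T q ∧ f ∈ T q) ∧ a ∉ T q ∧ d ∉ T q ∧ ¬ (b ∈ T q ∧ c ∈ T q) :=
  H.f_flankr hmin hz.swap34 (nodup_swap34 nd) hp hq hqp hD

/-- family `flankr` for `bc|ef` -/
theorem f_flankr_bc (H : WT U T) (hmin : MinF U T) (hz : DPt T z a b c d)
    (nd : [a, b, c, d, e, f].Nodup) (hp : dist p z = 1) (hq : dist q z = 1) (hqp : dist q p = 1)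
    (hD : DPt T p b c e f) :
    (e ∈ T q ∧ f ∈ T q) ∧ b ∉ T q ∧ c ∉ T q ∧ ¬ (a ∈ T q ∧ d ∈ T q) :=
  H.f_flankr hmin hz.swap12 (nodup_swap12 nd) hp hq hqp hD

/-- family `flankr` for `bd|ef` -/
theorem f_flankr_bd (H : WT U T) (hmin : MinF U T) (hz : DPt T z a b c d)
    (nd : [a, b, c, d, e, f].Nodup) (hp : dist p z = 1) (hq : dist q z = 1) (hqp : dist q p = 1)
    (hD : DPt T p b d e f) :
    (e ∈ T q ∧ f ∈ T q) ∧ b ∉ T q ∧ d ∉ T q ∧ ¬ (a ∈ T q ∧ c ∈ T q) :=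
  H.f_flankr hmin hz.swap12.swap34 (nodup_swap34 (nodup_swap12 nd)) hp hq hqp hD

/-- family `q4cases` -/
theorem f_q4cases (H : WT U T) (hmin : MinF U T) (hz : DPt T z a b c d)
    (nd : [a, b, c, d, e, f].Nodup) (hp : dist p z = 1) (hp4 : 4 ≤ (T p).ncard) :
    (∃ A, Harm T p A) ∨ (DPt T p a e b f ∨ DPt T p a f b e) ∨ (DPt T p c e d f ∨ DPt T p c f d e) ∨
      (DPt T p a c e f ∨ DPt T p a e c f ∨ DPt T p a f c e) ∨
      (DPt T p a d e f ∨ DPt T p a e d f ∨ DPt T p a f d e) ∨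
      (DPt T p b c e f ∨ DPt T p b e c f ∨ DPt T p b f c e) ∨
      (DPt T p b d e f ∨ DPt T p b e d f ∨ DPt T p b f d e) := by
  obtain ⟨⟨ab, ac, ad, ae, af⟩, ⟨bc, bd, be, bf⟩, ⟨cd, ce, cf⟩, ⟨de, df⟩, ef⟩ := nodup_sep nd
  have h4 : (T p).ncard = 4 := by have := H.le4 hz.card.ge hp; omega
  rcases H.cases hmin h4 with hA | ⟨w, x, r, s, hD⟩
  · exact Or.inl hA
  right
  obtain ⟨i, j, hij, hi, hj, hT⟩ := H.contact_pal hz nd hp h4
  have sw : ∀ i j : Fin 6, ({i, j, e, f} : Set (Fin 6)) = {j, i, e, f} := fun i j => by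
    ext x; simp only [mem_insert_iff, mem_singleton_iff]; tauto
  rw [hz.pal] at hi hj
  have kab : T p = {a, b, e, f} → DPt T p a e b f ∨ DPt T p a f b e := by
    intro h1
    rcases hD.ways h1 (by simp [ab, ae, af, be, bf, ef]) with h2 | h2 | h2
    · exact (H.no_lock hz hp h2).elim
    · exact Or.inl h2
    · exact Or.inr h2
  have kcd : T p = {c, d, e, f} → DPt T p c e d f ∨ DPt T p c f d e := by
    intro h1
    rcases hD.ways h1 (by simp [cd, ce, cf, de, df, ef]) with h2 | h2 | h2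
    · exact (H.no_lock hz.swap hp h2).elim
    · exact Or.inl h2
    · exact Or.inr h2
  have km : ∀ i j : Fin 6, [i, j, e, f].Nodup → T p = {i, j, e, f} →
      DPt T p i j e f ∨ DPt T p i e j f ∨ DPt T p i f j e := fun i j hn h1 => hD.ways h1 hn
  have nac : [a, c, e, f].Nodup := by simp [ac, ae, af, ce, cf, ef]
  have nad : [a, d, e, f].Nodup := by simp [ad, ae, af, de, df, ef]
  have nbc : [b, c, e, f].Nodup := by simp [bc, be, bf, ce, cf, ef]
  have nbd : [b, d, e, f].Nodup := by simp [bd, be, bf, de, df, ef]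
  rcases hi with rfl | rfl | rfl | hi <;> rcases hj with rfl | rfl | rfl | hj <;>
    try rw [mem_singleton_iff] at hi
  all_goals try rw [mem_singleton_iff] at hj
  all_goals try subst hi
  all_goals try subst hj
  · exact absurd rfl hij
  · exact Or.inl (kab hT)
  · exact Or.inr (Or.inr (Or.inl (km _ _ nac hT)))
  · exact Or.inr (Or.inr (Or.inr (Or.inl (km _ _ nad hT))))
  · exact Or.inl (kab (hT.trans (sw _ _)))
  · exact absurd rfl hij
  · exact Or.inr (Or.inr (Or.inr (Or.inr (Or.inl (km _ _ nbc hT)))))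
  · exact Or.inr (Or.inr (Or.inr (Or.inr (Or.inr (km _ _ nbd hT)))))
  · exact Or.inr (Or.inr (Or.inl (km _ _ nac (hT.trans (sw _ _)))))
  · exact Or.inr (Or.inr (Or.inr (Or.inr (Or.inl (km _ _ nbc (hT.trans (sw _ _)))))))
  · exact absurd rfl hij
  · exact Or.inr (Or.inl (kcd hT))
  · exact Or.inr (Or.inr (Or.inr (Or.inl (km _ _ nad (hT.trans (sw _ _))))))
  · exact Or.inr (Or.inr (Or.inr (Or.inr (Or.inr (km _ _ nbd (hT.trans (sw _ _)))))))
  · exact Or.inr (Or.inl (kcd (hT.trans (sw _ _))))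
  · exact absurd rfl hij

end WT

/-- the circle with the missing colours exchanged -/
def sw01 (l : Fin 4) : Fin 4 := if l = 0 then 1 else if l = 1 then 0 else l

theorem xs_sw56 {s : ℝ} (l : Fin 4) :
    s ∈ Xs T z a b c d f e (sw01 l) ↔ s ∈ Xs T z a b c d e f l := by
  rcases fin4_cases l with rfl | rfl | rfl | rfl <;> rfl

/-- the circle with the pairs exchanged -/
def sw23 (l : Fin 4) : Fin 4 := if l = 2 then 3 else if l = 3 then 2 else l

theorem xs_sw23 {s : ℝ} (l : Fin 4) :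
    s ∈ Xs T z c d a b e f (sw23 l) ↔ s ∈ Xs T z a b c d e f l := by
  rcases fin4_cases l with rfl | rfl | rfl | rfl <;> rfl

theorem LF.sw56 {l : Fin 4} (h : LF T z a b c d e f v l) : LF T z a b c d f e v (sw01 l) :=
  h.mono fun _ hs => (xs_sw56 l).2 hs

theorem RF.sw56 {l : Fin 4} (h : RF T z a b c d e f v l) : RF T z a b c d f e v (sw01 l) :=
  h.mono fun _ hs => (xs_sw56 l).2 hs

theorem LF.sw23 {l : Fin 4} (h : LF T z a b c d e f v l) : LF T z c d a b e f v (sw23 l) :=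
  h.mono fun _ hs => (xs_sw23 l).2 hs

theorem RF.sw23 {l : Fin 4} (h : RF T z a b c d e f v l) : RF T z c d a b e f v (sw23 l) :=
  h.mono fun _ hs => (xs_sw23 l).2 hs

/-- family `s4word`, `ae|bf` and `af|be`: exactly one limit letter is `ab`, and the other one is `e`
or `f` -/
theorem Irr.f_s4word (h : Irr U T) (hz : DPt T z a b c d) (nd : [a, b, c, d, e, f].Nodup)
    (hD : DPt T (pt z v) a e b f ∨ DPt T (pt z v) a f b e) {l m : Fin 4}
    (hl : LF T z a b c d e f v l) (hm : RF T z a b c d e f v m) :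
    (l = 2 ∧ (m = 0 ∨ m = 1)) ∨ (m = 2 ∧ (l = 0 ∨ l = 1)) := by
  rcases hD with hD | hD
  · exact h.s4_letters hz nd hD hl hm
  · have h1 := h.s4_letters hz (nodup_swap56 nd) hD hl.sw56 hm.sw56
    revert h1
    revert l m
    have : ∀ l m : Fin 4, (sw01 l = 2 ∧ (sw01 m = 0 ∨ sw01 m = 1)) ∨
        (sw01 m = 2 ∧ (sw01 l = 0 ∨ sw01 l = 1)) →
        (l = 2 ∧ (m = 0 ∨ m = 1)) ∨ (m = 2 ∧ (l = 0 ∨ l = 1)) := by decide
    intro l m _ _ h1
    exact this l m h1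

/-- family `s4word`, `ce|df` and `cf|de` -/
theorem Irr.f_s4word' (h : Irr U T) (hz : DPt T z a b c d) (nd : [a, b, c, d, e, f].Nodup)
    (hD : DPt T (pt z v) c e d f ∨ DPt T (pt z v) c f d e) {l m : Fin 4}
    (hl : LF T z a b c d e f v l) (hm : RF T z a b c d e f v m) :
    (l = 3 ∧ (m = 0 ∨ m = 1)) ∨ (m = 3 ∧ (l = 0 ∨ l = 1)) := by
  have h1 := h.f_s4word hz.swap (nodup_swap609 nd) hD hl.sw23 hm.sw23
  have : ∀ l m : Fin 4, (sw23 l = 2 ∧ (sw23 m = 0 ∨ sw23 m = 1)) ∨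
      (sw23 m = 2 ∧ (sw23 l = 0 ∨ sw23 l = 1)) →
      (l = 3 ∧ (m = 0 ∨ m = 1)) ∨ (m = 3 ∧ (l = 0 ∨ l = 1)) := by decide
  exact this l m h1

/-- `S4r`, limit letters: `{e, f}` in some order -/
theorem Irr.f_s4rword (h : Irr U T) (hz : DPt T z a b c d) (nd : [a, b, c, d, e, f].Nodup)
    (hD : DPt T (pt z v) a c e f) {l m : Fin 4}
    (hl : LF T z a b c d e f v l) (hm : RF T z a b c d e f v m) :
    (l = 0 ∧ m = 1) ∨ (l = 1 ∧ m = 0) := by
  rcases h.s4r_lr hz nd hD with ⟨h1, h2⟩ | ⟨h1, h2⟩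
  · exact Or.inl ⟨h1.eq hl, h2.eq hm⟩
  · exact Or.inr ⟨h1.eq hl, h2.eq hm⟩

/-- `T3`, limit letters: `{e, f}` in some order -/
theorem Irr.f_t3word (h : Irr U T) (hz : DPt T z a b c d) (nd : [a, b, c, d, e, f].Nodup)
    (hD : DPt T (pt z v) a e c f) {l m : Fin 4}
    (hl : LF T z a b c d e f v l) (hm : RF T z a b c d e f v m) :
    (l = 0 ∧ m = 1) ∨ (l = 1 ∧ m = 0) := by
  rcases h.t3_lr hz nd hD with ⟨h1, h2⟩ | ⟨h1, h2⟩
  · exact Or.inl ⟨h1.eq hl, h2.eq hm⟩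
  · exact Or.inr ⟨h1.eq hl, h2.eq hm⟩

/-- **a visible end**: palette `{a, b, e}`, and a point of the circle has the palette `{c, d, f}` -/
theorem Irr.vis_lr (h : Irr U T) (hz : DPt T z a b c d) (nd : [a, b, c, d, e, f].Nodup)
    (hv : T (pt z v) = {a, b, e}) (hq : dist q z = 1) (hTq : T q = {c, d, f})
    (h4 : (T (pt z v + q - z)).ncard ≤ 4) :
    (LS T z a b c d e f v 2 ∧ RS T z a b c d e f v 0) ∨
      (LS T z a b c d e f v 0 ∧ RS T z a b c d e f v 2) := by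
  have C := ctr_of_dpt h hz nd
  obtain ⟨⟨ab, ac, ad, ae, af⟩, ⟨bc, bd, be, bf⟩, ⟨cd, ce, cf⟩, ⟨de, df⟩, ef⟩ := nodup_sep nd
  have he : e ∉ T z := by rw [hz.pal]; simp [Ne.symm ae, Ne.symm be, Ne.symm ce, Ne.symm de]
  have hf : f ∉ T z := by rw [hz.pal]; simp [Ne.symm af, Ne.symm bf, Ne.symm cf, Ne.symm df]
  have K : Cfg T z (pt z v) q a b c d e f := ⟨hz, dist_pt z v, hq, hv, hTq, he, hf, ef⟩
  obtain ⟨o, E⟩ : ∃ o, CEnd T z (pt z v) {a, b} e o := by
    rcases K.normal h h4 with N | N | N | N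
    · obtain ⟨o, hE, -⟩ := N.lp1 h
      exact ⟨o, hE⟩
    · obtain ⟨o, hE, -⟩ := N.lp1 h
      exact ⟨o, by rw [pair_comm]; exact hE⟩
    · obtain ⟨o, hE, -⟩ := N.lp1 h
      exact ⟨o, hE⟩
    · obtain ⟨o, hE, -⟩ := N.lp1 h
      exact ⟨o, by rw [pair_comm]; exact hE⟩
  -- near `v` the palettes are inside `{a, b, e}`
  have hcont : Continuous fun s : ℝ => pt z s := S5.H767.continuous_pt z
  have hnear : ∀ᶠ s in 𝓝 v, T (pt z s) ⊆ {a, b, e} := by
    have := hcont.continuousAt.eventually (h.nhd (pt z v))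
    rw [hv] at this
    exact this
  -- the letters
  have k2 : ∀ s : ℝ, T (pt z s) = {a, b} → ∀ m, s ∈ Xs T z a b c d e f m → m = 2 :=
    fun s hs m hm => let_ab h nd hs.subset hm
  have k0 : ∀ s : ℝ, T (pt z s) ⊆ {a, b, e} → ¬ ({a, b} : Set (Fin 6)) ⊆ T (pt z s) →
      ∀ m, s ∈ Xs T z a b c d e f m → m = 0 := by
    intro s hs hn m hm
    rcases fin4_cases m with rfl | rfl | rfl | rfl
    · rfl
    · rcases hs (xs1.1 hm) with h1 | h1 | h1
      exacts [absurd h1.symm af, absurd h1.symm bf, absurd h1.symm ef]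
    · exfalso
      refine hn ?_
      rintro i (rfl | hi)
      · exact (xs2 h hm).1
      · rw [mem_singleton_iff] at hi; rw [hi]; exact (xs2 h hm).2
    · rcases hs (xs3 h hm).1 with h1 | h1 | h1
      exacts [absurd h1.symm ac, absurd h1.symm bc, absurd h1 ce]
  have harc := E.arc
  have haft := E.after
  rcases E.o1 with rfl | rfl
  · left
    refine ⟨LS.of_ev C ?_, RS.of_ev C ?_⟩
    · filter_upwards [ev_before (P := fun x => T x = {a, b}) harc] with s hs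
      exact k2 s hs
    · filter_upwards [ev_after (P := fun x => e ∈ T x ∧ ¬ ({a, b} : Set (Fin 6)) ⊆ T x) haft,
        hnear.filter_mono nhdsWithin_le_nhds] with s hs hs2
      exact k0 s hs2 hs.2
  · right
    rw [neg_neg] at harc
    refine ⟨LS.of_ev C ?_, RS.of_ev C ?_⟩
    · filter_upwards [ev_before (P := fun x => e ∈ T x ∧ ¬ ({a, b} : Set (Fin 6)) ⊆ T x) haft,
        hnear.filter_mono nhdsWithin_le_nhds] with s hs hs2
      exact k0 s hs2 hs.2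
    · filter_upwards [ev_after (P := fun x => T x = {a, b}) harc] with s hs
      exact k2 s hs

/-- family `vis` -/
theorem Irr.f_vis (h : Irr U T) (hz : DPt T z a b c d) (nd : [a, b, c, d, e, f].Nodup)
    (hv : T (pt z v) = {a, b, e}) (hq : dist q z = 1) (hTq : T q = {c, d, f})
    (h4 : (T (pt z v + q - z)).ncard ≤ 4) {l m : Fin 4}
    (hl : LF T z a b c d e f v l) (hm : RF T z a b c d e f v m) :
    (l = 2 ∧ m = 0) ∨ (l = 0 ∧ m = 2) := by
  rcases h.vis_lr hz nd hv hq hTq h4 with ⟨h1, h2⟩ | ⟨h1, h2⟩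
  · exact Or.inl ⟨h1.eq hl, h2.eq hm⟩
  · exact Or.inr ⟨h1.eq hl, h2.eq hm⟩

end Vale.Agent.P032.Six
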