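import Vale.Agent.P032.R2.H609.W2

/-!
# P032: contacts with the colours of one pair in the world `WT`

`z = {ab|cd}`, `T y = {a, b, e, f}`, `|y - z| = 1`, `y` of any kind.

* `WT.near_pair`: at a point of `S(y)` with palette inside `T y` a colour of `{a, b}` is present on a
  neighbourhood;
* `WT.flank_same`: a common neighbour of `z` and `y` carries `c, d` and neither `a` nor `b`;
* `WT.over_same`: over an exact `cd`-arc of `S(z)` the palettes of `S(y)` are inside `T y`;
* `WT.end_same`: the END RULE: at the end `q` of a `cd`-arc of `S(z)` over a point of `S(y)` with `a, e`,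
  where `y = {ae|bf}` or harmless with the pair `{a, e}`: `e ∉ T q` or `T q = {c, d, e, f}`.
-/

set_option autoImplicit false

open Set Filter Topology Metric

noncomputable section

namespace Vale.Agent.P032.Six

open S5.H767 (Ex ex_self dist_of_closure sub_of_closure line_free)

variable {U : Fin 6 → Set ℂ} {T : ℂ → Set (Fin 6)} {z y p q : ℂ} {a b c d e f : Fin 6}

theorem nodup_sep {a b c d e f : Fin 6} (nd : [a, b, c, d, e, f].Nodup) :
    (a ≠ b ∧ a ≠ c ∧ a ≠ d ∧ a ≠ e ∧ a ≠ f) ∧ (b ≠ c ∧ b ≠ d ∧ b ≠ e ∧ b ≠ f) ∧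
      (c ≠ d ∧ c ≠ e ∧ c ≠ f) ∧ (d ≠ e ∧ d ≠ f) ∧ e ≠ f := by
  simp only [List.nodup_cons, List.mem_cons, List.not_mem_nil, or_false, not_or, List.nodup_nil,
    and_true, not_false_eq_true] at nd
  exact nd

theorem nodup_all609 {a b c d e f : Fin 6} (nd : [a, b, c, d, e, f].Nodup) (i : Fin 6) :
    i = a ∨ i = b ∨ i = c ∨ i = d ∨ i = e ∨ i = f := by
  have h1 : [a, b, c, d, e, f].toFinset = Finset.univ := by
    apply Finset.eq_univ_of_card
    rw [List.toFinset_card_of_nodup nd]
    simp
  have h2 : i ∈ [a, b, c, d, e, f].toFinset := by rw [h1]; exact Finset.mem_univ i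
  simpa using h2

theorem card_four {a b e f : Fin 6} (nd : [a, b, e, f].Nodup) :
    ({a, b, e, f} : Set (Fin 6)).ncard = 4 := by
  simp only [List.nodup_cons, List.mem_cons, List.not_mem_nil, or_false, not_or, List.nodup_nil,
    and_true, not_false_eq_true] at nd
  obtain ⟨⟨ab, ae, af⟩, ⟨be, bf⟩, ef⟩ := nd
  rw [Set.ncard_insert_of_notMem, Set.ncard_insert_of_notMem, Set.ncard_pair ef]
  · simp [be, bf]
  · simp [ab, ae, af]

/-- the two centres of a contact and their flank -/
theorem off609 (hyz : dist y z = 1) (hpz : dist p z = 1) : y ≠ z ∧ y + z ≠ 2 * p := by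
  constructor
  · intro h1
    rw [h1, dist_self] at hyz
    exact zero_ne_one hyz
  · intro h1
    have h2 : y - z = 2 * (p - z) := by linear_combination h1
    have h3 : dist y z = 2 := by
      rw [dist_eq_norm, h2, norm_mul, ← dist_eq_norm, hpz]; simp
    rw [hyz] at h3
    norm_num at h3

namespace WT

/-- a point of `S(y)` with palette inside `T y = {a, b, e, f}`: a colour of `{a, b}` on a
neighbourhood -/
theorem near_pair (H : WT U T) (hmin : MinF U T) (hz : DPt T z a b c d)
    (nd : [a, b, c, d, e, f].Nodup) (hyz : dist y z = 1) (hTy : T y = {a, b, e, f})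
    (hpy : dist p y = 1) (hs : T p ⊆ T y) :
    ∃ i, (i = a ∨ i = b) ∧ ∀ᶠ x in 𝓝[sphere y 1] p, i ∈ T x := by
  have h := H.irr
  obtain ⟨⟨ab, ac, ad, ae, af⟩, ⟨bc, bd, be, bf⟩, ⟨cd, ce, cf⟩, ⟨de, df⟩, ef⟩ := nodup_sep nd
  have h4 : (T y).ncard = 4 := by
    rw [hTy]; exact card_four (by simp [ab, ae, af, be, bf, ef])
  rcases H.cases hmin h4 with ⟨A, hA⟩ | ⟨m, n, r, s, hD⟩
  · -- harmless
    obtain ⟨i, hi, hiab⟩ : ∃ i ∈ A, i = a ∨ i = b := by
      by_contra hcon
      push Not at hcon
      have h1 : A ⊆ {e, f} := by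
        intro i hi
        have h2 := hA.sub hi
        rw [hTy] at h2
        rcases h2 with h2 | h2 | h2 | h2
        · exact absurd h2 (hcon i hi).1
        · exact absurd h2 (hcon i hi).2
        · left; exact h2
        · right; exact h2
      have h2 : A = {e, f} :=
        Set.eq_of_subset_of_ncard_le h1 (by rw [hA.cardA, Set.ncard_pair ef]) (Set.toFinite _)
      exact H.no_harm hmin hz nd hyz hTy (h2 ▸ hA)
    refine ⟨i, hiab, ?_⟩
    filter_upwards [mem_nhdsWithin_of_mem_nhds (h.nhd p), self_mem_nhdsWithin] with x h1 h2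
    exact hA.h1 x h2 (h1.trans hs) hi
  · -- two-pair: `ae|bf` or `af|be`
    have key : ∀ e f : Fin 6, DPt T y a e b f → T p = {a, e} ∨ T p = {b, f} →
        ∃ i, (i = a ∨ i = b) ∧ ∀ᶠ x in 𝓝[sphere y 1] p, i ∈ T x := by
      intro e f hD hp
      rcases hp with h1 | h1
      · refine ⟨a, Or.inl rfl, ?_⟩
        filter_upwards [h.pair_open (z := y) (y := p) (P := {a, e}) (Set.ncard_pair hD.ab)
          (by rw [← h1]; exact hs) h1.subset] with x hx
        rw [hx]; simp
      · refine ⟨b, Or.inr rfl, ?_⟩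
        filter_upwards [h.pair_open (z := y) (y := p) (P := {b, f}) (Set.ncard_pair hD.cd)
          (by rw [← h1]; exact hs) h1.subset] with x hx
        rw [hx]; simp
    rcases hD.ways hTy (by simp [ab, ae, af, be, bf, ef]) with h1 | h1 | h1
    · exact (H.no_lock hz hyz h1).elim
    · exact key e f h1 (H.inside h1 hpy hs)
    · exact key f e h1 (H.inside h1 hpy hs)

/-- **flanks of a contact with the colours of one pair** -/
theorem flank_same (H : WT U T) (hmin : MinF U T) (hz : DPt T z a b c d)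
    (nd : [a, b, c, d, e, f].Nodup) (hyz : dist y z = 1) (hTy : T y = {a, b, e, f})
    (hpz : dist p z = 1) (hpy : dist p y = 1) :
    (c ∈ T p ∧ d ∈ T p) ∧ a ∉ T p ∧ b ∉ T p := by
  have h := H.irr
  obtain ⟨⟨ab, ac, ad, ae, af⟩, ⟨bc, bd, be, bf⟩, ⟨cd, ce, cf⟩, ⟨de, df⟩, ef⟩ := nodup_sep nd
  have h4 : (T y).ncard = 4 := by
    rw [hTy]; exact card_four (by simp [ab, ae, af, be, bf, ef])
  have haz : a ∈ T z := by rw [hz.pal]; simp
  have hbz : b ∈ T z := by rw [hz.pal]; simp
  have hcz : c ∈ T z := by rw [hz.pal]; simp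
  have hdz : d ∈ T z := by rw [hz.pal]; simp
  have hey : e ∈ T y := by rw [hTy]; simp
  have hfy : f ∈ T y := by rw [hTy]; simp
  have hay : a ∈ T y := by rw [hTy]; simp
  have hby : b ∈ T y := by rw [hTy]; simp
  obtain ⟨o1, o2⟩ := off609 hyz hpz
  have o3 : z ≠ y := o1.symm
  have o4 : z + y ≠ 2 * p := by rw [add_comm]; exact o2
  -- the palette is not inside `T y`
  have hns : ¬ T p ⊆ T y := by
    intro hs
    obtain ⟨i, hi, hJ⟩ := H.near_pair hmin hz nd hyz hTy hpy hs
    refine line_free h hpy hJ hpz o3 o4 (h.sub _ ?_)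
    rcases hi with rfl | rfl
    · exact haz
    · exact hbz
  -- no three colours of `z`
  have hz3 : ∀ i j m : Fin 6, i ≠ j → i ≠ m → j ≠ m → i ∈ T z → j ∈ T z → m ∈ T z → i ∈ T p →
      j ∈ T p → m ∈ T p → 4 ≤ (T p).ncard → False := by
    intro i j m k1 k2 k3 k4 k5 k6 k7 k8 k9 hp4
    have h5 := H.le4 hz.card.ge hpz
    exact H.no_three hpz (by omega) hz.card k1 k2 k3 ⟨k7, k4⟩ ⟨k8, k5⟩ ⟨k9, k6⟩
  have C := S5.H767.ctr_of_dpt h hz nd
  -- one of `c, d` implies the other one
  have key : ∀ c d : Fin 6, DPt T z a b c d → [a, b, c, d, e, f].Nodup → c ∈ T p →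
      d ∈ T p := by
    intro c d hz nd hcp
    by_contra hdp
    obtain ⟨⟨ab, ac, ad, ae, af⟩, ⟨bc, bd, be, bf⟩, ⟨cd, ce, cf⟩, ⟨de, df⟩, ef⟩ := nodup_sep nd
    have hcz : c ∈ T z := by rw [hz.pal]; simp
    have hdz : d ∈ T z := by rw [hz.pal]; simp
    have C := S5.H767.ctr_of_dpt h hz nd
    have hcd : p ∉ closure (Ex T z {c, d}) := fun h1 => hdp (sub_of_closure h h1 (by simp))
    have hab : p ∉ closure (Ex T z {a, b}) := by
      intro h1
      have h2 := sub_of_closure h h1
      have hap : a ∈ T p := h2 (by simp)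
      have hbp : b ∈ T p := h2 (by simp)
      rcases Nat.lt_or_ge (T p).ncard 4 with hlt | hge
      · obtain ⟨g, hg, hTp⟩ := h.third hz hpz (by omega) ⟨h2, fun h3 => by
          rcases h3 hcp with h5 | h5
          · exact ac h5.symm
          · exact bc h5.symm⟩
        rw [hTp] at hcp
        rcases hcp with h5 | h5 | h5
        · exact ac h5.symm
        · exact bc h5.symm
        · exact hg (by rw [← h5]; exact hcz)
      · exact hz3 a b c ab ac bc haz hbz hcz hap hbp hcp hge
    have h1 : ∀ᶠ q in 𝓝[sphere z 1] p, q ∉ closure (Ex T z {a, b}) :=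
      mem_nhdsWithin_of_mem_nhds (isClosed_closure.isOpen_compl.mem_nhds hab)
    have h2 : ∀ᶠ q in 𝓝[sphere z 1] p, q ∉ closure (Ex T z {c, d}) :=
      mem_nhdsWithin_of_mem_nhds (isClosed_closure.isOpen_compl.mem_nhds hcd)
    have hfp : f ∈ T p := by
      by_contra hf
      have h3 : ∀ᶠ q in 𝓝[sphere z 1] p, f ∉ T q :=
        mem_nhdsWithin_of_mem_nhds ((h.closed f).isOpen_compl.mem_nhds hf)
      refine line_free h hpz (t := e) ?_ hpy o1 o2 (h.sub _ hey)
      filter_upwards [h1, h2, h3, self_mem_nhdsWithin] with q k1 k2 k3 k4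
      obtain ⟨l, hl⟩ := C.cover (y := q) k4
      fin_cases l
      · exact hl.2
      · exact absurd hl.2 k3
      · exact absurd hl k1
      · exact absurd hl k2
    have hep : e ∈ T p := by
      by_contra he
      have h3 : ∀ᶠ q in 𝓝[sphere z 1] p, e ∉ T q :=
        mem_nhdsWithin_of_mem_nhds ((h.closed e).isOpen_compl.mem_nhds he)
      refine line_free h hpz (t := f) ?_ hpy o1 o2 (h.sub _ hfy)
      filter_upwards [h1, h2, h3, self_mem_nhdsWithin] with q k1 k2 k3 k4
      obtain ⟨l, hl⟩ := C.cover (y := q) k4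
      fin_cases l
      · exact absurd hl.2 k3
      · exact hl.2
      · exact absurd hl k1
      · exact absurd hl k2
    -- no `a`, `b`
    have hno : ∀ i, (i = a ∨ i = b) → i ∉ T p := by
      intro i hi hip
      have hc4 : 4 ≤ (T p).ncard := by
        have hs : ({i, c, e, f} : Set (Fin 6)) ⊆ T p := by
          rintro j (rfl | rfl | rfl | hj)
          · exact hip
          · exact hcp
          · exact hep
          · rw [mem_singleton_iff] at hj; rw [hj]; exact hfp
        have h6 : ({i, c, e, f} : Set (Fin 6)).ncard = 4 := by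
          refine card_four ?_
          rcases hi with rfl | rfl
          · simp [ac, ae, af, ce, cf, ef]
          · simp [bc, be, bf, ce, cf, ef]
        rw [← h6]
        exact Set.ncard_le_ncard hs (Set.toFinite _)
      have h5 := H.le4 hz.card.ge hpz
      have hiy : i ∈ T y := by rcases hi with rfl | rfl <;> assumption
      have hie : i ≠ e := by rcases hi with rfl | rfl <;> assumption
      have hif : i ≠ f := by rcases hi with rfl | rfl <;> assumption
      exact H.no_three hpy (by omega) h4 hie hif ef ⟨hip, hiy⟩ ⟨hep, hey⟩ ⟨hfp, hfy⟩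
    -- `c` on a neighbourhood in `S(y)`
    refine line_free h hpy (t := c) ?_ hpz o3 o4 (h.sub _ hcz)
    filter_upwards [mem_nhdsWithin_of_mem_nhds (h.nhd p), self_mem_nhdsWithin] with x h3 h5
    by_contra hcx
    have hxs : T x ⊆ {e, f} := by
      intro i hi
      have h6 := h3 hi
      rcases nodup_all609 nd i with h7 | h7 | h7 | h7 | h7 | h7
      · exact absurd h6 (hno i (Or.inl h7))
      · exact absurd h6 (hno i (Or.inr h7))
      · exact absurd (h7 ▸ hi) hcx
      · exact absurd (h7 ▸ h6) hdp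
      · left; exact h7
      · right; exact h7
    have hxy : T x ⊆ T y := hxs.trans (by
      rintro i (rfl | hi)
      · exact hey
      · rw [mem_singleton_iff] at hi; rw [hi]; exact hfy)
    have h5 : dist x y = 1 := h5
    obtain ⟨i, hi, hJ⟩ := H.near_pair hmin hz nd hyz hTy h5 hxy
    have h6 := hxs (hJ.self_of_nhdsWithin h5)
    rcases hi with rfl | rfl
    · rcases h6 with h7 | h7
      · exact ae h7
      · exact af h7
    · rcases h6 with h7 | h7
      · exact be h7
      · exact bf h7
  have hcdp : c ∈ T p ∧ d ∈ T p := by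
    obtain ⟨g, hg, hgy⟩ := Set.not_subset.1 hns
    rcases nodup_all609 nd g with h1 | h1 | h1 | h1 | h1 | h1
    · exact absurd (h1 ▸ hay) hgy
    · exact absurd (h1 ▸ hby) hgy
    · have hcp : c ∈ T p := h1 ▸ hg
      exact ⟨hcp, key c d hz nd hcp⟩
    · have hdp : d ∈ T p := h1 ▸ hg
      refine ⟨key d c hz.swap34 ?_ hdp, hdp⟩
      simp [ab, ac, ad, ae, af, bc, bd, be, bf, Ne.symm cd, ce, cf, de, df, ef]
    · exact absurd (h1 ▸ hey) hgy
    · exact absurd (h1 ▸ hfy) hgy
  refine ⟨hcdp, ?_⟩
  have fin : ∀ i, i = a ∨ i = b → i ∉ T p := by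
    intro i hi hip
    have hiz : i ∈ T z := by rcases hi with rfl | rfl <;> assumption
    have hic : i ≠ c := by rcases hi with rfl | rfl <;> assumption
    have hid : i ≠ d := by rcases hi with rfl | rfl <;> assumption
    rcases Nat.lt_or_ge (T p).ncard 4 with hlt | hge
    · obtain ⟨g, hg, hTp⟩ := h.third hz.swap hpz (by omega) ⟨by
        rintro j (rfl | hj)
        · exact hcdp.1
        · rw [mem_singleton_iff] at hj; rw [hj]; exact hcdp.2, fun h3 => by
          rcases h3 hip with h5 | h5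
          · exact hic h5
          · exact hid h5⟩
      rw [hTp] at hip
      rcases hip with h5 | h5 | h5
      · exact hic h5
      · exact hid h5
      · exact hg (by rw [← h5]; exact hiz)
    · exact hz3 i c d hic hid cd hiz hcz hdz hip hcdp.1 hcdp.2 hge
  exact ⟨fin a (Or.inl rfl), fin b (Or.inr rfl)⟩

/-- over an exact `cd`-arc of `S(z)` the palettes of `S(y)` are inside `T y` -/
theorem over_same (H : WT U T) (hz : DPt T z a b c d)
    (nd : [a, b, c, d, e, f].Nodup) (hyz : dist y z = 1) (hTy : T y = {a, b, e, f}) {g : ℂ}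
    (hg : Arc T z g {c, d}) : T (y + g - z) ⊆ T y := by
  have h := H.irr
  obtain ⟨⟨ab, ac, ad, ae, af⟩, ⟨bc, bd, be, bf⟩, ⟨cd, ce, cf⟩, ⟨de, df⟩, ef⟩ := nodup_sep nd
  have hTg : T g = {c, d} := hg.mem
  have h1 : g ≠ y := by
    rintro rfl
    have h5 : c ∈ T g := by rw [hTg]; simp
    rw [hTy] at h5
    simp [Ne.symm ac, Ne.symm bc, ce, cf] at h5
  have h2 : g + y ≠ 2 * z := by
    intro h2
    have e1 : 2 * z - y = g := by linear_combination -h2
    exact h.anti hz hyz (h.sub _ (by rw [hTy]; simp)) (h.sub _ (by rw [hTy]; simp))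
      (by rw [e1]; exact h.sub _ (by rw [hTg]; simp))
      (by rw [e1]; exact h.sub _ (by rw [hTg]; simp))
  have hc := h.prism833 hg hyz h1 h2 (i := c) (by simp)
  have hd := h.prism833 hg hyz h1 h2 (i := d) (by simp)
  intro i hi
  rw [hTy]
  rcases nodup_all609 nd i with h3 | h3 | h3 | h3 | h3 | h3
  · rw [h3]; simp
  · rw [h3]; simp
  · exact absurd (h.sub _ (h3 ▸ hi)) hc
  · exact absurd (h.sub _ (h3 ▸ hi)) hd
  · rw [h3]; simp
  · rw [h3]; simp

/-- **END RULE**: `y = {ae|bf}` or harmless with the pair `{a, e}`; an end `q` of a `cd`-arc of `S(z)`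
over a point of `S(y)` with the colours `a, e` -/
theorem end_same (H : WT U T) (hz : DPt T z a b c d) (nd : [a, b, c, d, e, f].Nodup)
    (hyz : dist y z = 1) (hTy : T y = {a, b, e, f}) (hy : DPt T y a e b f ∨ Harm T y {a, e})
    (hA : Acc T z {c, d} q) (hss : {c, d} ⊂ T q) (haw : a ∈ T (y + q - z))
    (hew : e ∈ T (y + q - z)) :
    T q = {c, d, f} ∨ T q = {c, d, e, f} ∧
      (T (y + q - z) = {a, e, c} ∨ T (y + q - z) = {a, e, d}) := by
  have h := H.irr
  obtain ⟨⟨ab, ac, ad, ae, af⟩, ⟨bc, bd, be, bf⟩, ⟨cd, ce, cf⟩, ⟨de, df⟩, ef⟩ := nodup_sep nd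
  have h4 : (T y).ncard = 4 := by
    rw [hTy]; exact card_four (by simp [ab, ae, af, be, bf, ef])
  have hqz : dist q z = 1 := hA.dist
  have hez : e ∉ T z := by rw [hz.pal]; simp [Ne.symm ae, Ne.symm be, Ne.symm ce, Ne.symm de]
  have hcz : c ∈ T z := by rw [hz.pal]; simp
  have hdz : d ∈ T z := by rw [hz.pal]; simp
  have hay : a ∈ T y := by rw [hTy]; simp
  have hby : b ∈ T y := by rw [hTy]; simp
  have hey : e ∈ T y := by rw [hTy]; simp
  have hcy : c ∉ T y := by rw [hTy]; simp [Ne.symm ac, Ne.symm bc, ce, cf]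
  have hdy : d ∉ T y := by rw [hTy]; simp [Ne.symm ad, Ne.symm bd, de, df]
  have hcq : c ∈ T q := hss.1 (by simp)
  have hdq : d ∈ T q := hss.1 (by simp)
  obtain ⟨w, hw⟩ : ∃ w, w = y + q - z := ⟨_, rfl⟩
  rw [← hw] at haw hew ⊢
  have hwy : dist w y = 1 := by
    rw [dist_eq_norm, show w - y = q - z by rw [hw]; ring, ← dist_eq_norm]; exact hqz
  have hwq : dist w q = 1 := by
    rw [dist_eq_norm, show w - q = y - z by rw [hw]; ring, ← dist_eq_norm]; exact hyz
  have hqw : dist q w = 1 := by rw [dist_comm]; exact hwq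
  have hqy : q ≠ y := by
    rintro rfl
    exact hcy hcq
  have hanti : q + y ≠ 2 * z := by
    intro h2
    have e1 : 2 * z - y = q := by linear_combination -h2
    exact h.anti hz hyz (h.sub _ hay) (h.sub _ hby) (by rw [e1]; exact h.sub _ hcq)
      (by rw [e1]; exact h.sub _ hdq)
  have hwz : w ≠ z := by
    intro h1
    exact hez (by rw [← h1]; exact hew)
  -- the colours of `q`
  have hqab : a ∉ T q ∧ b ∉ T q := by
    have fin : ∀ i, i = a ∨ i = b → i ∉ T q := by
      intro i hi hip
      have hiz : i ∈ T z := by rcases hi with rfl | rfl <;> (rw [hz.pal]; simp)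
      have hic : i ≠ c := by rcases hi with rfl | rfl <;> assumption
      have hid : i ≠ d := by rcases hi with rfl | rfl <;> assumption
      rcases Nat.lt_or_ge (T q).ncard 4 with hlt | hge
      · obtain ⟨g, hg, hTp⟩ := h.third hz.swap hqz (by omega) hss
        rw [hTp] at hip
        rcases hip with h5 | h5 | h5
        · exact hic h5
        · exact hid h5
        · exact hg (by rw [← h5]; exact hiz)
      · have h5 := H.le4 hz.card.ge hqz
        exact H.no_three hqz (by omega) hz.card hic hid cd ⟨hip, hiz⟩ ⟨hcq, hcz⟩ ⟨hdq, hdz⟩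
    exact ⟨fin a (Or.inl rfl), fin b (Or.inr rfl)⟩
  have hqs : T q ⊆ {c, d, e, f} := by
    intro i hi
    rcases nodup_all609 nd i with h1 | h1 | h1 | h1 | h1 | h1
    · exact absurd (h1 ▸ hi) hqab.1
    · exact absurd (h1 ▸ hi) hqab.2
    · rw [h1]; simp
    · rw [h1]; simp
    · rw [h1]; simp
    · rw [h1]; simp
  -- `e ∉ T q` : done
  by_cases heq : e ∈ T q
  swap
  · left
    have hsub : T q ⊆ {c, d, f} := by
      intro i hi
      rcases hqs hi with h1 | h1 | h1 | h1
      · left; exact h1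
      · right; left; exact h1
      · exact absurd (h1 ▸ hi) heq
      · right; right; exact h1
    have hfq : f ∈ T q := by
      by_contra hf
      refine hss.2 fun i hi => ?_
      rcases hsub hi with h1 | h1 | h1
      · left; exact h1
      · right; exact h1
      · rw [mem_singleton_iff] at h1; exact absurd (h1 ▸ hi) hf
    refine Subset.antisymm hsub ?_
    rintro i (rfl | rfl | hi)
    · exact hcq
    · exact hdq
    · rw [mem_singleton_iff] at hi; rw [hi]; exact hfq
  right
  -- `e ∈ T q`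
  have hns : ¬ T w ⊆ T y := by
    intro hs
    have hJ : ∀ᶠ x in 𝓝[sphere y 1] w, e ∈ T x := by
      rcases hy with hD | hH
      · have hTw : T w = {a, e} := by
          rcases H.inside hD hwy hs with h1 | h1
          · exact h1
          · rw [h1] at haw; simp [ab, af] at haw
        filter_upwards [h.pair_open (z := y) (y := w) (P := {a, e}) (Set.ncard_pair ae)
          (by rw [← hTw]; exact hs) hTw.subset] with x hx
        rw [hx]; simp
      · filter_upwards [mem_nhdsWithin_of_mem_nhds (h.nhd w), self_mem_nhdsWithin] with x h1 h2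
        exact hH.h1 x h2 (h1.trans hs) (by simp)
    refine line_free h hwy hJ hwq hqy (fun h1 => hwz ?_) (h.sub _ heq)
    rw [hw] at h1 ⊢
    linear_combination -h1
  -- a colour `g ∈ {c, d}` at `w`
  obtain ⟨g, g', hgw, hg'z, hgq, hg'q, hgg, hgcd, hqs'⟩ : ∃ g g' : Fin 6, g ∈ T w ∧ g' ∈ T z ∧
      g ∈ T q ∧ g' ∈ T q ∧ g ≠ g' ∧ (g = c ∨ g = d) ∧ T q ⊆ {g, g', e, f} := by
    obtain ⟨g, hg, hgy⟩ := Set.not_subset.1 hns
    rcases nodup_all609 nd g with h1 | h1 | h1 | h1 | h1 | h1
    · exact absurd (h1 ▸ hay) hgy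
    · exact absurd (h1 ▸ hby) hgy
    · exact ⟨c, d, h1 ▸ hg, hdz, hcq, hdq, cd, Or.inl rfl, hqs⟩
    · refine ⟨d, c, h1 ▸ hg, hcz, hdq, hcq, Ne.symm cd, Or.inr rfl, fun i hi => ?_⟩
      have := hqs hi
      simp only [mem_insert_iff, mem_singleton_iff] at this ⊢
      tauto
    · exact absurd (h1 ▸ hey) hgy
    · exact absurd (by rw [h1, hTy]; simp) hgy
  have hag : a ≠ g := by rcases hgcd with rfl | rfl <;> assumption
  have heg : e ≠ g := by rcases hgcd with rfl | rfl; exacts [Ne.symm ce, Ne.symm de]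
  have hfg : f ≠ g := by rcases hgcd with rfl | rfl; exacts [Ne.symm cf, Ne.symm df]
  have hgz : g ∈ T z := by rcases hgcd with rfl | rfl <;> assumption
  -- at most three colours at `w`
  have hw3 : (T w).ncard ≤ 3 := by
    by_contra hcon
    have hw4 : (T w).ncard = 4 := by have := H.le4 h4.ge hwy; omega
    have hbw : b ∉ T w := fun h1 => H.no_three hwy hw4 h4 ab ae be ⟨haw, hay⟩ ⟨h1, hby⟩ ⟨hew, hey⟩
    have hfw : f ∉ T w := fun h1 => H.no_three hwy hw4 h4 ae af ef ⟨haw, hay⟩ ⟨hew, hey⟩
      ⟨h1, by rw [hTy]; simp⟩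
    have hg'w : g' ∈ T w := by
      by_contra hg'
      have hs : T w ⊆ {a, e, g} := by
        intro i hi
        rcases nodup_all609 nd i with h1 | h1 | h1 | h1 | h1 | h1
        · left; exact h1
        · exact absurd (h1 ▸ hi) hbw
        · have h2 := hqs' (h1 ▸ hcq : i ∈ T q)
          rcases h2 with h2 | h2 | h2 | h2
          · right; right; exact h2
          · exact absurd (h2 ▸ hi) hg'
          · right; left; exact h2
          · rw [mem_singleton_iff] at h2; exact absurd (h2 ▸ hi) hfw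
        · have h2 := hqs' (h1 ▸ hdq : i ∈ T q)
          rcases h2 with h2 | h2 | h2 | h2
          · right; right; exact h2
          · exact absurd (h2 ▸ hi) hg'
          · right; left; exact h2
          · rw [mem_singleton_iff] at h2; exact absurd (h2 ▸ hi) hfw
        · right; left; exact h1
        · exact absurd (h1 ▸ hi) hfw
      have h6 := Set.ncard_le_ncard hs (Set.toFinite _)
      have h7 : ({a, e, g} : Set (Fin 6)).ncard ≤ 3 :=
        (Set.ncard_insert_le _ _).trans (Nat.add_le_add_right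
          ((Set.ncard_insert_le _ _).trans (by rw [Set.ncard_singleton])) 1)
      omega
    rcases Nat.lt_or_ge (T q).ncard 4 with hlt | hge
    · -- `T w ⊆ insert a (T q)`
      refine h.third_notMem (z := w) (v := q) (q := y) (d := a) hqw (by omega) ?_
        (by rw [dist_comm]; exact hwy) (h.sub _ hay) (Ne.symm hqy) fun h1 => ?_
      · intro i hi
        rcases nodup_all609 nd i with h1 | h1 | h1 | h1 | h1 | h1
        · left; exact h1
        · exact absurd (h1 ▸ hi) hbw
        · right; rw [h1]; exact hcq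
        · right; rw [h1]; exact hdq
        · right; rw [h1]; exact heq
        · exact absurd (h1 ▸ hi) hfw
      · exact hanti (by rw [hw] at h1; linear_combination -h1)
    · have hq4 : (T q).ncard = 4 := by have := H.le4 hz.card.ge hqz; omega
      exact H.no_three hwq hw4 hq4 heg (fun h1 => hez (h1 ▸ hg'z)) hgg ⟨hew, heq⟩ ⟨hgw, hgq⟩
        ⟨hg'w, hg'q⟩
  -- `T w = {a, e, g}`
  have hTw : T w = {a, e, g} := by
    symm
    refine Set.eq_of_subset_of_ncard_le ?_ ?_ (Set.toFinite _)
    · rintro i (rfl | rfl | hi)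
      · exact haw
      · exact hew
      · rw [mem_singleton_iff] at hi; rw [hi]; exact hgw
    · rw [show ({a, e, g} : Set (Fin 6)).ncard = 3 from
        Set.ncard_eq_three.2 ⟨a, e, g, ae, hag, heg, rfl⟩]
      exact hw3
  -- `f ∈ T q`
  have hfq : f ∈ T q := by
    by_contra hf
    have hs2 : T q ⊆ insert g' (T w) := by
      intro i hi
      rcases hqs' hi with h1 | h1 | h1 | h1
      · right; rw [h1]; exact hgw
      · left; exact h1
      · right; rw [h1]; exact hew
      · rw [mem_singleton_iff] at h1; exact absurd (h1 ▸ hi) hf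
    rcases h.lemmaX (u := w) (p := q) (v := z) hqw hw3 hs2 hqz (h.sub _ hg'z) with h1 | h1
    · exact hwz h1.symm
    · exact hqy (by rw [hw] at h1; linear_combination -h1)
  refine ⟨Subset.antisymm hqs ?_, ?_⟩
  · rintro i (rfl | rfl | rfl | hi)
    · exact hcq
    · exact hdq
    · exact heq
    · rw [mem_singleton_iff] at hi; rw [hi]; exact hfq
  · rcases hgcd with rfl | rfl
    · exact Or.inl hTw
    · exact Or.inr hTw

end WT

end Vale.Agent.P032.Six
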