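import Vale.Agent.P032.R2.H267.NoS3
import Vale.Agent.P032.R2.H479.Contact

/-!
# P032: the world in which four-coloured points at distance one share at most two colours

* `Lock.ruleT`: rule R;
* `Lock.third_dpt`: a flank with the colours `c, d, e, f` of a contact of type S3 is a two-pair point;
* `WT.no_lock`: there are no contacts of type S3;
* `WT.no_harm`: no harmless contact `{a, b, e, f}` has the arc pair `{e, f}`.
-/

set_option autoImplicit false

open Set Filter Topology Metric

noncomputable section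

namespace Vale.Agent.P032.Six

open S5.H767 (Ex ex_self dist_of_closure sub_of_closure line_free)

variable {U : Fin 6 → Set ℂ} {T : ℂ → Set (Fin 6)}

/-- points of order `> 3` at distance one have at most two common colours -/
structure WT (U : Fin 6 → Set ℂ) (T : ℂ → Set (Fin 6)) : Prop where
  irr : Irr U T
  two : ∀ {x y : ℂ}, dist y x = 1 → 4 ≤ (T y).ncard → 4 ≤ (T x).ncard → (T y ∩ T x).ncard ≤ 2

namespace WT

/-- the neighbours of a point with at least four colours have at most four colours -/
theorem le4 (H : WT U T) {x y : ℂ} (hx : 4 ≤ (T x).ncard) (hd : dist y x = 1) :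
    (T y).ncard ≤ 4 := by
  by_contra hcon
  have h1 := H.two hd (by omega) hx
  have h2 := Set.ncard_union_add_ncard_inter (T y) (T x) (Set.toFinite _) (Set.toFinite _)
  have h3 : (T y ∪ T x).ncard ≤ 6 := by
    have h4 := Set.ncard_le_ncard (Set.subset_univ (T y ∪ T x)) (Set.toFinite _)
    rw [Set.ncard_univ, Nat.card_eq_fintype_card, Fintype.card_fin] at h4
    exact h4
  omega

/-- a four-coloured neighbour of a four-coloured point is not inside -/
theorem not_eq (H : WT U T) {x y : ℂ} (hd : dist y x = 1) (hy : (T y).ncard = 4)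
    (hs : T y ⊆ T x) : False := by
  have h1 := Set.ncard_le_ncard hs (Set.toFinite _)
  have h3 := H.two hd hy.ge (by omega)
  rw [inter_eq_left.2 hs] at h3
  omega

/-- three common colours do not occur -/
theorem no_three (H : WT U T) {x y : ℂ} (hd : dist y x = 1) (hy : (T y).ncard = 4)
    (hx : (T x).ncard = 4) {i j m : Fin 6} (hij : i ≠ j) (him : i ≠ m) (hjm : j ≠ m)
    (hi : i ∈ T y ∧ i ∈ T x) (hj : j ∈ T y ∧ j ∈ T x) (hm : m ∈ T y ∧ m ∈ T x) : False := by
  have h3 := H.two hd hy.ge hx.ge
  have h4 : ({i, j, m} : Set (Fin 6)).ncard = 3 := Set.ncard_eq_three.2 ⟨i, j, m, hij, him, hjm, rfl⟩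
  have h5 : ({i, j, m} : Set (Fin 6)) ⊆ T y ∩ T x := by
    rintro n (rfl | rfl | hn)
    · exact hi
    · exact hj
    · rw [mem_singleton_iff] at hn; rw [hn]; exact hm
  have h6 := Set.ncard_le_ncard h5 (Set.toFinite _)
  omega

/-- points of the circle inside the palette of the centre -/
theorem inside (H : WT U T) {z x : ℂ} {a b c d : Fin 6} (hz : DPt T z a b c d)
    (hx : dist x z = 1) (hsub : T x ⊆ T z) : T x = {a, b} ∨ T x = {c, d} := by
  have h := H.irr
  have h4 := H.le4 hz.card.ge hx
  obtain ⟨i0, hi0⟩ := h.ne x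
  rcases Nat.lt_or_ge (T x).ncard 4 with hlt | hge
  · by_cases h3 : (T x).ncard = 3
    · exfalso
      have hc := Set.ncard_sdiff hsub (Set.toFinite _)
      rw [hz.card, h3] at hc
      obtain ⟨i, hi⟩ := Set.ncard_eq_one.1 (show (T z \ T x).ncard = 1 by omega)
      have hins : T z ⊆ insert i (T x) := by
        intro m hm
        by_cases hmx : m ∈ T x
        · exact Or.inr hmx
        · left
          have : m ∈ T z \ T x := ⟨hm, hmx⟩
          rw [hi] at this
          exact this
      have hiz : i ∈ T z := by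
        have : i ∈ T z \ T x := by rw [hi]; rfl
        exact this.1
      rw [hz.pal] at hiz
      rcases hiz with h1 | h1 | h1 | h1
      · exact h.no_three_in hz hx (by omega) (Or.inl h1) hins
      · exact h.no_three_in hz hx (by omega) (Or.inr h1) hins
      · exact h.no_three_in hz.swap hx (by omega) (Or.inl h1) hins
      · exact h.no_three_in hz.swap hx (by omega) (Or.inr h1) hins
    · by_cases h2 : (T x).ncard = 2
      · exact h.twoPairs hz x hx (h.pair_open h2 hsub Subset.rfl) hsub
      · exfalso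
        have h1 : (T x).ncard ≤ 1 := by omega
        have h5 : T x ⊆ {i0} := fun m hm =>
          (Set.ncard_le_one (Set.toFinite _)).1 h1 m hm i0 hi0
        exact h.mx.notMem' (h.mem_of_single h5) hx (h.sub z (hsub hi0))
  · exact (H.not_eq hx (by omega) hsub).elim

end WT

namespace Lock

variable {z y : ℂ} {a b c d e f : Fin 6}

/-- on an exact `cd`-arc of `S(z)` the translate is exact -/
theorem exact_trT (L : Lock T z y a b c d e f) (H : WT U T) {p : ℂ} (hp : Arc T z p {c, d}) :
    T (y + p - z) = {a, b} ∨ T (y + p - z) = {e, f} := by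
  have h := H.irr
  have hTp : T p = {c, d} := hp.mem
  have h1 : p ≠ y := by
    rintro rfl
    exact L.cy (by rw [hTp]; simp)
  have h2 : p + y ≠ 2 * z := by
    intro h2
    have e1 : 2 * z - y = p := by linear_combination -h2
    exact L.anti_cd h (by rw [e1]; exact h.sub _ (by rw [hTp]; simp))
      (by rw [e1]; exact h.sub _ (by rw [hTp]; simp))
  have hc := h.prism833 hp L.d1 h1 h2 (i := c) (by simp)
  have hd := h.prism833 hp L.d1 h1 h2 (i := d) (by simp)
  exact H.inside L.hy (L.dist_tr hp.1).1
    (L.in_y (fun h5 => hc (h.sub _ h5)) fun h5 => hd (h.sub _ h5))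

/-- on a whole arc the translated palette is constant -/
theorem const_trT (L : Lock T z y a b c d e f) (H : WT U T) {p : ℂ} (hp : dist p z = 1)
    {l : ℝ} (hl : 0 < l) (harc : ∀ t ∈ Ioo 0 l, T (z + (p - z) * cis (-(1 * t))) = {c, d})
    (h0 : T p = {c, d}) (hep : T (y + p - z) = {e, f}) :
    e ∈ T (y + (z + (p - z) * cis (-(1 * l))) - z) ∧
      f ∈ T (y + (z + (p - z) * cis (-(1 * l))) - z) := by
  have h := H.irr
  have hcont : Continuous fun t : ℝ => y + (z + (p - z) * cis (-(1 * t))) - z :=
    (continuous_const.add (continuous_rot z p 1)).sub continuous_const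
  have hcd : ({c, d} : Set (Fin 6)).ncard = 2 := Set.ncard_pair L.hz.cd
  have hcdz : ({c, d} : Set (Fin 6)) ⊆ T z := by
    rintro i (rfl | hi)
    · exact L.cz
    · rw [mem_singleton_iff] at hi; rw [hi]; exact L.dz
  have hdich : ∀ t ∈ Ico 0 l, T (y + (z + (p - z) * cis (-(1 * t))) - z) = {a, b} ∨
      T (y + (z + (p - z) * cis (-(1 * t))) - z) = {e, f} := by
    intro t ht
    have hT : T (z + (p - z) * cis (-(1 * t))) = {c, d} := by
      rcases eq_or_lt_of_le ht.1 with h1 | h1
      · rw [← h1, mul_zero, neg_zero, cis_zero394, mul_one, add_sub_cancel]; exact h0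
      · exact harc t ⟨h1, ht.2⟩
    exact L.exact_trT H ⟨dist_rot hp _, h.pair_open hcd hcdz hT.subset⟩
  obtain ⟨⟨ab, ac, ad, ae, af⟩, ⟨bc, bd, be, bf⟩, ⟨cd, ce, cf⟩, ⟨de, df⟩, ef⟩ := L.ne_all
  have hpre : IsPreconnected (Ico (0 : ℝ) l) := isPreconnected_Ico
  have hsub := isPreconnected_iff_subset_of_disjoint_closed.1 hpre
    {t | a ∈ T (y + (z + (p - z) * cis (-(1 * t))) - z)}
    {t | e ∈ T (y + (z + (p - z) * cis (-(1 * t))) - z)}
    ((h.closed a).preimage hcont) ((h.closed e).preimage hcont)
    (fun t ht => by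
      rcases hdich t ht with h1 | h1
      · left; show a ∈ T (y + (z + (p - z) * cis (-(1 * t))) - z); rw [h1]; simp
      · right; show e ∈ T (y + (z + (p - z) * cis (-(1 * t))) - z); rw [h1]; simp)
    (by
      rw [Set.eq_empty_iff_forall_notMem]
      rintro t ⟨ht, h1, h2⟩
      have h1 : a ∈ T (y + (z + (p - z) * cis (-(1 * t))) - z) := h1
      have h2 : e ∈ T (y + (z + (p - z) * cis (-(1 * t))) - z) := h2
      rcases hdich t ht with h3 | h3
      · rw [h3] at h2; simp [ae.symm, be.symm] at h2
      · rw [h3] at h1; simp [ae, af] at h1)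
  have hall : ∀ t ∈ Ico 0 l, T (y + (z + (p - z) * cis (-(1 * t))) - z) = {e, f} := by
    have h00 : a ∉ T (y + (z + (p - z) * cis (-(1 * (0 : ℝ)))) - z) := by
      rw [mul_zero, neg_zero, cis_zero394, mul_one, add_sub_cancel, hep]
      simp [ae, af]
    intro t ht
    rcases hsub with h1 | h1
    · exact absurd (h1 ⟨le_rfl, hl⟩) h00
    · have h2 : e ∈ T (y + (z + (p - z) * cis (-(1 * t))) - z) := h1 ht
      rcases hdich t ht with h3 | h3
      · rw [h3] at h2; simp [ae.symm, be.symm] at h2
      · exact h3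
  have hmem : ∀ i : Fin 6, (∀ t ∈ Ico 0 l, i ∈ T (y + (z + (p - z) * cis (-(1 * t))) - z)) →
      i ∈ T (y + (z + (p - z) * cis (-(1 * l))) - z) := by
    intro i hi
    have h1 : IsClosed {t : ℝ | i ∈ T (y + (z + (p - z) * cis (-(1 * t))) - z)} :=
      (h.closed i).preimage hcont
    have h2 : closure (Ico 0 l) ⊆ {t : ℝ | i ∈ T (y + (z + (p - z) * cis (-(1 * t))) - z)} :=
      closure_minimal hi h1
    rw [closure_Ico hl.ne] at h2
    exact h2 ⟨hl.le, le_rfl⟩
  exact ⟨hmem e fun t ht => by rw [hall t ht]; simp, hmem f fun t ht => by rw [hall t ht]; simp⟩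

/-- the end of a `cd`-arc of `S(z)` is not over a point of `S(y)` with `e` and `f` -/
theorem no_tieT (L : Lock T z y a b c d e f) (H : WT U T) {q : ℂ} (hA : Acc T z {c, d} q)
    (hss : {c, d} ⊂ T q) (he : e ∈ T (y + q - z)) (hf : f ∈ T (y + q - z)) : False := by
  have h := H.irr
  obtain ⟨⟨ab, ac, ad, ae, af⟩, ⟨bc, bd, be, bf⟩, ⟨cd, ce, cf⟩, ⟨de, df⟩, ef⟩ := L.ne_all
  have hcq : c ∈ T q := hss.1 (by simp)
  have hdq : d ∈ T q := hss.1 (by simp)
  have hqy : q ≠ y := by
    rintro rfl
    exact L.cy hcq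
  have hanti : q + y ≠ 2 * z := by
    intro h2
    have e1 : 2 * z - y = q := by linear_combination -h2
    exact L.anti_cd h (by rw [e1]; exact h.sub _ hcq) (by rw [e1]; exact h.sub _ hdq)
  -- a further colour `x ∈ {e, f}` at `q`
  obtain ⟨x, hxq, hxef⟩ : ∃ x, x ∈ T q ∧ (x = e ∨ x = f) := by
    rcases Nat.lt_or_ge (T q).ncard 4 with hlt | hge
    · obtain ⟨x, hx, hTq⟩ := h.third L.hz.swap hA.dist (by omega) hss
      refine ⟨x, by rw [hTq]; simp, ?_⟩
      rcases L.all x with h1 | h1 | h1 | h1 | h1 | h1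
      · exact absurd (h1 ▸ L.az) hx
      · exact absurd (h1 ▸ L.bz) hx
      · exact absurd (h1 ▸ L.cz) hx
      · exact absurd (h1 ▸ L.dz) hx
      · exact Or.inl h1
      · exact Or.inr h1
    · have hq4 : (T q).ncard = 4 := by have := H.le4 L.hz.card.ge hA.dist; omega
      by_contra hcon
      push Not at hcon
      refine H.not_eq hA.dist hq4 fun i hi => ?_
      rcases L.all i with h1 | h1 | h1 | h1 | h1 | h1
      · exact h1 ▸ L.az
      · exact h1 ▸ L.bz
      · exact h1 ▸ L.cz
      · exact h1 ▸ L.dz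
      · exact absurd h1 (hcon i hi).1
      · exact absurd h1 (hcon i hi).2
  have hxc : x ≠ c ∧ x ≠ d := by
    rcases hxef with rfl | rfl
    · exact ⟨ce.symm, de.symm⟩
    · exact ⟨cf.symm, df.symm⟩
  obtain ⟨w, hw⟩ : ∃ w, w = y + q - z := ⟨_, rfl⟩
  rw [← hw] at he hf
  have hwy : dist w y = 1 := by rw [hw]; exact (L.dist_tr hA.dist).1
  have hwq : dist w q = 1 := by rw [hw]; exact (L.dist_tr hA.dist).2
  have hzq : dist z q = 1 := by rw [dist_comm]; exact hA.dist
  have hxw : x ∈ T w := by
    rcases hxef with rfl | rfl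
    · exact he
    · exact hf
  by_cases hin : T w ⊆ T y
  · -- `w` is exact
    have hTw : T w = {e, f} := by
      rcases H.inside L.hy hwy hin with h1 | h1
      · rw [h1] at he; simp [ae.symm, be.symm] at he
      · exact h1
    have hefy : ({e, f} : Set (Fin 6)) ⊆ T y := by rw [← hTw]; exact hin
    have harc : Arc T y w {e, f} :=
      ⟨hwy, h.pair_open (Set.ncard_pair ef) hefy hTw.subset⟩
    have hxq' : x ∈ Pal U q := h.sub _ hxq
    have hzy : dist z y = 1 := L.symm.d1
    refine h.prism833 harc hzy (p := w) ?_ ?_ (i := x) (by rcases hxef with rfl | rfl <;> simp) ?_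
    · intro h1
      exact hanti (by rw [hw] at h1; linear_combination h1)
    · intro h1
      exact hqy (by rw [hw] at h1; linear_combination h1)
    · have e2 : z + w - y = q := by rw [hw]; ring
      rw [e2]; exact hxq'
  · -- a colour `g ∈ {c, d}` at `w`
    obtain ⟨g, hgw, hgy⟩ := Set.not_subset.1 hin
    have hgcd : g = c ∨ g = d := by
      rcases L.all g with h1 | h1 | h1 | h1 | h1 | h1
      · exact absurd (h1 ▸ L.ay) hgy
      · exact absurd (h1 ▸ L.by') hgy
      · exact Or.inl h1
      · exact Or.inr h1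
      · exact absurd (h1 ▸ L.ey) hgy
      · exact absurd (h1 ▸ L.fy) hgy
    have hgq : g ∈ T q := by rcases hgcd with rfl | rfl <;> assumption
    have hgx : x ≠ g := by rcases hgcd with rfl | rfl; exacts [hxc.1, hxc.2]
    -- the other one of `c, d`
    obtain ⟨g', hg'z, hg'q, hTz, hgg'⟩ : ∃ g', g' ∈ T z ∧ g' ∈ T q ∧
        (∀ i ∈ T z, i = a ∨ i = b ∨ i = g ∨ i = g') ∧ g ≠ g' := by
      rcases hgcd with rfl | rfl
      · exact ⟨d, L.dz, hdq, fun i hi => by rw [L.hz.pal] at hi; simpa using hi, cd⟩
      · refine ⟨c, L.cz, hcq, fun i hi => ?_, cd.symm⟩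
        rw [L.hz.pal] at hi
        simp only [mem_insert_iff, mem_singleton_iff] at hi
        tauto
    -- the colours of `q`: `g, g', e, f`
    have hqsub : ∀ i ∈ T q, i = g ∨ i = g' ∨ i = e ∨ i = f := by
      intro i hi
      rcases Nat.lt_or_ge (T q).ncard 4 with hlt | hge
      · obtain ⟨x', hx', hTq⟩ := h.third L.hz.swap hA.dist (by omega) hss
        rw [hTq] at hi hxq hgq hg'q
        have hx'2 : x' = x := by
          rcases hxq with h1 | h1 | h1
          · exact absurd h1 hxc.1
          · exact absurd h1 hxc.2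
          · exact (mem_singleton_iff.1 h1).symm
        subst hx'2
        have hg'x : g' ≠ x' := fun h1 => hx' (h1 ▸ hg'z)
        rcases hgcd with rfl | rfl
        · have hg'd : g' = d := by
            rcases hg'q with h1 | h1 | h1
            · exact absurd h1.symm hgg'
            · exact h1
            · exact absurd h1 hg'x
          subst hg'd
          rcases hi with h1 | h1 | h1
          · exact Or.inl h1
          · exact Or.inr (Or.inl h1)
          · rw [mem_singleton_iff] at h1; subst h1; exact Or.inr (Or.inr hxef)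
        · have hg'c : g' = c := by
            rcases hg'q with h1 | h1 | h1
            · exact h1
            · exact absurd h1.symm hgg'
            · exact absurd h1 hg'x
          subst hg'c
          rcases hi with h1 | h1 | h1
          · exact Or.inr (Or.inl h1)
          · exact Or.inl h1
          · rw [mem_singleton_iff] at h1; subst h1; exact Or.inr (Or.inr hxef)
      · have hq4 : (T q).ncard = 4 := by have := H.le4 L.hz.card.ge hA.dist; omega
        by_contra hcon
        push Not at hcon
        obtain ⟨k1, k2, k3, k4⟩ := hcon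
        have hiz : i ∈ T z := by
          rcases L.all i with h1 | h1 | h1 | h1 | h1 | h1
          · exact h1 ▸ L.az
          · exact h1 ▸ L.bz
          · exact h1 ▸ L.cz
          · exact h1 ▸ L.dz
          · exact absurd h1 k3
          · exact absurd h1 k4
        have hgz : g ∈ T z := by rcases hgcd with rfl | rfl; exacts [L.cz, L.dz]
        exact H.no_three hA.dist hq4 L.hz.card k1 k2 hgg' ⟨hi, hiz⟩ ⟨hgq, hgz⟩ ⟨hg'q, hg'z⟩
    rcases Nat.lt_or_ge (T w).ncard 4 with hlt | hge
    · -- three colours at `w`: `T q ⊆ {e, f, g, g'}`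
      have hs : T q ⊆ insert g' (T w) := by
        intro i hi
        rcases hqsub i hi with h1 | h1 | h1 | h1
        · right; rw [h1]; exact hgw
        · left; exact h1
        · right; rw [h1]; exact he
        · right; rw [h1]; exact hf
      rcases h.lemmaX (u := w) (p := q) (v := z) (by rw [dist_comm]; exact hwq) (by omega) hs
        hA.dist (h.sub _ hg'z) with h1 | h1
      · have : e ∈ T z := by rw [h1]; exact he
        exact L.ez this
      · exact hqy (by rw [hw] at h1; linear_combination -h1)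
    · -- four colours at `w`
      have hw4 : (T w).ncard = 4 := by have := H.le4 L.hy.card.ge hwy; omega
      have hgw' : g' ∈ T w := by
        by_contra hg'w
        -- a fourth colour at `w` is one of `a, b`
        have : ∃ i ∈ T w, i = a ∨ i = b := by
          by_contra hcon
          push Not at hcon
          have hsub : T w ⊆ {e, f, g} := by
            intro i hi
            obtain ⟨k1, k2⟩ := hcon i hi
            rcases L.all i with h1 | h1 | h1 | h1 | h1 | h1
            · exact absurd h1 k1
            · exact absurd h1 k2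
            · rcases hTz i (h1 ▸ L.cz) with h2 | h2 | h2 | h2
              · exact absurd h2 k1
              · exact absurd h2 k2
              · rw [h2]; simp
              · exact absurd (h2 ▸ hi) hg'w
            · rcases hTz i (h1 ▸ L.dz) with h2 | h2 | h2 | h2
              · exact absurd h2 k1
              · exact absurd h2 k2
              · rw [h2]; simp
              · exact absurd (h2 ▸ hi) hg'w
            · rw [h1]; simp
            · rw [h1]; simp
          have h6 := Set.ncard_le_ncard hsub (Set.toFinite _)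
          have h7 : ({e, f, g} : Set (Fin 6)).ncard ≤ 3 := by
            refine (Set.ncard_insert_le _ _).trans (Nat.add_le_add_right
              ((Set.ncard_insert_le _ _).trans (by rw [Set.ncard_singleton])) 1)
          omega
        obtain ⟨i, hi, hiab⟩ := this
        have hiy : i ∈ T y := by rcases hiab with rfl | rfl; exacts [L.ay, L.by']
        have hie : i ≠ e := by rcases hiab with rfl | rfl; exacts [ae, be]
        have hif : i ≠ f := by rcases hiab with rfl | rfl; exacts [af, bf]
        exact H.no_three hwy hw4 L.hy.card hie hif ef ⟨hi, hiy⟩ ⟨he, L.ey⟩ ⟨hf, L.fy⟩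
      have hqw : T q ⊆ T w := by
        intro i hi
        rcases hqsub i hi with h1 | h1 | h1 | h1
        · rw [h1]; exact hgw
        · rw [h1]; exact hgw'
        · rw [h1]; exact he
        · rw [h1]; exact hf
      rcases Nat.lt_or_ge (T q).ncard 4 with hlt3 | hge4
      · -- `T w = insert m (T q)`, `m` the other one of `e, f`
        obtain ⟨m, hm, hmy⟩ : ∃ m, T w ⊆ insert m (T q) ∧ m ∈ T y := by
          have hwsub : T w ⊆ {e, f, g, g'} := by
            have h8 : ({e, f, g, g'} : Set (Fin 6)) ⊆ T w := by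
              rintro i (rfl | rfl | rfl | hi)
              · exact he
              · exact hf
              · exact hgw
              · rw [mem_singleton_iff] at hi; rw [hi]; exact hgw'
            have h9 : ({e, f, g, g'} : Set (Fin 6)).ncard = 4 := by
              have e1 : g ≠ e := by rcases hgcd with rfl | rfl; exacts [ce, de]
              have e2 : g ≠ f := by rcases hgcd with rfl | rfl; exacts [cf, df]
              have e3 : g' ≠ e := fun h1 => L.ez (h1 ▸ hg'z)
              have e4 : g' ≠ f := fun h1 => L.fz (h1 ▸ hg'z)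
              rw [Set.ncard_insert_of_notMem, Set.ncard_insert_of_notMem, Set.ncard_pair hgg']
              · simp [e2.symm, e4.symm]
              · simp [ef, e1.symm, e3.symm]
            rw [Set.eq_of_subset_of_ncard_le h8 (by rw [h9, hw4]) (Set.toFinite _)]
          rcases hxef with rfl | rfl
          · refine ⟨f, ?_, L.fy⟩
            intro i hi
            rcases hwsub hi with h1 | h1 | h1 | h1
            · right; rw [h1]; exact hxq
            · left; exact h1
            · right; rw [h1]; exact hgq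
            · rw [mem_singleton_iff] at h1; right; rw [h1]; exact hg'q
          · refine ⟨e, ?_, L.ey⟩
            intro i hi
            rcases hwsub hi with h1 | h1 | h1 | h1
            · left; exact h1
            · right; rw [h1]; exact hxq
            · right; rw [h1]; exact hgq
            · rw [mem_singleton_iff] at h1; right; rw [h1]; exact hg'q
        refine h.third_notMem (z := w) (v := q) (q := y) (d := m) (by rw [dist_comm]; exact hwq)
          (by omega) hm (by rw [dist_comm]; exact hwy) (h.sub _ hmy) (Ne.symm hqy) fun h1 => ?_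
        exact hanti (by rw [hw] at h1; linear_combination -h1)
      · exact H.not_eq (by rw [dist_comm]; exact hwq)
          (by have := H.le4 L.hz.card.ge hA.dist; omega) hqw

/-- **RULE R** in the world `WT` -/
theorem ruleT (L : Lock T z y a b c d e f) (H : WT U T) {p : ℂ} (hp : Arc T z p {c, d}) :
    T (y + p - z) = {a, b} := by
  have h := H.irr
  rcases L.exact_trT H hp with h1 | h1
  · exact h1
  · exfalso
    have hcdz : ({c, d} : Set (Fin 6)) ⊆ T z := by
      rintro i (rfl | hi)
      · exact L.cz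
      · rw [mem_singleton_iff] at hi; rw [hi]; exact L.dz
    obtain ⟨l, hl0, -, hlt, hss, hA⟩ := h.arc_side (o := 1) (Or.inl rfl)
      (Set.ncard_pair L.hz.cd) hcdz hp.1 hp.mem
    obtain ⟨he, hf⟩ := L.const_trT H hp.1 hl0 hlt hp.mem h1
    exact L.no_tieT H hA hss he hf

variable {p : ℂ}

/-- a flank is not a limit of exact `ab`-arcs of `S(z)` -/
theorem not_abT (L : Lock T z y a b c d e f) (H : WT U T) (hz : dist p z = 1)
    (hy : dist p y = 1) : p ∉ closure (Ex T z {a, b}) := by
  intro hp
  have h := H.irr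
  obtain ⟨⟨ab, ac, ad, ae, af⟩, ⟨bc, bd, be, bf⟩, ⟨cd, ce, cf⟩, ⟨de, df⟩, ef⟩ := L.ne_all
  have hab := sub_of_closure h hp
  have haz : ({a, b} : Set (Fin 6)) ⊆ T z := by
    rintro i (rfl | hi)
    · exact L.az
    · rw [mem_singleton_iff] at hi; rw [hi]; exact L.bz
  obtain ⟨o1, o2⟩ := L.off hz
  by_cases hsub : T p ⊆ {a, b}
  · have harc := h.pair_open (Set.ncard_pair L.hz.ab) haz hsub
    exact line_free h hz (t := a) (harc.mono fun q hq => by rw [hq]; simp) hy o1 o2
      (h.sub _ L.ay)
  · have hss : {a, b} ⊂ T p := ⟨hab, hsub⟩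
    have hap : a ∈ T p := hab (by simp)
    have hbp : b ∈ T p := hab (by simp)
    have key : c ∉ T p ∧ d ∉ T p := by
      rcases Nat.lt_or_ge (T p).ncard 4 with hlt | hge
      · obtain ⟨g, hg, hTp⟩ := h.third L.hz hz (by omega) hss
        constructor
        · rw [hTp]
          rintro (h1 | h1 | h1)
          · exact ac h1.symm
          · exact bc h1.symm
          · exact hg (by rw [← h1]; exact L.cz)
        · rw [hTp]
          rintro (h1 | h1 | h1)
          · exact ad h1.symm
          · exact bd h1.symm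
          · exact hg (by rw [← h1]; exact L.dz)
      · have hp4 : (T p).ncard = 4 := by have := H.le4 L.hz.card.ge hz; omega
        exact ⟨fun h1 => H.no_three hz hp4 L.hz.card ab ac bc ⟨hap, L.az⟩ ⟨hbp, L.bz⟩ ⟨h1, L.cz⟩,
          fun h1 => H.no_three hz hp4 L.hz.card ab ad bd ⟨hap, L.az⟩ ⟨hbp, L.bz⟩ ⟨h1, L.dz⟩⟩
    rcases H.inside L.hy hy (L.in_y key.1 key.2) with h1 | h1
    · exact hsub h1.subset
    · rw [h1] at hap
      simp [ae, af] at hap

/-- **dichotomy at a flank** -/
theorem dichT (L : Lock T z y a b c d e f) (H : WT U T) (hz : dist p z = 1)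
    (hy : dist p y = 1) : p ∈ closure (Ex T z {c, d}) ∨ (e ∈ T p ∧ f ∈ T p) := by
  by_contra hcon
  push Not at hcon
  obtain ⟨hcd, hef⟩ := hcon
  have h := H.irr
  have hab := L.not_abT H hz hy
  have C := S5.H767.ctr_of_dpt h L.hz L.nd
  obtain ⟨o1, o2⟩ := L.off hz
  have h1 : ∀ᶠ q in 𝓝[sphere z 1] p, q ∉ closure (Ex T z {a, b}) :=
    mem_nhdsWithin_of_mem_nhds (isClosed_closure.isOpen_compl.mem_nhds hab)
  have h2 : ∀ᶠ q in 𝓝[sphere z 1] p, q ∉ closure (Ex T z {c, d}) :=
    mem_nhdsWithin_of_mem_nhds (isClosed_closure.isOpen_compl.mem_nhds hcd)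
  by_cases he : e ∈ T p
  · have hf := hef he
    have h3 : ∀ᶠ q in 𝓝[sphere z 1] p, f ∉ T q :=
      mem_nhdsWithin_of_mem_nhds ((h.closed f).isOpen_compl.mem_nhds hf)
    refine line_free h hz (t := e) ?_ hy o1 o2 (h.sub _ L.ey)
    filter_upwards [h1, h2, h3, self_mem_nhdsWithin] with q k1 k2 k3 k4
    obtain ⟨l, hl⟩ := C.cover (y := q) k4
    fin_cases l
    · exact hl.2
    · exact absurd hl.2 k3
    · exact absurd hl k1
    · exact absurd hl k2
  · have h3 : ∀ᶠ q in 𝓝[sphere z 1] p, e ∉ T q :=
      mem_nhdsWithin_of_mem_nhds ((h.closed e).isOpen_compl.mem_nhds he)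
    refine line_free h hz (t := f) ?_ hy o1 o2 (h.sub _ L.fy)
    filter_upwards [h1, h2, h3, self_mem_nhdsWithin] with q k1 k2 k3 k4
    obtain ⟨l, hl⟩ := C.cover (y := q) k4
    fin_cases l
    · exact absurd hl.2 k3
    · exact hl.2
    · exact absurd hl k1
    · exact absurd hl k2

/-- the translate of a limit of exact `ef`-arcs of `S(y)` -/
theorem tr_accT (L : Lock T z y a b c d e f) (H : WT U T) (hp : p ∈ closure (Ex T y {e, f})) :
    z + p - y ∈ closure (Ex T z {a, b}) := by
  have h := H.irr
  rw [mem_closure_iff_nhds]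
  intro V hV
  have hcont : Tendsto (fun q : ℂ => z + q - y) (𝓝 p) (𝓝 (z + p - y)) := by
    have : Continuous fun q : ℂ => z + q - y := by fun_prop
    exact this.tendsto p
  obtain ⟨q, hqV, hq⟩ := mem_closure_iff_nhds.1 hp _ (hcont hV)
  have hT : T (z + q - y) = {a, b} := L.symm.ruleT H hq
  have hd : dist (z + q - y) z = 1 := (L.symm.dist_tr hq.1).1
  have haz : ({a, b} : Set (Fin 6)) ⊆ T z := by
    rintro i (rfl | hi)
    · exact L.az
    · rw [mem_singleton_iff] at hi; rw [hi]; exact L.bz
  exact ⟨z + q - y, hqV, hd, h.pair_open (Set.ncard_pair L.hz.ab) haz hT.subset⟩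

/-- a limit of exact `ef`-arcs of `S(y)`: the other flank has not both `c, d` -/
theorem not_cdT' (L : Lock T z y a b c d e f) (H : WT U T) (hp : p ∈ closure (Ex T y {e, f}))
    (hc : c ∈ Pal U (y + z - p)) (hd : d ∈ Pal U (y + z - p)) : False := by
  have h := H.irr
  have h1 := L.tr_accT H hp
  have h2 := sub_of_closure h h1
  have e1 : 2 * z - (z + p - y) = y + z - p := by ring
  exact h.anti L.hz (dist_of_closure h1) (h.sub _ (h2 (by simp))) (h.sub _ (h2 (by simp)))
    (by rw [e1]; exact hc) (by rw [e1]; exact hd)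

/-- ... and is a limit of exact `ef`-arcs too -/
theorem efT' (L : Lock T z y a b c d e f) (H : WT U T) (hz : dist p z = 1) (hy : dist p y = 1)
    (hp : p ∈ closure (Ex T y {e, f})) : y + z - p ∈ closure (Ex T y {e, f}) := by
  have h := H.irr
  obtain ⟨g1, g2⟩ := L.flank' hz hy
  rcases L.symm.dichT H g2 g1 with h1 | ⟨h1, h2⟩
  · exact h1
  · exact (L.not_cdT' H hp (h.sub _ h1) (h.sub _ h2)).elim

/-- ... and the flank itself has not both `c, d` -/
theorem not_cdT (L : Lock T z y a b c d e f) (H : WT U T) (hz : dist p z = 1)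
    (hy : dist p y = 1) (hp : p ∈ closure (Ex T y {e, f})) (hc : c ∈ Pal U p)
    (hd : d ∈ Pal U p) : False := by
  have h1 := L.efT' H hz hy hp
  have e1 : y + z - (y + z - p) = p := by ring
  exact L.not_cdT' H h1 (by rw [e1]; exact hc) (by rw [e1]; exact hd)

/-- if one flank is `{c, d, e, f}` then so is the other one -/
theorem t1_stepT (L : Lock T z y a b c d e f) (H : WT U T) (hz : dist p z = 1)
    (hy : dist p y = 1) (hc : c ∈ T p) (hd : d ∈ T p) (he : e ∈ T p) (hf : f ∈ T p) :
    (c ∈ T (y + z - p) ∧ d ∈ T (y + z - p)) ∧ e ∈ T (y + z - p) ∧ f ∈ T (y + z - p) := by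
  have h := H.irr
  obtain ⟨g1, g2⟩ := L.flank' hz hy
  have e1 : y + z - (y + z - p) = p := by ring
  have e2 : z + y - (y + z - p) = p := by ring
  constructor
  · rcases L.symm.dichT H g2 g1 with h1 | h1
    · have h2 := L.efT' H g1 g2 h1
      rw [e1] at h2
      exact (L.not_cdT H hz hy h2 (h.sub _ hc) (h.sub _ hd)).elim
    · exact h1
  · rcases L.dichT H g1 g2 with h1 | h1
    · have h2 := L.symm.efT' H g2 g1 h1
      rw [e2] at h2
      exact (L.symm.not_cdT H hy hz h2 (h.sub _ he) (h.sub _ hf)).elim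
    · exact h1

/-- the third vertex over an exact `cd`-arc of `S(z)` -/
theorem over_cd (L : Lock T z y a b c d e f) (H : WT U T) (hz : dist p z = 1)
    (hy : dist p y = 1) :
    ∃ w, dist w p = 1 ∧ T w ⊆ {e, f} := by
  have h := H.irr
  obtain ⟨⟨ab, ac, ad, ae, af⟩, ⟨bc, bd, be, bf⟩, ⟨cd, ce, cf⟩, ⟨de, df⟩, ef⟩ := L.ne_all
  obtain ⟨g0, hg0⟩ := L.hz.arc2
  obtain ⟨g, hg, g1, g2, g3, g4⟩ := hg0.exists_off_two (y := p) (y' := y + z - p)
  have hu : T (y + g - z) = {a, b} := L.ruleT H hg
  have huy : dist (y + g - z) y = 1 := (L.dist_tr hg.1).1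
  have haby : ({a, b} : Set (Fin 6)) ⊆ T y := by
    rintro i (rfl | hi)
    · exact L.ay
    · rw [mem_singleton_iff] at hi; rw [hi]; exact L.by'
  have hua : Arc T y (y + g - z) {a, b} :=
    ⟨huy, h.pair_open (Set.ncard_pair ab) haby hu.subset⟩
  obtain ⟨w, hw⟩ : ∃ w, w = p + g - z := ⟨_, rfl⟩
  have hwp : dist w p = 1 := by
    rw [hw, dist_eq_norm, show p + g - z - p = g - z by ring, ← dist_eq_norm]; exact hg.1
  have hcd : ∀ i ∈ ({c, d} : Set (Fin 6)), i ∉ T w := by
    intro i hi h5
    exact h.prism833 hg hz g1 g2 hi (by rw [← hw]; exact h.sub _ h5)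
  have hab : ∀ i ∈ ({a, b} : Set (Fin 6)), i ∉ T w := by
    intro i hi h5
    refine h.prism833 (z := y) (y := p) hua hy (fun h1 => g4 ?_) (fun h1 => g3 ?_) hi ?_
    · linear_combination h1
    · linear_combination h1
    · rw [show p + (y + g - z) - y = w by rw [hw]; ring]
      exact h.sub _ h5
  refine ⟨w, hwp, ?_⟩
  intro i hi
  rcases L.all i with rfl | rfl | rfl | rfl | rfl | rfl
  · exact absurd hi (hab _ (by simp))
  · exact absurd hi (hab _ (by simp))
  · exact absurd hi (hcd _ (by simp))
  · exact absurd hi (hcd _ (by simp))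
  · simp
  · simp

/-- **a flank with the colours `c, d, e, f` is a two-pair point** -/
theorem third_dpt (L : Lock T z y a b c d e f) (H : WT U T) (hz : dist p z = 1)
    (hy : dist p y = 1) (hc : c ∈ T p) (hd : d ∈ T p) (he : e ∈ T p) (hf : f ∈ T p) :
    DPt T p c d e f := by
  have h := H.irr
  obtain ⟨⟨ab, ac, ad, ae, af⟩, ⟨bc, bd, be, bf⟩, ⟨cd, ce, cf⟩, ⟨de, df⟩, ef⟩ := L.ne_all
  have hs : ({c, d, e, f} : Set (Fin 6)) ⊆ T p := by
    rintro i (rfl | rfl | rfl | hi)
    · exact hc
    · exact hd
    · exact he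
    · rw [mem_singleton_iff] at hi; rw [hi]; exact hf
  have hc4 : ({c, d, e, f} : Set (Fin 6)).ncard = 4 := by
    rw [Set.ncard_insert_of_notMem, Set.ncard_insert_of_notMem, Set.ncard_pair ef]
    · simp [de, df]
    · simp [cd, ce, cf]
  have hT : T p = {c, d, e, f} :=
    (Set.eq_of_subset_of_ncard_le hs (by rw [hc4]; exact H.le4 L.hz.card.ge hz)
      (Set.toFinite _)).symm
  obtain ⟨w, hwp, hw⟩ := L.over_cd H hz hy
  obtain ⟨w', hwp', hw'⟩ := L.symm.over_cd H hy hz
  refine ⟨hT, ce, cf, de, df, cd, ef, ⟨w', hwp', ?_⟩, ⟨w, hwp, ?_⟩⟩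
  · refine h.pair_open (Set.ncard_pair cd) ?_ hw'
    rw [hT]
    rintro i (rfl | hi)
    · simp
    · rw [mem_singleton_iff] at hi; rw [hi]; simp
  · refine h.pair_open (Set.ncard_pair ef) ?_ hw
    rw [hT]
    rintro i (rfl | hi)
    · simp
    · rw [mem_singleton_iff] at hi; rw [hi]; simp

/-- **no flank has the four colours `c, d, e, f`** -/
theorem no_t1T (L : Lock T z y a b c d e f) (H : WT U T) (hz : dist p z = 1)
    (hy : dist p y = 1) (hc : c ∈ T p) (hd : d ∈ T p) (he : e ∈ T p) (hf : f ∈ T p) : False := by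
  have h := H.irr
  -- the pair `z, p` with flank `y`
  have L2 : Lock T z p c d a b e f := ⟨L.hz.swap, L.third_dpt H hz hy hc hd he hf, hz, L.nd_cdab⟩
  have hyp : dist y p = 1 := by rw [dist_comm]; exact hy
  obtain ⟨⟨k1, k2⟩, k3, k4⟩ := L2.t1_stepT H (p := y) L.d1 hyp L.ay L.by' L.ey L.fy
  obtain ⟨g1, g2⟩ := L2.flank' (p := y) L.d1 hyp
  have L3 : Lock T z (p + z - y) a b c d e f :=
    ⟨L.hz, L2.third_dpt H g1 g2 k1 k2 k3 k4, g1, L.nd⟩
  obtain ⟨⟨m1, m2⟩, -⟩ := L3.t1_stepT H (p := p) hz (by rw [dist_comm]; exact g2) hc hd he hf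
  have e1 : p + z - y + z - p = 2 * z - y := by ring
  rw [e1] at m1 m2
  exact L.anti_cd h (h.sub _ m1) (h.sub _ m2)

/-- **no flank carries both `e` and `f`** -/
theorem no_swappedT (L : Lock T z y a b c d e f) (H : WT U T) (hz : dist p z = 1)
    (hy : dist p y = 1) (he : e ∈ T p) (hf : f ∈ T p) : False := by
  have h := H.irr
  obtain ⟨⟨ab, ac, ad, ae, af⟩, ⟨bc, bd, be, bf⟩, ⟨cd, ce, cf⟩, ⟨de, df⟩, ef⟩ := L.ne_all
  obtain ⟨w, hwp, hsub⟩ := L.over_cd H hz hy
  have hwTp : T w ⊆ T p := by
    intro i hi
    rcases hsub hi with rfl | h1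
    · exact he
    · rw [mem_singleton_iff] at h1; rw [h1]; exact hf
  rcases Nat.lt_or_ge (T p).ncard 4 with hlt | hge
  · exact h.not_sub hwp (by omega) hwTp
  · have hp4 : (T p).ncard = 4 := by have := H.le4 L.hz.card.ge hz; omega
    have hap : a ∉ T p := fun h1 =>
      H.no_three hy hp4 L.hy.card ae af ef ⟨h1, L.ay⟩ ⟨he, L.ey⟩ ⟨hf, L.fy⟩
    have hbp : b ∉ T p := fun h1 =>
      H.no_three hy hp4 L.hy.card be bf ef ⟨h1, L.by'⟩ ⟨he, L.ey⟩ ⟨hf, L.fy⟩
    have hs : T p ⊆ {c, d, e, f} := by
      intro i hi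
      rcases L.all i with rfl | rfl | rfl | rfl | rfl | rfl
      · exact absurd hi hap
      · exact absurd hi hbp
      · simp
      · simp
      · simp
      · simp
    have hc4 : ({c, d, e, f} : Set (Fin 6)).ncard = 4 := by
      rw [Set.ncard_insert_of_notMem, Set.ncard_insert_of_notMem, Set.ncard_pair ef]
      · simp [de, df]
      · simp [cd, ce, cf]
    have hT : T p = {c, d, e, f} :=
      Set.eq_of_subset_of_ncard_le hs (by rw [hc4, hp4]) (Set.toFinite _)
    exact L.no_t1T H hz hy (by rw [hT]; simp) (by rw [hT]; simp) he hf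

/-- **there are no contacts of type S3** -/
theorem falseT (L : Lock T z y a b c d e f) (H : WT U T) (hz : dist p z = 1)
    (hy : dist p y = 1) : False := by
  rcases L.dichT H hz hy with h1 | ⟨he, hf⟩
  · have h2 := sub_of_closure H.irr h1
    exact L.symm.no_swappedT H hy hz (h2 (by simp)) (h2 (by simp))
  · exact L.no_swappedT H hz hy he hf

end Lock

namespace WT

/-- **there are no contacts of type S3**: two-pair points at distance one have no common pair -/
theorem no_lock (H : WT U T) {z y : ℂ} {a b c d m n : Fin 6} (hz : DPt T z a b c d)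
    (hyz : dist y z = 1) (hD : DPt T y a b m n) : False := by
  obtain ⟨p, hpz, hpy⟩ := exists_flank hyz
  have hay : a ∈ T y ∧ a ∈ T z := ⟨by rw [hD.pal]; simp, by rw [hz.pal]; simp⟩
  have hby : b ∈ T y ∧ b ∈ T z := ⟨by rw [hD.pal]; simp, by rw [hz.pal]; simp⟩
  have hmy : m ∈ T y := by rw [hD.pal]; simp
  have hny : n ∈ T y := by rw [hD.pal]; simp
  have hm : m ∉ T z := fun h1 =>
    H.no_three hyz hD.card hz.card hz.ab hD.ac hD.bc hay hby ⟨hmy, h1⟩
  have hn : n ∉ T z := fun h1 =>
    H.no_three hyz hD.card hz.card hz.ab hD.ad hD.bd hay hby ⟨hny, h1⟩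
  have hcm : c ≠ m := fun h1 => hm (by rw [← h1, hz.pal]; simp)
  have hcn : c ≠ n := fun h1 => hn (by rw [← h1, hz.pal]; simp)
  have hdm : d ≠ m := fun h1 => hm (by rw [← h1, hz.pal]; simp)
  have hdn : d ≠ n := fun h1 => hn (by rw [← h1, hz.pal]; simp)
  have L : Lock T z y a b c d m n := ⟨hz, hD, hyz, by
    simp [hz.ab, hz.ac, hz.ad, hz.bc, hz.bd, hz.cd, hD.ac, hD.ad, hD.bc, hD.bd, hD.cd, hcm, hcn,
      hdm, hdn]⟩
  exact L.falseT H hpz hpy

/-- **Harmless contacts of a two-pair point** (after `Irr.harm_contact`, H479) -/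
theorem harm_contact (H : WT U T) (hmin : MinF U T)
    {z y q : ℂ} {a b c d e f : Fin 6} (hz : DPt T z a b c d) (hyz : dist y z = 1)
    (hy : Harm T y {e, f}) (hTy : T y = {a, b, e, f})
    (hall : ∀ i : Fin 6, i = a ∨ i = b ∨ i = c ∨ i = d ∨ i = e ∨ i = f)
    (he : e ∉ T z) (hf : f ∉ T z) (hA : Acc T z {c, d} q) (hTq : T q = {c, d, f}) :
    ∃ g i, (g = c ∨ g = d) ∧ (i = a ∨ i = b) ∧ T (y + q - z) = {e, f, g, i} ∧
      ∃ a' b' c' d', DPt T (y + q - z) a' b' c' d' := by
  have h := H.irr
  have hqz : dist q z = 1 := hA.dist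
  have hef : e ≠ f := by
    rintro rfl
    have := hy.cardA
    rw [show ({e, e} : Set (Fin 6)) = {e} by simp, Set.ncard_singleton] at this
    omega
  have hcy : c ∉ T y := by
    intro hcy
    rw [hTy] at hcy
    rcases hcy with h1 | h1 | h1 | h1
    · exact hz.ac h1.symm
    · exact hz.bc h1.symm
    · exact he (by rw [← h1, hz.pal]; simp)
    · rw [mem_singleton_iff] at h1; exact hf (by rw [← h1, hz.pal]; simp)
  have hdy : d ∉ T y := by
    intro hdy
    rw [hTy] at hdy
    rcases hdy with h1 | h1 | h1 | h1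
    · exact hz.ad h1.symm
    · exact hz.bd h1.symm
    · exact he (by rw [← h1, hz.pal]; simp)
    · rw [mem_singleton_iff] at h1; exact hf (by rw [← h1, hz.pal]; simp)
  have hoff : ∀ x, c ∉ T x → d ∉ T x → T x ⊆ T y := by
    intro x hc hd i hi
    rw [hTy]
    rcases hall i with rfl | rfl | rfl | rfl | rfl | rfl
    · simp
    · simp
    · exact absurd hi hc
    · exact absurd hi hd
    · simp
    · simp
  set w := y + q - z with hw
  have hwy : dist w y = 1 := by
    rw [dist_eq_norm, show w - y = q - z by rw [hw]; ring, ← dist_eq_norm]; exact hqz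
  have hqw : dist q w = 1 := by
    rw [dist_comm, dist_eq_norm, show w - q = y - z by rw [hw]; ring, ← dist_eq_norm]; exact hyz
  -- the colours `e`, `f` at `w`
  have hew : ∀ m, (m = e ∨ m = f) → m ∈ T w := by
    intro m hm
    have h1 : w ∈ closure {x | m ∈ T x} := by
      rw [mem_closure_iff_nhds]
      intro V hV
      have hcont : Tendsto (fun p : ℂ => y + p - z) (𝓝 q) (𝓝 w) := by
        have : Continuous fun p : ℂ => y + p - z := by fun_prop
        exact this.tendsto q
      obtain ⟨N, hN, hNo, hqN⟩ := _root_.mem_nhds_iff.1 (hcont hV)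
      obtain ⟨p, hpN, hpz, hp⟩ := hA N (hNo.mem_nhds hqN)
      obtain ⟨p', ⟨hp', hp'N⟩, hpz', hpy, hpy2, hJ⟩ := exists_generic (y := y) hpz
        (inter_mem hp (mem_nhdsWithin_of_mem_nhds (hNo.mem_nhds hpN)))
      have hArc : Arc T z p' {c, d} := ⟨hpz', (mem_of_superset hJ inter_subset_left)⟩
      refine ⟨y + p' - z, hN hp'N, ?_⟩
      have h2 := hy.h1 (y + p' - z) (by
        rw [dist_eq_norm, show y + p' - z - y = p' - z by ring, ← dist_eq_norm]; exact hpz')
        (hoff _ (h.shift_off hyz hArc hpy hpy2 (Or.inl rfl))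
          (h.shift_off hyz hArc hpy hpy2 (Or.inr rfl)))
      rcases hm with rfl | rfl
      · exact h2 (by simp)
      · exact h2 (by simp)
    rwa [(h.closed m).closure_eq] at h1
  have hwz : w ≠ z := by
    intro h1
    exact he (by rw [← h1]; exact hew e (Or.inl rfl))
  have hqy : q ≠ y := by
    rintro rfl
    exact hcy (by rw [hTq]; simp)
  have hne2 : w + z ≠ 2 * q := by
    intro h1
    exact hqy (by rw [hw] at h1; linear_combination -h1)
  -- one of `c`, `d` is at `w`
  have hg : c ∈ T w ∨ d ∈ T w := by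
    by_contra hcon
    push Not at hcon
    have hsub := hoff w hcon.1 hcon.2
    have h1 : ∀ᶠ x in 𝓝[sphere y 1] w, f ∈ Pal U x := by
      filter_upwards [mem_nhdsWithin_of_mem_nhds (h.nhd w), self_mem_nhdsWithin] with x h2 h3
      exact h.sub x (hy.h1 x h3 (h2.trans hsub) (by simp))
    rcases h.mx.partner_line (u := y) (p := w) (v := q) hwy h1 (by rw [dist_comm]; exact hqw)
      (h.sub _ (by rw [hTq]; simp)) with h2 | h2
    · exact hqy h2
    · exact hwz (by rw [hw] at h2 ⊢; linear_combination -h2)
  -- symmetry between `c` and `d`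
  have key : ∀ g g', DPt T z a b g g' → T q = {g, g', f} → g ∈ T w →
      (∀ x, g ∉ T x → g' ∉ T x → T x ⊆ T y) →
      (∀ i : Fin 6, i = a ∨ i = b ∨ i = g ∨ i = g' ∨ i = e ∨ i = f) →
      ∃ i, (i = a ∨ i = b) ∧ T w = {e, f, g, i} ∧ ∃ a' b' c' d', DPt T w a' b' c' d' := by
    intro g g' hz' hTq' hgw hoff' hall'
    have heg : e ≠ g := by rintro rfl; exact he (by rw [hz'.pal]; simp)
    have heg' : e ≠ g' := by rintro rfl; exact he (by rw [hz'.pal]; simp)
    have hfg : f ≠ g := by rintro rfl; exact hf (by rw [hz'.pal]; simp)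
    have hfg' : f ≠ g' := by rintro rfl; exact hf (by rw [hz'.pal]; simp)
    have hea : e ≠ a := by rintro rfl; exact he (by rw [hz'.pal]; simp)
    have heb : e ≠ b := by rintro rfl; exact he (by rw [hz'.pal]; simp)
    have hfa : f ≠ a := by rintro rfl; exact hf (by rw [hz'.pal]; simp)
    have hfb : f ≠ b := by rintro rfl; exact hf (by rw [hz'.pal]; simp)
    have hnog : ¬ ∀ᶠ x in 𝓝[sphere w 1] q, g ∈ T x :=
      h.no_carry hz'.swap hqw hqz hwz hne2 (Or.inl rfl)
    have hnog' : ¬ ∀ᶠ x in 𝓝[sphere w 1] q, g' ∈ T x :=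
      h.no_carry hz'.swap hqw hqz hwz hne2 (Or.inr rfl)
    have he' : e ∈ T w := hew e (Or.inl rfl)
    have hf' : f ∈ T w := hew f (Or.inr rfl)
    have hc3 : ({e, f, g} : Set (Fin 6)).ncard = 3 :=
      Set.ncard_eq_three.2 ⟨e, f, g, hef, heg, hfg, rfl⟩
    have hsub3 : ({e, f, g} : Set (Fin 6)) ⊆ T w := by
      rintro i (rfl | rfl | hi)
      · exact he'
      · exact hf'
      · rw [mem_singleton_iff] at hi; rw [hi]; exact hgw
    -- a fourth colour
    have h4w : (T w).ncard = 4 := by
      by_contra hcon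
      have h3 : (T w).ncard ≤ 3 := by have := H.le4 hy.card.ge hwy; omega
      refine hnog' ?_
      filter_upwards [mem_nhdsWithin_of_mem_nhds (h.nhd q), self_mem_nhdsWithin] with x h1 h2
      by_contra hg'x
      refine h.not_sub (x := w) (y := x) h2 h3 fun i hi => ?_
      have h5 := h1 hi
      rw [hTq'] at h5
      rcases h5 with rfl | rfl | h5
      · exact hgw
      · exact absurd hi hg'x
      · rw [mem_singleton_iff] at h5; rw [h5]; exact hf'
    obtain ⟨i, hiw, hi3⟩ : ∃ i ∈ T w, i ∉ ({e, f, g} : Set (Fin 6)) := by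
      by_contra hcon
      push Not at hcon
      have := Set.ncard_le_ncard (show T w ⊆ {e, f, g} from fun i hi => hcon i hi) (Set.toFinite _)
      omega
    have hTw : T w = {e, f, g, i} := by
      symm
      refine Set.eq_of_subset_of_ncard_le ?_ ?_ (Set.toFinite _)
      · rintro j (rfl | rfl | rfl | hj)
        · exact he'
        · exact hf'
        · exact hgw
        · rw [mem_singleton_iff] at hj; rw [hj]; exact hiw
      · rw [h4w, show ({e, f, g, i} : Set (Fin 6)) = insert i {e, f, g} by
          ext j; simp only [mem_insert_iff, mem_singleton_iff]; tauto,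
          Set.ncard_insert_of_notMem hi3 (Set.toFinite _), hc3]
    have hcases : (∃ A, Harm T w A) ∨ ∃ a' b' c' d', DPt T w a' b' c' d' := by
      by_cases hD : ∃ a b c d, DPt T w a b c d
      · exact Or.inr hD
      · left
        exact h.harm_of_noD (fun z hz s hs hne => hmin z hz s hs hne) h4w
          (h.exists_inside h4w fun y hy => H.le4 h4w.ge hy) fun a b c d h => hD ⟨a, b, c, d, h⟩
    have hie : i ≠ e := by rintro rfl; exact hi3 (by simp)
    have hif : i ≠ f := by rintro rfl; exact hi3 (by simp)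
    have hig : i ≠ g := by rintro rfl; exact hi3 (by simp)
    have hab : (i = a ∨ i = b) → ∀ B, Harm T w B → False := by
      intro hiab B hB
      have hCy : B = {f, g} → False := by
        intro hB2
        have hC : T w \ B ⊆ T y := by
          rintro j ⟨hj, hjB⟩
          rw [hTw] at hj
          rw [hTy]
          rcases hj with h5 | h5 | h5 | h5
          · right; right; left; exact h5
          · exact absurd (show j ∈ B by rw [hB2]; left; exact h5) hjB
          · exact absurd (show j ∈ B by rw [hB2]; right; exact h5) hjB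
          · rw [mem_singleton_iff] at h5
            rcases hiab with h6 | h6
            · left; rw [h5, h6]
            · right; left; rw [h5, h6]
        rcases hB.unit_pair h hmin hy (by rw [dist_comm]; exact hwy) hC with h5 | ⟨-, h5⟩
        · have h6 : f ∈ T w \ B := by rw [← h5]; simp
          exact h6.2 (by rw [hB2]; simp)
        · exact Set.disjoint_left.1 h5 (show e ∈ ({e, f} : Set (Fin 6)) by simp) he'
      refine hnog' ?_
      filter_upwards [mem_nhdsWithin_of_mem_nhds (h.nhd q), self_mem_nhdsWithin] with x h1 h2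
      by_contra hg'x
      have h5 : T x ⊆ {f, g} := by
        intro j hj
        have h6 := h1 hj
        rw [hTq'] at h6
        rcases h6 with h6 | h6 | h6
        · right; exact h6
        · exact absurd (h6 ▸ hj) hg'x
        · left; exact h6
      have h6 : B ⊆ T x := hB.h1 x h2 (h5.trans (by
        rintro j (h7 | h7)
        · rw [h7]; exact hf'
        · rw [mem_singleton_iff] at h7; rw [h7]; exact hgw))
      exact hCy (Set.eq_of_subset_of_ncard_le (h6.trans h5)
        (by rw [hB.cardA, Set.ncard_pair hfg]) (Set.toFinite _))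
    have hg'i : i = g' → False := by
      intro hig'
      have hqsub : T q ⊆ T w := by
        rw [hTq', hTw, hig']
        rintro j (h5 | h5 | h5)
        · right; right; left; exact h5
        · right; right; right; exact h5
        · right; left; exact h5
      rcases hcases with ⟨B, hB⟩ | ⟨a', b', c', d', hD⟩
      · have hBx : ∀ m ∈ B, ∀ᶠ x in 𝓝[sphere w 1] q, m ∈ T x := by
          intro m hm
          filter_upwards [mem_nhdsWithin_of_mem_nhds (h.nhd q), self_mem_nhdsWithin] with x h1 h2
          exact hB.h1 x h2 (h1.trans hqsub) hm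
        have hBf : B ⊆ {f} := by
          intro m hm
          have h5 := hB.h1 q hqw hqsub hm
          rw [hTq'] at h5
          rcases h5 with h5 | h5 | h5
          · exact absurd (hBx m hm) (by rw [h5]; exact hnog)
          · exact absurd (hBx m hm) (by rw [h5]; exact hnog')
          · exact h5
        have := Set.ncard_le_ncard hBf (Set.toFinite _)
        rw [hB.cardA, Set.ncard_singleton] at this
        omega
      · have hTq3 : (T q).ncard ≤ 3 := by
          rw [hTq']
          exact (Set.ncard_insert_le _ _).trans (Nat.add_le_add_right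
            ((Set.ncard_insert_le _ _).trans (by rw [Set.ncard_singleton])) 1)
        have hins : T w ⊆ insert e (T q) := by
          rw [hTq', hTw, hig']
          rintro j (h5 | h5 | h5 | h5)
          · left; exact h5
          · right; right; right; exact h5
          · right; left; exact h5
          · right; right; left; exact h5
        obtain ⟨p', hp', P, hP, heP⟩ : ∃ p', dist p' w = 1 ∧ ∃ P, (∀ᶠ x in 𝓝[sphere w 1] p',
            T x = P) ∧ e ∈ P := by
          have h5 := he'
          rw [hD.pal] at h5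
          obtain ⟨p1, hp1⟩ := hD.arc1
          obtain ⟨p2, hp2⟩ := hD.arc2
          rcases h5 with h5 | h5 | h5 | h5
          · exact ⟨p1, hp1.1, _, hp1.2, Or.inl h5⟩
          · exact ⟨p1, hp1.1, _, hp1.2, Or.inr h5⟩
          · exact ⟨p2, hp2.1, _, hp2.2, Or.inl h5⟩
          · exact ⟨p2, hp2.1, _, hp2.2, Or.inr h5⟩
        obtain ⟨r, hr, hrw, hrq, hrq2, -⟩ := exists_generic (y := q) hp' hP
        have hr : T r = P := hr
        exact h.third_notMem hqw hTq3 hins hrw (h.sub _ (by rw [hr]; exact heP)) hrq hrq2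
    rcases hall' i with hia | hib | h1 | hig' | h1 | h1
    · rcases hcases with ⟨B, hB⟩ | hD
      · exact absurd hB (hab (Or.inl hia) B)
      · exact ⟨i, Or.inl hia, hTw, hD⟩
    · rcases hcases with ⟨B, hB⟩ | hD
      · exact absurd hB (hab (Or.inr hib) B)
      · exact ⟨i, Or.inr hib, hTw, hD⟩
    · exact absurd h1 hig
    · exact absurd hig' hg'i
    · exact absurd h1 hie
    · exact absurd h1 hif
  rcases hg with hg | hg
  · obtain ⟨i, hi, hT, hD⟩ := key c d hz hTq hg hoff hall
    exact ⟨c, i, Or.inl rfl, hi, hT, hD⟩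
  · obtain ⟨i, hi, hT, hD⟩ := key d c hz.swap34 (by
      rw [hTq]; ext j; simp only [mem_insert_iff, mem_singleton_iff]; tauto) hg
      (fun x h1 h2 => hoff x h2 h1) (fun i => by have := hall i; tauto)
    exact ⟨d, i, Or.inr rfl, hi, hT, hD⟩

/-- **no harmless contact `{a, b, e, f}` has the arc pair `{e, f}`** -/
theorem no_harm (H : WT U T) (hmin : MinF U T) {z y : ℂ} {a b c d e f : Fin 6}
    (hz : DPt T z a b c d) (nd : [a, b, c, d, e, f].Nodup) (hyz : dist y z = 1)
    (hTy : T y = {a, b, e, f}) (hy : Harm T y {e, f}) : False := by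
  have h := H.irr
  have hn := nd
  simp only [List.nodup_cons, List.mem_cons, List.not_mem_nil, or_false, not_or, List.nodup_nil,
    and_true, not_false_eq_true] at hn
  obtain ⟨⟨ab, ac, ad, ae, af⟩, ⟨bc, bd, be, bf⟩, ⟨cd, ce, cf⟩, ⟨de, df⟩, ef⟩ := hn
  have hall : ∀ i : Fin 6, i = a ∨ i = b ∨ i = c ∨ i = d ∨ i = e ∨ i = f := by
    intro i
    have h1 : [a, b, c, d, e, f].toFinset = Finset.univ := by
      apply Finset.eq_univ_of_card
      rw [List.toFinset_card_of_nodup nd]
      simp
    have h2 : i ∈ [a, b, c, d, e, f].toFinset := by rw [h1]; exact Finset.mem_univ i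
    simpa using h2
  have hez : e ∉ T z := by rw [hz.pal]; simp [Ne.symm ae, Ne.symm be, Ne.symm ce, Ne.symm de]
  have hfz : f ∉ T z := by rw [hz.pal]; simp [Ne.symm af, Ne.symm bf, Ne.symm cf, Ne.symm df]
  have hcz : c ∈ T z := by rw [hz.pal]; simp
  have hdz : d ∈ T z := by rw [hz.pal]; simp
  have hcy : c ∉ T y := by rw [hTy]; simp [Ne.symm ac, Ne.symm bc, ce, cf]
  have hdy : d ∉ T y := by rw [hTy]; simp [Ne.symm ad, Ne.symm bd, de, df]
  have hoff : ∀ x, c ∉ T x → d ∉ T x → T x ⊆ T y := by
    intro x hc hd i hi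
    rw [hTy]
    rcases hall i with rfl | rfl | rfl | rfl | rfl | rfl
    · simp
    · simp
    · exact absurd hi hc
    · exact absurd hi hd
    · simp
    · simp
  -- an end of a `cd`-arc
  obtain ⟨p, hp⟩ := hz.arc2
  obtain ⟨l, -, -, -, hss, hA⟩ := h.arc_side (x := z) (p := p) (P := {c, d}) (o := 1) (Or.inl rfl)
    (Set.ncard_pair hz.cd) (by
      rw [hz.pal]; rintro i (h1 | h1)
      · right; right; left; exact h1
      · right; right; right; exact h1) hp.1 hp.mem
  obtain ⟨q, hq⟩ : ∃ q, q = z + (p - z) * cis (-(1 * l)) := ⟨_, rfl⟩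
  rw [← hq] at hss hA
  have hqz : dist q z = 1 := hA.dist
  obtain ⟨w, hw⟩ : ∃ w, w = y + q - z := ⟨_, rfl⟩
  have hwy : dist w y = 1 := by
    rw [dist_eq_norm, show w - y = q - z by rw [hw]; ring, ← dist_eq_norm]; exact hqz
  have hwq : dist w q = 1 := by
    rw [dist_eq_norm, show w - q = y - z by rw [hw]; ring, ← dist_eq_norm]; exact hyz
  have hqw : dist q w = 1 := by rw [dist_comm]; exact hwq
  rcases Nat.lt_or_ge (T q).ncard 4 with hlt | hge
  · -- three colours at `q`
    obtain ⟨x, hxz, hTq⟩ := h.third hz.swap hA.dist (by omega) hss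
    have key : ∀ e f : Fin 6, e ≠ f → Harm T y {e, f} → T y = {a, b, e, f} →
        (∀ i : Fin 6, i = a ∨ i = b ∨ i = c ∨ i = d ∨ i = e ∨ i = f) → e ∉ T z → f ∉ T z →
        T q = {c, d, f} → False := by
      intro e f hef hy hTy hall he hf hTq
      obtain ⟨g, i, hg, hi, hTw, a', b', c', d', hD⟩ :=
        H.harm_contact hmin hz hyz hy hTy hall he hf hA hTq
      have hyw : dist (y + q - z) y = 1 := by rw [← hw]; exact hwy
      have hie : i ≠ e := by
        rintro rfl
        refine he ?_
        rw [hz.pal]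
        rcases hi with h1 | h1
        · left; exact h1
        · right; left; exact h1
      have hif : i ≠ f := by
        rintro rfl
        refine hf ?_
        rw [hz.pal]
        rcases hi with h1 | h1
        · left; exact h1
        · right; left; exact h1
      refine H.no_three hyw hD.card hy.card hie hif hef ⟨by rw [hTw]; simp, ?_⟩
        ⟨by rw [hTw]; simp, by rw [hTy]; simp⟩ ⟨by rw [hTw]; simp, by rw [hTy]; simp⟩
      rw [hTy]
      rcases hi with h1 | h1
      · left; exact h1
      · right; left; exact h1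
    rcases hall x with h1 | h1 | h1 | h1 | h1 | h1
    · exact hxz (by rw [h1, hz.pal]; simp)
    · exact hxz (by rw [h1, hz.pal]; simp)
    · exact hxz (by rw [h1, hz.pal]; simp)
    · exact hxz (by rw [h1, hz.pal]; simp)
    · exact key f e (Ne.symm ef) (by rw [pair_comm]; exact hy) (by
        rw [hTy]; ext j; simp only [mem_insert_iff, mem_singleton_iff]; tauto)
        (fun i => by have := hall i; tauto) hfz hez (by rw [hTq, h1])
    · exact key e f ef hy hTy hall hez hfz (by rw [hTq, h1])
  · -- four colours at `q`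
    have hq4 : (T q).ncard = 4 := by have := H.le4 hz.card.ge hqz; omega
    have hcq : c ∈ T q := hss.1 (by simp)
    have hdq : d ∈ T q := hss.1 (by simp)
    have haq : a ∉ T q := fun h1 => H.no_three hqz hq4 hz.card ac ad cd
      ⟨h1, by rw [hz.pal]; simp⟩ ⟨hcq, hcz⟩ ⟨hdq, hdz⟩
    have hbq : b ∉ T q := fun h1 => H.no_three hqz hq4 hz.card bc bd cd
      ⟨h1, by rw [hz.pal]; simp⟩ ⟨hcq, hcz⟩ ⟨hdq, hdz⟩
    have hTqs : T q ⊆ {c, d, e, f} := by
      intro i hi
      rcases hall i with rfl | rfl | rfl | rfl | rfl | rfl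
      · exact absurd hi haq
      · exact absurd hi hbq
      · simp
      · simp
      · simp
      · simp
    have hc4 : ({c, d, e, f} : Set (Fin 6)).ncard = 4 := by
      rw [Set.ncard_insert_of_notMem, Set.ncard_insert_of_notMem, Set.ncard_pair ef]
      · simp [de, df]
      · simp [cd, ce, cf]
    have hTq : T q = {c, d, e, f} :=
      Set.eq_of_subset_of_ncard_le hTqs (by rw [hc4, hq4]) (Set.toFinite _)
    have heq : e ∈ T q := by rw [hTq]; simp
    have hfq : f ∈ T q := by rw [hTq]; simp
    -- the colours `e`, `f` at `w`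
    have hew : ∀ m, (m = e ∨ m = f) → m ∈ T w := by
      intro m hm
      have h1 : w ∈ closure {x | m ∈ T x} := by
        rw [mem_closure_iff_nhds]
        intro V hV
        have hcont : Tendsto (fun p : ℂ => y + p - z) (𝓝 q) (𝓝 w) := by
          have : Continuous fun p : ℂ => y + p - z := by fun_prop
          rw [hw]
          exact this.tendsto q
        obtain ⟨N, hN, hNo, hqN⟩ := _root_.mem_nhds_iff.1 (hcont hV)
        obtain ⟨p, hpN, hpz, hp⟩ := hA N (hNo.mem_nhds hqN)
        obtain ⟨p', ⟨hp', hp'N⟩, hpz', hpy, hpy2, hJ⟩ := exists_generic (y := y) hpz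
          (inter_mem hp (mem_nhdsWithin_of_mem_nhds (hNo.mem_nhds hpN)))
        have hArc : Arc T z p' {c, d} := ⟨hpz', (mem_of_superset hJ inter_subset_left)⟩
        refine ⟨y + p' - z, hN hp'N, ?_⟩
        have h2 := hy.h1 (y + p' - z) (by
          rw [dist_eq_norm, show y + p' - z - y = p' - z by ring, ← dist_eq_norm]; exact hpz')
          (hoff _ (h.shift_off hyz hArc hpy hpy2 (Or.inl rfl))
            (h.shift_off hyz hArc hpy hpy2 (Or.inr rfl)))
        rcases hm with rfl | rfl
        · exact h2 (by simp)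
        · exact h2 (by simp)
      rwa [(h.closed m).closure_eq] at h1
    have hqy : q ≠ y := by
      rintro rfl
      exact hcy hcq
    have hwz : w ≠ z := by
      intro h1
      exact hez (by rw [← h1]; exact hew e (Or.inl rfl))
    rcases Nat.lt_or_ge (T w).ncard 4 with hlt' | hge'
    · by_cases hcd : c ∉ T w ∧ d ∉ T w
      · -- `e` near `w` on `S(y)`
        have hsub := hoff w hcd.1 hcd.2
        have h1 : ∀ᶠ x in 𝓝[sphere y 1] w, e ∈ Pal U x := by
          filter_upwards [mem_nhdsWithin_of_mem_nhds (h.nhd w), self_mem_nhdsWithin] with x h2 h3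
          exact h.sub x (hy.h1 x h3 (h2.trans hsub) (by simp))
        rcases h.mx.partner_line (u := y) (p := w) (v := q) hwy h1 hwq
          (h.sub _ heq) with h2 | h2
        · exact hqy h2
        · exact hwz (by rw [hw] at h2 ⊢; linear_combination -h2)
      · -- `T q` is inside `T w` and one colour of `z`
        have key : ∀ g g' : Fin 6, g ∈ T w → g' ∈ T z → T q ⊆ {g, g', e, f} → False := by
          intro g g' hg hg' hs
          have hs2 : T q ⊆ insert g' (T w) := by
            intro i hi
            rcases hs hi with h1 | h1 | h1 | h1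
            · right; rw [h1]; exact hg
            · left; exact h1
            · right; rw [h1]; exact hew e (Or.inl rfl)
            · rw [mem_singleton_iff] at h1; right; rw [h1]; exact hew f (Or.inr rfl)
          rcases h.lemmaX (u := w) (p := q) (v := z) hqw (by omega) hs2 hqz (h.sub _ hg')
            with h1 | h1
          · exact hwz h1.symm
          · exact hqy (by rw [hw] at h1; linear_combination -h1)
        have hor : c ∈ T w ∨ d ∈ T w := by
          by_contra hcon
          push Not at hcon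
          exact hcd hcon
        rcases hor with hc | hd
        · exact key c d hc hdz (by rw [hTq])
        · exact key d c hd hcz (by
            rw [hTq]; intro i; simp only [mem_insert_iff, mem_singleton_iff]; tauto)
    · have hw4 : (T w).ncard = 4 := by have := H.le4 hy.card.ge hwy; omega
      have hew' := hew e (Or.inl rfl)
      have hfw' := hew f (Or.inr rfl)
      have hcw : c ∉ T w := fun h1 =>
        H.no_three hwq hw4 hq4 ce cf ef ⟨h1, hcq⟩ ⟨hew', heq⟩ ⟨hfw', hfq⟩
      have hdw : d ∉ T w := fun h1 =>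
        H.no_three hwq hw4 hq4 de df ef ⟨h1, hdq⟩ ⟨hew', heq⟩ ⟨hfw', hfq⟩
      exact H.not_eq hwy hw4 (hoff w hcw hdw)

/-- **the palette of a contact**: two common colours and both other colours -/
theorem contact_pal (H : WT U T) {z y : ℂ} {a b c d e f : Fin 6} (hz : DPt T z a b c d)
    (nd : [a, b, c, d, e, f].Nodup) (hyz : dist y z = 1) (h4 : (T y).ncard = 4) :
    ∃ i j, i ≠ j ∧ i ∈ T z ∧ j ∈ T z ∧ T y = {i, j, e, f} := by
  have hn := nd
  simp only [List.nodup_cons, List.mem_cons, List.not_mem_nil, or_false, not_or, List.nodup_nil,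
    and_true, not_false_eq_true] at hn
  obtain ⟨⟨ab, ac, ad, ae, af⟩, ⟨bc, bd, be, bf⟩, ⟨cd, ce, cf⟩, ⟨de, df⟩, ef⟩ := hn
  have hall : ∀ i : Fin 6, i = a ∨ i = b ∨ i = c ∨ i = d ∨ i = e ∨ i = f := by
    intro i
    have h1 : [a, b, c, d, e, f].toFinset = Finset.univ := by
      apply Finset.eq_univ_of_card
      rw [List.toFinset_card_of_nodup nd]
      simp
    have h2 : i ∈ [a, b, c, d, e, f].toFinset := by rw [h1]; exact Finset.mem_univ i
    simpa using h2
  have hez : e ∉ T z := by rw [hz.pal]; simp [Ne.symm ae, Ne.symm be, Ne.symm ce, Ne.symm de]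
  have hfz : f ∉ T z := by rw [hz.pal]; simp [Ne.symm af, Ne.symm bf, Ne.symm cf, Ne.symm df]
  have h2 := H.two hyz h4.ge hz.card.ge
  have h3 : (T y \ T z).ncard ≤ 2 := by
    have h5 : T y \ T z ⊆ {e, f} := by
      rintro i ⟨hi, hiz⟩
      rcases hall i with h1 | h1 | h1 | h1 | h1 | h1
      · exact absurd (by rw [h1, hz.pal]; simp) hiz
      · exact absurd (by rw [h1, hz.pal]; simp) hiz
      · exact absurd (by rw [h1, hz.pal]; simp) hiz
      · exact absurd (by rw [h1, hz.pal]; simp) hiz
      · left; exact h1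
      · right; exact h1
    have := Set.ncard_le_ncard h5 (Set.toFinite _)
    rw [Set.ncard_pair ef] at this
    exact this
  have h5 := Set.ncard_inter_add_ncard_sdiff_eq_ncard (T y) (T z) (Set.toFinite _)
  obtain ⟨i, j, hij, hI⟩ := Set.ncard_eq_two.1 (show (T y ∩ T z).ncard = 2 by omega)
  have hi : i ∈ T y ∩ T z := by rw [hI]; simp
  have hj : j ∈ T y ∩ T z := by rw [hI]; simp
  refine ⟨i, j, hij, hi.2, hj.2, ?_⟩
  have hie : i ≠ e := fun h1 => hez (h1 ▸ hi.2)
  have hif : i ≠ f := fun h1 => hfz (h1 ▸ hi.2)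
  have hje : j ≠ e := fun h1 => hez (h1 ▸ hj.2)
  have hjf : j ≠ f := fun h1 => hfz (h1 ▸ hj.2)
  have hc4 : ({i, j, e, f} : Set (Fin 6)).ncard = 4 := by
    rw [Set.ncard_insert_of_notMem, Set.ncard_insert_of_notMem, Set.ncard_pair ef]
    · simp [hje, hjf]
    · simp [hij, hie, hif]
  refine Set.eq_of_subset_of_ncard_le (fun m hm => ?_) (by rw [hc4, h4]) (Set.toFinite _)
  by_cases hmz : m ∈ T z
  · have h6 : m ∈ T y ∩ T z := ⟨hm, hmz⟩
    rw [hI] at h6
    rcases h6 with h6 | h6
    · left; exact h6
    · right; left; exact h6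
  · rcases hall m with h1 | h1 | h1 | h1 | h1 | h1
    · exact absurd (by rw [h1, hz.pal]; simp) hmz
    · exact absurd (by rw [h1, hz.pal]; simp) hmz
    · exact absurd (by rw [h1, hz.pal]; simp) hmz
    · exact absurd (by rw [h1, hz.pal]; simp) hmz
    · right; right; left; exact h1
    · right; right; right; exact h1

end WT

/-- the three ways of pairing four colours -/
theorem DPt.ways {y : ℂ} {i j e f : Fin 6} {p q r s : Fin 6} (hD : DPt T y p q r s)
    (hT : T y = {i, j, e, f}) (nd : [i, j, e, f].Nodup) :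
    DPt T y i j e f ∨ DPt T y i e j f ∨ DPt T y i f j e := by
  have hn := nd
  simp only [List.nodup_cons, List.mem_cons, List.not_mem_nil, or_false, not_or, List.nodup_nil,
    and_true, not_false_eq_true] at hn
  obtain ⟨⟨ij, ie, if'⟩, ⟨je, jf⟩, ef⟩ := hn
  have key : ∀ {q r s : Fin 6}, DPt T y i q r s →
      DPt T y i j e f ∨ DPt T y i e j f ∨ DPt T y i f j e := by
    intro q r s hD
    have hmem : ∀ m ∈ T y, m = i ∨ m = j ∨ m = e ∨ m = f := by
      intro m hm; rw [hT] at hm; simpa using hm
    have hq := hmem q (by rw [hD.pal]; simp)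
    have hr := hmem r (by rw [hD.pal]; simp)
    have hs := hmem s (by rw [hD.pal]; simp)
    have k1 := hD.ab
    have k2 := hD.ac
    have k3 := hD.ad
    have k4 := hD.bc
    have k5 := hD.bd
    have k6 := hD.cd
    rcases hq with h1 | h1 | h1 | h1
    · exact absurd h1.symm k1
    · left
      rcases hr with h2 | h2 | h2 | h2
      · exact absurd h2.symm k2
      · exact absurd (h1.trans h2.symm) k4
      · rcases hs with h3 | h3 | h3 | h3
        · exact absurd h3.symm k3
        · exact absurd (h1.trans h3.symm) k5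
        · exact absurd (h2.trans h3.symm) k6
        · rw [← h1, ← h2, ← h3]; exact hD
      · rcases hs with h3 | h3 | h3 | h3
        · exact absurd h3.symm k3
        · exact absurd (h1.trans h3.symm) k5
        · rw [← h1, ← h2, ← h3]; exact hD.swap34
        · exact absurd (h2.trans h3.symm) k6
    · right; left
      rcases hr with h2 | h2 | h2 | h2
      · exact absurd h2.symm k2
      · rcases hs with h3 | h3 | h3 | h3
        · exact absurd h3.symm k3
        · exact absurd (h2.trans h3.symm) k6
        · exact absurd (h1.trans h3.symm) k5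
        · rw [← h1, ← h2, ← h3]; exact hD
      · exact absurd (h1.trans h2.symm) k4
      · rcases hs with h3 | h3 | h3 | h3
        · exact absurd h3.symm k3
        · rw [← h1, ← h2, ← h3]; exact hD.swap34
        · exact absurd (h1.trans h3.symm) k5
        · exact absurd (h2.trans h3.symm) k6
    · right; right
      rcases hr with h2 | h2 | h2 | h2
      · exact absurd h2.symm k2
      · rcases hs with h3 | h3 | h3 | h3
        · exact absurd h3.symm k3
        · exact absurd (h2.trans h3.symm) k6
        · rw [← h1, ← h2, ← h3]; exact hD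
        · exact absurd (h1.trans h3.symm) k5
      · rcases hs with h3 | h3 | h3 | h3
        · exact absurd h3.symm k3
        · rw [← h1, ← h2, ← h3]; exact hD.swap34
        · exact absurd (h2.trans h3.symm) k6
        · exact absurd (h1.trans h3.symm) k5
      · exact absurd (h1.trans h2.symm) k4
  have hi : i ∈ T y := by rw [hT]; simp
  rw [hD.pal] at hi
  rcases hi with h1 | h1 | h1 | h1
  · subst h1; exact key hD
  · subst h1; exact key hD.swap12
  · subst h1; exact key hD.swap
  · rw [mem_singleton_iff] at h1; subst h1; exact key hD.swap.swap12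

namespace WT

/-- every four-coloured point is a two-pair point or harmless -/
theorem cases (H : WT U T) (hmin : MinF U T) {y : ℂ} (h4 : (T y).ncard = 4) :
    (∃ A, Harm T y A) ∨ ∃ p q r s, DPt T y p q r s := by
  by_cases hD : ∃ a b c d, DPt T y a b c d
  · exact Or.inr hD
  · left
    exact H.irr.harm_of_noD (fun z hz s hs hne => hmin z hz s hs hne) h4
      (H.irr.exists_inside h4 fun y hy => H.le4 h4.ge hy) fun a b c d h => hD ⟨a, b, c, d, h⟩

/-- **contacts with the colours of one pair**: type S4, or harmless with a pair `≠ {e, f}` -/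
theorem contact_same (H : WT U T) (hmin : MinF U T) {z y : ℂ} {a b c d e f : Fin 6}
    (hz : DPt T z a b c d) (nd : [a, b, c, d, e, f].Nodup) (hyz : dist y z = 1)
    (hTy : T y = {a, b, e, f}) :
    DPt T y a e b f ∨ DPt T y a f b e ∨ ∃ A, Harm T y A ∧ A ≠ {e, f} := by
  have hn := nd
  simp only [List.nodup_cons, List.mem_cons, List.not_mem_nil, or_false, not_or, List.nodup_nil,
    and_true, not_false_eq_true] at hn
  obtain ⟨⟨ab, ac, ad, ae, af⟩, ⟨bc, bd, be, bf⟩, ⟨cd, ce, cf⟩, ⟨de, df⟩, ef⟩ := hn
  have h4 : (T y).ncard = 4 := by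
    rw [hTy, Set.ncard_insert_of_notMem, Set.ncard_insert_of_notMem, Set.ncard_pair ef]
    · simp [be, bf]
    · simp [ab, ae, af]
  rcases H.cases hmin h4 with ⟨A, hA⟩ | ⟨p, q, r, s, hD⟩
  · exact Or.inr (Or.inr ⟨A, hA, fun h1 => H.no_harm hmin hz nd hyz hTy (h1 ▸ hA)⟩)
  · rcases hD.ways hTy (by simp [ab, ae, af, be, bf, ef]) with h1 | h1 | h1
    · exact (H.no_lock hz hyz h1).elim
    · exact Or.inl h1
    · exact Or.inr (Or.inl h1)

/-- **contacts with colours of both pairs**: type S4r, T3 or harmless -/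
theorem contact_mixed (H : WT U T) (hmin : MinF U T) {y : ℂ} {a c e f : Fin 6}
    (nd : [a, c, e, f].Nodup) (hTy : T y = {a, c, e, f}) :
    DPt T y a c e f ∨ DPt T y a e c f ∨ DPt T y a f c e ∨ ∃ A, Harm T y A := by
  have hn := nd
  simp only [List.nodup_cons, List.mem_cons, List.not_mem_nil, or_false, not_or, List.nodup_nil,
    and_true, not_false_eq_true] at hn
  obtain ⟨⟨ac, ae, af⟩, ⟨ce, cf⟩, ef⟩ := hn
  have h4 : (T y).ncard = 4 := by
    rw [hTy, Set.ncard_insert_of_notMem, Set.ncard_insert_of_notMem, Set.ncard_pair ef]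
    · simp [ce, cf]
    · simp [ac, ae, af]
  rcases H.cases hmin h4 with hA | ⟨p, q, r, s, hD⟩
  · exact Or.inr (Or.inr (Or.inr hA))
  · rcases hD.ways hTy nd with h1 | h1 | h1
    · exact Or.inl h1
    · exact Or.inr (Or.inl h1)
    · exact Or.inr (Or.inr (Or.inl h1))

end WT

end Vale.Agent.P032.Six
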