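import Vale.Agent.P032.R2.H609.WFam
import Vale.Agent.P032.R2.H939.HEnd

/-!
# P032: the types of the `cd`-arcs of `z = {ab|cd}` given by an end contact `y`

`EndCt`: `T y = {a, b, e, f}`, `y ∈ S(z)`, `y = {ae|bf}` or harmless with the arc pair `{a, e}`.
`TyE`, `TyF`: the points `q` with `b, f` (`a, e`) in the palette of `y + q - z`.

* `EndCt.cover`: every limit of exact `cd`-arcs is in `TyE` or `TyF`;
* `EndCt.not_both` (`tpkeep`), `EndCt.tpend_F`, `EndCt.tpend_E` (`tpend`), `EndCt.crossed`.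
-/

set_option autoImplicit false

open Set Filter Topology Metric

noncomputable section

namespace Vale.Agent.P032.Six

open S5.H767 (Ex Lt Xs pt Ctr sub_of_closure dist_of_closure ctr_of_dpt dist_pt dist_pt_one pt_sum
  pt_three pt_six Lt_dist Lt_col ex_self)

variable {U : Fin 6 → Set ℂ} {T : ℂ → Set (Fin 6)} {z y p q : ℂ} {a b c d e f : Fin 6} {v : ℝ}

theorem acc_of_closure609 {P : Set (Fin 6)} (hq : q ∈ closure (Ex T z P)) : Acc T z P q := by
  intro V hV
  obtain ⟨x, hx1, hx2⟩ := mem_closure_iff_nhds.1 hq V hV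
  exact ⟨x, hx1, hx2.1, hx2.2⟩

/-- an end contact of `z` on the `ab`-side -/
structure EndCt (T : ℂ → Set (Fin 6)) (z y : ℂ) (a b c d e f : Fin 6) : Prop where
  hz : DPt T z a b c d
  nd : [a, b, c, d, e, f].Nodup
  hyz : dist y z = 1
  pal : T y = {a, b, e, f}
  typ : DPt T y a e b f ∨ Harm T y {a, e}

/-- type `E`: over `b, f` -/
def TyE (T : ℂ → Set (Fin 6)) (z y : ℂ) (b f : Fin 6) : Set ℂ :=
  {q | b ∈ T (y + q - z) ∧ f ∈ T (y + q - z)}

theorem TyE.closed (h : Irr U T) : IsClosed (TyE T z y b f) := by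
  have hc : Continuous fun q : ℂ => y + q - z := by fun_prop
  exact ((h.closed b).preimage hc).inter ((h.closed f).preimage hc)

theorem shift_dist609 (z y : ℂ) (hq : dist q z = 1) : dist (y + q - z) y = 1 := by
  rw [dist_eq_norm, show y + q - z - y = q - z by ring, ← dist_eq_norm]; exact hq

namespace EndCt

variable (E : EndCt T z y a b c d e f)
include E

/-- over an exact `cd`-arc the palette of the ring of `y` has `a, e` or `b, f` -/
theorem overT (H : WT U T) (hq : Arc T z q {c, d}) : q ∈ TyE T z y b f ∨ q ∈ TyE T z y a e := by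
  have hs := H.over_same E.hz E.nd E.hyz E.pal hq
  have hw : dist (y + q - z) y = 1 := shift_dist609 z y hq.1
  rcases E.typ with hy | hy
  · rcases H.inside hy hw hs with h1 | h1
    · right
      show a ∈ _ ∧ e ∈ _
      rw [h1]; simp
    · left
      show b ∈ _ ∧ f ∈ _
      rw [h1]; simp
  · right
    have h1 := hy.h1 _ hw hs
    exact ⟨h1 (by simp), h1 (by simp)⟩

/-- every limit of exact `cd`-arcs has a type -/
theorem cover (H : WT U T) : closure (Ex T z {c, d}) ⊆ TyE T z y b f ∪ TyE T z y a e := by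
  refine closure_minimal (fun q hq => ?_) ((TyE.closed H.irr).union (TyE.closed H.irr))
  exact E.overT H ⟨hq.1, hq.2⟩

/-- **tpkeep**: no point of `S(z)` has both types -/
theorem not_both (H : WT U T) (hq : dist q z = 1) (h1 : q ∈ TyE T z y b f)
    (h2 : q ∈ TyE T z y a e) : False := by
  obtain ⟨⟨ab, ac, ad, ae, af⟩, ⟨bc, bd, be, bf⟩, ⟨cd, ce, cf⟩, ⟨de, df⟩, ef⟩ := nodup_sep E.nd
  have hw : dist (y + q - z) y = 1 := shift_dist609 z y hq
  have h4 : (T y).ncard = 4 := by
    rw [E.pal]; exact card_four (by simp [ab, ae, af, be, bf, ef])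
  have h5 := H.le4 h4.ge hw
  have h6 : T y ⊆ T (y + q - z) := by
    rw [E.pal]
    rintro i (rfl | rfl | rfl | hi)
    · exact h2.1
    · exact h1.1
    · exact h2.2
    · rw [mem_singleton_iff] at hi; rw [hi]; exact h1.2
  have h7 := Set.ncard_le_ncard h6 (Set.toFinite _)
  have h8 : T y = T (y + q - z) := Set.eq_of_subset_of_ncard_le h6 (by omega) (Set.toFinite _)
  exact H.not_eq hw (by omega) h8.symm.subset

/-- a crossed harmless end contact has only the type `F` -/
theorem crossed (H : WT U T) (hA : Harm T y {a, e}) (hq : q ∈ closure (Ex T z {c, d})) :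
    q ∈ TyE T z y a e := by
  have : closure (Ex T z {c, d}) ⊆ TyE T z y a e := by
    refine closure_minimal (fun g hg => ?_) (TyE.closed H.irr)
    have hs := H.over_same E.hz E.nd E.hyz E.pal (g := g) ⟨hg.1, hg.2⟩
    have h1 := hA.h1 _ (shift_dist609 z y hg.1) hs
    exact ⟨h1 (by simp), h1 (by simp)⟩
  exact this hq

/-- **tpend**, type `F` (over `a, e`): an end with the colour `e` has the colour `f` -/
theorem tpend_F (H : WT U T) (hq : q ∈ closure (Ex T z {c, d})) (ht : q ∈ TyE T z y a e)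
    (he : e ∈ T q) : f ∈ T q := by
  obtain ⟨⟨ab, ac, ad, ae, af⟩, ⟨bc, bd, be, bf⟩, ⟨cd, ce, cf⟩, ⟨de, df⟩, ef⟩ := nodup_sep E.nd
  have hsub := sub_of_closure H.irr hq
  have hss : {c, d} ⊂ T q := by
    refine ⟨hsub, fun h1 => ?_⟩
    rcases h1 he with h2 | h2
    · exact ce h2.symm
    · rw [mem_singleton_iff] at h2; exact de h2.symm
  rcases H.end_same E.hz E.nd E.hyz E.pal E.typ (acc_of_closure609 hq) hss ht.1 ht.2 with h1 | h1
  · rw [h1]; simp
  · rw [h1.1]; simp

/-- **tpend**, type `E` (over `b, f`): an end with the colour `f` has the colour `e` -/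
theorem tpend_E (H : WT U T) (hq : q ∈ closure (Ex T z {c, d})) (ht : q ∈ TyE T z y b f)
    (hf : f ∈ T q) : e ∈ T q := by
  obtain ⟨⟨ab, ac, ad, ae, af⟩, ⟨bc, bd, be, bf⟩, ⟨cd, ce, cf⟩, ⟨de, df⟩, ef⟩ := nodup_sep E.nd
  rcases E.typ with hy | hy
  · have hsub := sub_of_closure H.irr hq
    have hss : {c, d} ⊂ T q := by
      refine ⟨hsub, fun h1 => ?_⟩
      rcases h1 hf with h2 | h2
      · exact cf h2.symm
      · rw [mem_singleton_iff] at h2; exact df h2.symm
    have hp : T y = {b, a, f, e} := by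
      rw [E.pal]; ext i; simp only [mem_insert_iff, mem_singleton_iff]; tauto
    have nd' : [b, a, c, d, f, e].Nodup := nodup_swap56 (nodup_swap12 E.nd)
    rcases H.end_same E.hz.swap12 nd' E.hyz hp (Or.inl hy.swap) (acc_of_closure609 hq) hss ht.1 ht.2
      with h1 | h1
    · rw [h1]; simp
    · rw [h1.1]; simp
  · exact (E.not_both H (dist_of_closure hq) ht (E.crossed H hy hq)).elim

/-- the three-coloured ends: type `F` has `{c, d, f}`, type `E` has `{c, d, e}` -/
theorem tpend_iff (H : WT U T) (hq : q ∈ closure (Ex T z {c, d})) :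
    (T q = {c, d, e} → q ∈ TyE T z y b f ∧ q ∉ TyE T z y a e) ∧
      (T q = {c, d, f} → q ∈ TyE T z y a e ∧ q ∉ TyE T z y b f) := by
  obtain ⟨⟨ab, ac, ad, ae, af⟩, ⟨bc, bd, be, bf⟩, ⟨cd, ce, cf⟩, ⟨de, df⟩, ef⟩ := nodup_sep E.nd
  have h1 := E.cover H hq
  constructor
  · intro hT
    have h2 : q ∉ TyE T z y a e := by
      intro h3
      have h4 := E.tpend_F H hq h3 (by rw [hT]; simp)
      rw [hT] at h4
      rcases h4 with h4 | h4 | h4
      · exact cf h4.symm
      · exact df h4.symm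
      · exact ef h4.symm
    exact ⟨h1.resolve_right h2, h2⟩
  · intro hT
    have h2 : q ∉ TyE T z y b f := by
      intro h3
      have h4 := E.tpend_E H hq h3 (by rw [hT]; simp)
      rw [hT] at h4
      rcases h4 with h4 | h4 | h4
      · exact ce h4.symm
      · exact de h4.symm
      · exact ef h4
    exact ⟨h1.resolve_left h2, h2⟩

end EndCt

/-! ## limit letters with types -/

/-- a closed set of points, frequent at `v` from a side -/
theorem mem_of_freq {S : Set ℂ} (hS : IsClosed S) {l : Filter ℝ} (hl : l ≤ 𝓝 v)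
    (h : ∃ᶠ s in l, pt z s ∈ S) : pt z v ∈ S := by
  have hcont : Continuous fun s : ℝ => pt z s := S5.H767.continuous_pt z
  exact (hS.preimage hcont).mem_of_frequently_of_tendsto h (tendsto_id'.2 hl)

namespace EndCt

variable (E : EndCt T z y a b c d e f)
include E

/-- **tpkeep** for one-sided limits: `l`, `l'` the left or right neighbourhoods of `v` -/
theorem keep (H : WT U T) {l l' : Filter ℝ} (hl : l ≤ 𝓝 v) (hl' : l' ≤ 𝓝 v)
    (h1 : ∃ᶠ s in l, pt z s ∈ closure (Ex T z {c, d}) ∩ TyE T z y b f)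
    (h2 : ∃ᶠ s in l', pt z s ∈ closure (Ex T z {c, d}) ∩ TyE T z y a e) : False := by
  have k1 := mem_of_freq (isClosed_closure.inter (TyE.closed H.irr)) hl h1
  have k2 := mem_of_freq (isClosed_closure.inter (TyE.closed H.irr)) hl' h2
  exact E.not_both H (dist_pt z v) k1.2 k2.2

/-- **tpend** for one-sided limits, type `F` -/
theorem end_F (H : WT U T) {l : Filter ℝ} (hl : l ≤ 𝓝 v)
    (h1 : ∃ᶠ s in l, pt z s ∈ closure (Ex T z {c, d}) ∩ TyE T z y a e) (he : e ∈ T (pt z v)) :
    f ∈ T (pt z v) := by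
  have k1 := mem_of_freq (isClosed_closure.inter (TyE.closed H.irr)) hl h1
  exact E.tpend_F H k1.1 k1.2 he

/-- **tpend** for one-sided limits, type `E` -/
theorem end_E (H : WT U T) {l : Filter ℝ} (hl : l ≤ 𝓝 v)
    (h1 : ∃ᶠ s in l, pt z s ∈ closure (Ex T z {c, d}) ∩ TyE T z y b f) (hf : f ∈ T (pt z v)) :
    e ∈ T (pt z v) := by
  have k1 := mem_of_freq (isClosed_closure.inter (TyE.closed H.irr)) hl h1
  exact E.tpend_E H k1.1 k1.2 hf

/-- the closed cover of `S(z)` by five letters -/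
theorem cover5 (H : WT U T) (s : ℝ) : s ∈ Xs T z a b c d e f 0 ∨ s ∈ Xs T z a b c d e f 1 ∨
    s ∈ Xs T z a b c d e f 2 ∨ pt z s ∈ closure (Ex T z {c, d}) ∩ TyE T z y b f ∨
      pt z s ∈ closure (Ex T z {c, d}) ∩ TyE T z y a e := by
  have C := ctr_of_dpt H.irr E.hz E.nd
  obtain ⟨m, hm⟩ := C.x_cover s
  rcases fin4_cases m with rfl | rfl | rfl | rfl
  · exact Or.inl hm
  · exact Or.inr (Or.inl hm)
  · exact Or.inr (Or.inr (Or.inl hm))
  · have hm' : pt z s ∈ closure (Ex T z {c, d}) := hm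
    rcases E.cover H hm' with h1 | h1
    · exact Or.inr (Or.inr (Or.inr (Or.inl ⟨hm', h1⟩)))
    · exact Or.inr (Or.inr (Or.inr (Or.inr ⟨hm', h1⟩)))

end EndCt

/-- **a harmless contact with the arc pair `{a, b}` carries no letter `ab`** -/
theorem Irr.hsame_letters (h : Irr U T) (hA : Harm T (pt z v) {a, b}) :
    ¬ LF T z a b c d e f v 2 ∧ ¬ RF T z a b c d e f v 2 := by
  have key : v ∉ Xs T z a b c d e f 2 := fun h1 => by
    have h2 : pt z v ∈ closure (Ex T z {a, b}) := h1
    exact h.harm_not_end hA subset_rfl h2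
  have hcl : IsClosed (Xs T z a b c d e f 2) := by
    have hcont : Continuous fun s : ℝ => pt z s := S5.H767.continuous_pt z
    exact isClosed_closure.preimage hcont
  constructor
  · intro h1
    exact key (hcl.mem_of_frequently_of_tendsto h1 (tendsto_id'.2 nhdsWithin_le_nhds))
  · intro h1
    exact key (hcl.mem_of_frequently_of_tendsto h1 (tendsto_id'.2 nhdsWithin_le_nhds))

end Vale.Agent.P032.Six
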