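import Vale.Agent.P032.S5.H80.Anti
import Vale.Agent.P032.S5.H824.Two

/-!
# P032: two solid rays of one colour span a solid sector

`Irr.cone`: if the rays at `y` in two directions `u1, u2`, not on one line, are in `U a`, then all
points `y + s u1 + t u2`, `s, t > 0` small, are in `U a`.  No assumption on `y`.
-/

open Set Filter Topology Metric

noncomputable section

namespace Vale.Agent.P032.Six

variable {k : ℕ} {U : Fin k → Set ℂ} {T : ℂ → Set (Fin k)}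

theorem cone_sq (y w v : ℂ) : dist (y + v) w ^ 2 = dist y w ^ 2 + 2 * ip v (y - w) + ip v v := by
  rw [sq_dist, sq_dist]
  simp [ip]
  ring

/-- the sign of `dist - 1` on a ray which avoids the unit circle -/
theorem ray_sign {y u w : ℂ} {r0 : ℝ} (h : ∀ r : ℝ, 0 < r → r < r0 → dist (y + r * u) w ≠ 1) :
    (∀ r : ℝ, 0 < r → r < r0 → dist (y + r * u) w < 1) ∨
      ∀ r : ℝ, 0 < r → r < r0 → 1 < dist (y + r * u) w := by
  by_contra hcon
  push Not at hcon
  obtain ⟨⟨r1, h1, h2, h3⟩, r2, h4, h5, h6⟩ := hcon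
  have hcont : ContinuousOn (fun t : ℝ => dist (y + t * u) w) (uIcc r1 r2) := by fun_prop
  have hmem : (1 : ℝ) ∈ uIcc (dist (y + r1 * u) w) (dist (y + r2 * u) w) := by
    rw [uIcc_of_ge (by linarith)]; exact ⟨h6, h3⟩
  obtain ⟨t, ht, ht1⟩ := intermediate_value_uIcc hcont hmem
  have ht0 : 0 < t ∧ t < r0 := by
    rcases le_total r1 r2 with h | h
    · rw [uIcc_of_le h] at ht; exact ⟨by linarith [ht.1], by linarith [ht.2]⟩
    · rw [uIcc_of_ge h] at ht; exact ⟨by linarith [ht.1], by linarith [ht.2]⟩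
  exact h t ht0.1 ht0.2 ht1

theorem dist_le_of_ray {y u w : ℂ} {r0 : ℝ} (h0 : 0 < r0)
    (h : ∀ r : ℝ, 0 < r → r < r0 → dist (y + r * u) w < 1) : dist y w ≤ 1 := by
  have h1 : Tendsto (fun r : ℝ => dist (y + r * u) w) (𝓝[>] 0) (𝓝 (dist y w)) :=
    (tendsto_ray y u).dist tendsto_const_nhds
  refine le_of_tendsto h1 ?_
  filter_upwards [self_mem_nhdsWithin, mem_nhdsWithin_of_mem_nhds (Iio_mem_nhds h0)] with r h2 h3
  exact (h r h2 h3).le

theorem le_dist_of_ray {y u w : ℂ} {r0 : ℝ} (h0 : 0 < r0)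
    (h : ∀ r : ℝ, 0 < r → r < r0 → 1 < dist (y + r * u) w) : 1 ≤ dist y w := by
  have h1 : Tendsto (fun r : ℝ => dist (y + r * u) w) (𝓝[>] 0) (𝓝 (dist y w)) :=
    (tendsto_ray y u).dist tendsto_const_nhds
  refine ge_of_tendsto h1 ?_
  filter_upwards [self_mem_nhdsWithin, mem_nhdsWithin_of_mem_nhds (Iio_mem_nhds h0)] with r h2 h3
  exact (h r h2 h3).le

/-- the mixed case: one ray inside, the other one outside -/
theorem Mx.cone_mixed (h : Mx U) {y u1 u2 w : ℂ} {a : Fin k} {r0 : ℝ} (h0 : 0 < r0)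
    (h1 : ∀ r : ℝ, 0 < r → r < r0 → y + r * u1 ∈ U a)
    (h2 : ∀ r : ℝ, 0 < r → r < r0 → y + r * u2 ∈ U a) (hw : a ∈ Pal U w)
    (k1 : dist (y + (r0 / 2 : ℝ) * u1) w < 1) (k2 : 1 < dist (y + (r0 / 2 : ℝ) * u2) w) :
    False := by
  have e1 : ∀ᶠ g in 𝓝 w, dist (y + (r0 / 2 : ℝ) * u1) g < 1 :=
    (continuous_const.dist continuous_id).continuousAt.eventually (Iio_mem_nhds k1)
  have e2 : ∀ᶠ g in 𝓝 w, 1 < dist (y + (r0 / 2 : ℝ) * u2) g :=
    (continuous_const.dist continuous_id).continuousAt.eventually (Ioi_mem_nhds k2)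
  obtain ⟨g, ⟨hgU, hg1, hg2⟩, hgy⟩ := exists_off (h.isOpen a) (z := y) hw (e1.and e2)
  have key : ∀ u : ℂ, (∀ r : ℝ, 0 < r → r < r0 → y + r * u ∈ U a) →
      ∀ r : ℝ, 0 < r → r < r0 → dist (y + r * u) g ≠ 1 := fun u hu r hr hr' hd =>
    h.notMem' (hu r hr hr') hd (subset_closure hgU)
  have hh : r0 / 2 < r0 := by linarith
  have hp : 0 < r0 / 2 := by linarith
  have l1 : dist y g ≤ 1 := by
    rcases ray_sign (key u1 h1) with h3 | h3
    · exact dist_le_of_ray h0 h3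
    · exact absurd (h3 _ hp hh) (by linarith)
  have l2 : 1 ≤ dist y g := by
    rcases ray_sign (key u2 h2) with h3 | h3
    · exact absurd (h3 _ hp hh) (by linarith)
    · exact le_dist_of_ray h0 h3
  exact hgy (by rw [dist_comm]; exact le_antisymm l1 l2)

theorem abs_ip_le_max {u v : ℂ} {K : ℝ} (hu : ip u u ≤ K) (hv : ip v v ≤ K) : |ip u v| ≤ K := by
  rw [abs_le]
  unfold ip at *
  constructor
  · nlinarith [sq_nonneg (u.re + v.re), sq_nonneg (u.im + v.im)]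
  · nlinarith [sq_nonneg (u.re - v.re), sq_nonneg (u.im - v.im)]

theorem cone_up {G m1 m2 A B q K s t : ℝ} (hA0 : 0 ≤ A) (hqK : -K ≤ q)
    (hs : 0 < s) (ht : 0 < t) (hK : 0 < K) (g2 : 0 < G + 2 * t * m2 + t ^ 2 * B)
    (hx : G + 2 * (s * m1 + t * m2) + (s ^ 2 * A + 2 * s * t * q + t ^ 2 * B) = 0) :
    m1 < (s + t) * K := by
  have h2 : s * (2 * m1 + s * A + 2 * t * q) < 0 := by
    have : s * (2 * m1 + s * A + 2 * t * q) = -(G + 2 * t * m2 + t ^ 2 * B) := by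
      linear_combination hx
    rw [this]; linarith
  have h3 : 2 * m1 + s * A + 2 * t * q < 0 := by
    by_contra hc
    push Not at hc
    exact absurd (mul_nonneg hs.le hc) (not_le.2 h2)
  have h4 := mul_nonneg hs.le hA0
  have h5 := mul_nonneg ht.le (by linarith : (0 : ℝ) ≤ q + K)
  have h6 := mul_pos hs hK
  linarith

theorem cone_low {G m1 m2 A B q K s t M : ℝ} (hA : A ≤ K)
    (hs : 0 < s) (ht : 0 < t)
    (hQ : 0 ≤ s ^ 2 * A + 2 * s * t * q + t ^ 2 * B)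
    (g1 : 0 < G + 2 * (2 * (s + t)) * m1 + (2 * (s + t)) ^ 2 * A) (hM1 : M = -m1) (hM2 : -m2 ≤ M)
    (hx : G + 2 * (s * m1 + t * m2) + (s ^ 2 * A + 2 * s * t * q + t ^ 2 * B) = 0) :
    M < 2 * (s + t) * K := by
  have hε : 0 < s + t := by linarith
  have h0 := mul_le_mul_of_nonneg_left hM2 ht.le
  have h1 : G ≤ 2 * (s + t) * M := by
    have e : s * m1 = -(s * M) := by rw [hM1]; ring
    linarith
  have h3 : (s + t) ^ 2 * A ≤ (s + t) ^ 2 * K := mul_le_mul_of_nonneg_left hA (sq_nonneg _)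
  have e2 : (s + t) * m1 = -((s + t) * M) := by rw [hM1]; ring
  have h4 : 0 < (s + t) * (2 * (s + t) * K - M) := by
    have e3 : (s + t) * (2 * (s + t) * K - M) = 2 * ((s + t) ^ 2 * K) - (s + t) * M := by ring
    have e4 : G + 2 * (2 * (s + t)) * m1 + (2 * (s + t)) ^ 2 * A =
      G + 4 * ((s + t) * m1) + 4 * ((s + t) ^ 2 * A) := by ring
    rw [e4, e2] at g1
    rw [e3]
    linarith
  by_contra hc
  push Not at hc
  have h5 := mul_nonneg hε.le (by linarith : (0 : ℝ) ≤ M - 2 * (s + t) * K)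
  have e5 : (s + t) * (M - 2 * (s + t) * K) = -((s + t) * (2 * (s + t) * K - M)) := by ring
  linarith

theorem cone_fin {m1 m2 A B q b K N D : ℝ} (hN : 1 ≤ N) (hA0 : 0 ≤ A) (hB0 : 0 ≤ B) (hA : A ≤ K)
    (hB : B ≤ K) (hq : |q| ≤ K) (hm1 : |m1| < b) (hm2 : |m2| < b)
    (gram : D ^ 2 * N = m1 ^ 2 * B + m2 ^ 2 * A - 2 * (m1 * m2) * q) : D ^ 2 ≤ 4 * (b ^ 2 * K) := by
  have b1 : m1 ^ 2 ≤ b ^ 2 := by
    rw [← sq_abs]; exact pow_le_pow_left₀ (abs_nonneg _) hm1.le 2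
  have b2 : m2 ^ 2 ≤ b ^ 2 := by
    rw [← sq_abs]; exact pow_le_pow_left₀ (abs_nonneg _) hm2.le 2
  have hb : 0 ≤ b := le_trans (abs_nonneg _) hm1.le
  have b3 : |m1 * m2| ≤ b ^ 2 := by
    rw [abs_mul, sq]
    exact mul_le_mul hm1.le hm2.le (abs_nonneg _) hb
  have hc : D ^ 2 ≤ D ^ 2 * N := le_mul_of_one_le_right (sq_nonneg _) hN
  have e1 : m1 ^ 2 * B ≤ b ^ 2 * K := mul_le_mul b1 hB hB0 (sq_nonneg _)
  have e2 : m2 ^ 2 * A ≤ b ^ 2 * K := mul_le_mul b2 hA hA0 (sq_nonneg _)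
  have h1 : |m1 * m2 * q| ≤ b ^ 2 * K := by
    rw [abs_mul]
    exact mul_le_mul b3 hq (abs_nonneg _) (sq_nonneg _)
  have h2 := (abs_le.1 h1).1
  have e3 : 2 * (m1 * m2) * q = 2 * (m1 * m2 * q) := by ring
  rw [e3] at gram
  linarith

/-- the case of two rays outside -/
theorem cone_out {u1 u2 n : ℂ} {r0 K s t : ℝ} (hK1 : 1 ≤ K) (hu1 : ip u1 u1 ≤ K)
    (hu2 : ip u2 u2 ≤ K) (hs : 0 < s) (ht : 0 < t) (hr0 : 2 * (s + t) < r0)
    (hsm : 16 * (s + t) ^ 2 * K ^ 3 < cr u1 u2 ^ 2) (hn : 1 ≤ ip n n)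
    (g1 : ∀ r : ℝ, 0 < r → r < r0 → 0 < ip n n - 1 + 2 * r * ip u1 n + r ^ 2 * ip u1 u1)
    (g2 : ∀ r : ℝ, 0 < r → r < r0 → 0 < ip n n - 1 + 2 * r * ip u2 n + r ^ 2 * ip u2 u2)
    (hx : ip n n - 1 + 2 * (s * ip u1 n + t * ip u2 n) +
      (s ^ 2 * ip u1 u1 + 2 * s * t * ip u1 u2 + t ^ 2 * ip u2 u2) = 0) : False := by
  have hq := abs_ip_le_max hu1 hu2
  have hqK := (abs_le.1 hq).1
  have hA0 : 0 ≤ ip u1 u1 := by unfold ip; nlinarith [sq_nonneg u1.re, sq_nonneg u1.im]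
  have hB0 : 0 ≤ ip u2 u2 := by unfold ip; nlinarith [sq_nonneg u2.re, sq_nonneg u2.im]
  have hK : 0 < K := by linarith
  have hε : 0 < s + t := by linarith
  have hQ : 0 ≤ s ^ 2 * ip u1 u1 + 2 * s * t * ip u1 u2 + t ^ 2 * ip u2 u2 := by
    unfold ip
    nlinarith [sq_nonneg (s * u1.re + t * u2.re), sq_nonneg (s * u1.im + t * u2.im)]
  have hx' : ip n n - 1 + 2 * (t * ip u2 n + s * ip u1 n) +
      (t ^ 2 * ip u2 u2 + 2 * t * s * ip u1 u2 + s ^ 2 * ip u1 u1) = 0 := by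
    rw [← hx]; ring
  have hQ' : 0 ≤ t ^ 2 * ip u2 u2 + 2 * t * s * ip u1 u2 + s ^ 2 * ip u1 u1 := by
    have e : t ^ 2 * ip u2 u2 + 2 * t * s * ip u1 u2 + s ^ 2 * ip u1 u1 =
      s ^ 2 * ip u1 u1 + 2 * s * t * ip u1 u2 + t ^ 2 * ip u2 u2 := by ring
    rw [e]; exact hQ
  have up1 := cone_up hA0 hqK hs ht hK (g2 t ht (by linarith)) hx
  have up2 := cone_up hB0 hqK ht hs hK (g1 s hs (by linarith)) hx'
  have l1 := g1 (2 * (s + t)) (by linarith) hr0
  have l2 := g2 (2 * (t + s)) (by linarith) (by linarith)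
  have lo : -ip u1 n < 2 * (s + t) * K ∧ -ip u2 n < 2 * (s + t) * K := by
    rcases le_total (-ip u1 n) (-ip u2 n) with h | h
    · have := cone_low hu2 ht hs hQ' l2 rfl h hx'
      exact ⟨by linarith, by linarith⟩
    · have := cone_low hu1 hs ht hQ l1 rfl h hx
      exact ⟨by linarith, by linarith⟩
  have hpos : 0 < (s + t) * K := mul_pos hε hK
  have m1 : |ip u1 n| < 2 * (s + t) * K := abs_lt.2 ⟨by linarith [lo.1], by linarith⟩
  have m2 : |ip u2 n| < 2 * (s + t) * K := abs_lt.2 ⟨by linarith [lo.2], by linarith⟩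
  have gram : cr u1 u2 ^ 2 * ip n n = ip u1 n ^ 2 * ip u2 u2 + ip u2 n ^ 2 * ip u1 u1 -
      2 * (ip u1 n * ip u2 n) * ip u1 u2 := by
    unfold ip cr
    ring
  have hfin := cone_fin hn hA0 hB0 hu1 hu2 hq m1 m2 gram
  have e4 : 4 * ((2 * (s + t) * K) ^ 2 * K) = 16 * (s + t) ^ 2 * K ^ 3 := by ring
  rw [e4] at hfin
  linarith

/-- **Cone lemma.** -/
theorem Irr.cone (h : Irr U T) {y u1 u2 : ℂ} {a : Fin k} (h1 : Ray (U a) y u1)
    (h2 : Ray (U a) y u2) (hcr : cr u1 u2 ≠ 0) :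
    ∃ δ > 0, ∀ s t : ℝ, 0 < s → 0 < t → s + t < δ → y + (s * u1 + t * u2) ∈ U a := by
  obtain ⟨δ1, hδ1, hd1⟩ := h1.exists_delta
  obtain ⟨δ2, hδ2, hd2⟩ := h2.exists_delta
  set r0 := min δ1 δ2 with hr0
  have h0 : 0 < r0 := lt_min hδ1 hδ2
  have k1 : ∀ r : ℝ, 0 < r → r < r0 → y + r * u1 ∈ U a := fun r hr hr' =>
    hd1 r hr (lt_of_lt_of_le hr' (min_le_left _ _))
  have k2 : ∀ r : ℝ, 0 < r → r < r0 → y + r * u2 ∈ U a := fun r hr hr' =>
    hd2 r hr (lt_of_lt_of_le hr' (min_le_right _ _))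
  have hA0 : 0 ≤ ip u1 u1 := by unfold ip; nlinarith [sq_nonneg u1.re, sq_nonneg u1.im]
  have hB0 : 0 ≤ ip u2 u2 := by unfold ip; nlinarith [sq_nonneg u2.re, sq_nonneg u2.im]
  set K := ip u1 u1 + ip u2 u2 + 1 with hK
  have hK1 : 1 ≤ K := by linarith
  have hc : 0 < |cr u1 u2| := abs_pos.2 hcr
  refine ⟨min (r0 / 2) (|cr u1 u2| / (4 * K ^ 2)), by positivity, fun s t hs ht hst => ?_⟩
  have hst1 : s + t < r0 / 2 := lt_of_lt_of_le hst (min_le_left _ _)
  have hst2 : s + t < |cr u1 u2| / (4 * K ^ 2) := lt_of_lt_of_le hst (min_le_right _ _)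
  have hε : 0 < s + t := by linarith
  have hsm : 16 * (s + t) ^ 2 * K ^ 3 < cr u1 u2 ^ 2 := by
    rw [lt_div_iff₀ (by positivity)] at hst2
    have h3 : ((s + t) * (4 * K ^ 2)) ^ 2 < |cr u1 u2| ^ 2 :=
      pow_lt_pow_left₀ hst2 (by positivity) two_ne_zero
    rw [sq_abs] at h3
    have h4 : 16 * (s + t) ^ 2 * K ^ 3 ≤ ((s + t) * (4 * K ^ 2)) ^ 2 := by
      have h5 : K ^ 3 ≤ K ^ 4 := pow_le_pow_right₀ hK1 (by norm_num)
      nlinarith [sq_nonneg (s + t)]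
    linarith
  by_contra hx
  obtain ⟨w, hxw, hw⟩ := h.partner hx
  have n1 : ∀ r : ℝ, 0 < r → r < r0 → dist (y + r * u1) w ≠ 1 := fun r hr hr' hd =>
    h.mx.notMem' (k1 r hr hr') hd hw
  have n2 : ∀ r : ℝ, 0 < r → r < r0 → dist (y + r * u2) w ≠ 1 := fun r hr hr' hd =>
    h.mx.notMem' (k2 r hr hr') hd hw
  have hh : r0 / 2 < r0 := by linarith
  have hp : 0 < r0 / 2 := by linarith
  rcases ray_sign n1 with s1 | s1
  · rcases ray_sign n2 with s2 | s2
    · -- both inside: convexity of the disc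
      have a1 := s1 (s + t) hε (by linarith)
      have a2 := s2 (s + t) hε (by linarith)
      have hconv : y + (s * u1 + t * u2) ∈ ball w 1 := by
        have hmem := (convex_ball w 1) (mem_ball.2 a1) (mem_ball.2 a2)
          (a := s / (s + t)) (b := t / (s + t)) (by positivity) (by positivity) (by field_simp)
        have e : (s / (s + t)) • (y + ((s + t : ℝ) : ℂ) * u1) +
            (t / (s + t)) • (y + ((s + t : ℝ) : ℂ) * u2) = y + (s * u1 + t * u2) := by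
          have hne : ((s : ℂ) + t) ≠ 0 := by
            have : ((s + t : ℝ) : ℂ) ≠ 0 := Complex.ofReal_ne_zero.2 hε.ne'
            simpa using this
          simp only [Complex.real_smul]
          push_cast
          field_simp
          ring
        rw [e] at hmem
        exact hmem
      rw [mem_ball] at hconv
      linarith
    · exact h.mx.cone_mixed h0 k1 k2 hw (s1 _ hp hh) (s2 _ hp hh)
  · rcases ray_sign n2 with s2 | s2
    · exact h.mx.cone_mixed h0 k2 k1 hw (s2 _ hp hh) (s1 _ hp hh)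
    · -- both outside
      have hy1 : 1 ≤ dist y w := le_dist_of_ray h0 s1
      have hnn : dist y w ^ 2 = ip (y - w) (y - w) := by
        rw [sq_dist]; unfold ip; simp; ring
      have hn : 1 ≤ ip (y - w) (y - w) := by rw [← hnn]; nlinarith
      have gg : ∀ u : ℂ, (∀ r : ℝ, 0 < r → r < r0 → 1 < dist (y + r * u) w) →
          ∀ r : ℝ, 0 < r → r < r0 →
          0 < ip (y - w) (y - w) - 1 + 2 * r * ip u (y - w) + r ^ 2 * ip u u := by
        intro u hu r hr hr'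
        have h3 := hu r hr hr'
        have h4 := cone_sq y w (r * u)
        rw [hnn] at h4
        have e1 : ip (r * u) (y - w) = r * ip u (y - w) := ip_smul r u _
        have e2 : ip (r * u) (r * u) = r ^ 2 * ip u u := by
          unfold ip; simp; ring
        rw [e1, e2] at h4
        nlinarith
      have hx2 : ip (y - w) (y - w) - 1 + 2 * (s * ip u1 (y - w) + t * ip u2 (y - w)) +
          (s ^ 2 * ip u1 u1 + 2 * s * t * ip u1 u2 + t ^ 2 * ip u2 u2) = 0 := by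
        have h4 := cone_sq y w (s * u1 + t * u2)
        rw [hnn, hxw] at h4
        have e1 : ip (s * u1 + t * u2) (y - w) = s * ip u1 (y - w) + t * ip u2 (y - w) := by
          unfold ip; simp; ring
        have e2 : ip (s * u1 + t * u2) (s * u1 + t * u2) =
            s ^ 2 * ip u1 u1 + 2 * s * t * ip u1 u2 + t ^ 2 * ip u2 u2 := by
          unfold ip; simp; ring
        rw [e1, e2] at h4
        linarith
      exact cone_out hK1 (by linarith) (by linarith) hs ht (by linarith) hsm hn (gg u1 s1)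
        (gg u2 s2) hx2

end Vale.Agent.P032.Six
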