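import Vale.Agent.P032.R2.H609.NSLock

/-!
# P032: two two-pair points with the same palette (rule CROSS)

`z`, `z'` with `T z' = T z = {a, b, c, d}`, `t` a common point of the two circles, not on the line through
`z` and `z'`, with at most three colours.  Then no exact arc of `S(z)` with a colour of `T z'` contains `t`
(`Irr.cross_arc`), and `T t` contains a colour outside `T z` (`Irr.cross_out`, `Irr.cross_ef`).
-/

set_option autoImplicit false

open Set Filter Topology Metric

noncomputable section

namespace Vale.Agent.P032.Six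

open S5.H767 (line_free)

section
variable {k : ℕ} {U : Fin k → Set ℂ} {T : ℂ → Set (Fin k)}

/-- an exact arc with a colour of `T z'` does not cross `S(z')` -/
theorem Irr.cross_arc (h : Irr U T) {z z' t : ℂ} {P : Set (Fin k)} (hA : Arc T z t P)
    (ht : dist t z' = 1) (hne : z' ≠ z) (hl : z' + z ≠ 2 * t) {i : Fin k} (hi : i ∈ P)
    (hi' : i ∈ Pal U z') : False := by
  refine line_free h hA.1 (t := i) ?_ ht hne hl hi'
  filter_upwards [hA.2] with q hq
  rw [hq]; exact hi

end

variable {U : Fin 6 → Set ℂ} {T : ℂ → Set (Fin 6)} {z z' t : ℂ} {a b c d e f : Fin 6}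

/-- a common point of the circles of two two-pair points with the same palette has a colour outside
this palette -/
theorem Irr.cross_out (h : Irr U T) (hz : DPt T z a b c d) (hT : T z' = T z) (hne : z' ≠ z)
    (ht : dist t z = 1) (ht' : dist t z' = 1) (hl : z' + z ≠ 2 * t) (h3 : (T t).ncard ≤ 3) :
    ∃ i ∈ T t, i ∉ T z := by
  by_contra hcon
  push Not at hcon
  have hsub : T t ⊆ T z := hcon
  have hpal : ∀ i ∈ T t, i ∈ Pal U z' := fun i hi => h.sub _ (by rw [hT]; exact hsub hi)
  obtain ⟨i0, hi0⟩ := h.ne t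
  by_cases h33 : (T t).ncard = 3
  · have hc := Set.ncard_sdiff hsub (Set.toFinite _)
    rw [hz.card, h33] at hc
    obtain ⟨i, hi⟩ := Set.ncard_eq_one.1 (show (T z \ T t).ncard = 1 by omega)
    have hins : T z ⊆ insert i (T t) := by
      intro m hm
      by_cases hmx : m ∈ T t
      · exact Or.inr hmx
      · left
        have : m ∈ T z \ T t := ⟨hm, hmx⟩
        rw [hi] at this
        exact this
    have hiy : i ∈ T z := by
      have : i ∈ T z \ T t := by rw [hi]; rfl
      exact this.1
    rw [hz.pal] at hiy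
    rcases hiy with h1 | h1 | h1 | h1
    · exact h.no_three_in hz ht h3 (Or.inl h1) hins
    · exact h.no_three_in hz ht h3 (Or.inr h1) hins
    · exact h.no_three_in hz.swap ht h3 (Or.inl h1) hins
    · exact h.no_three_in hz.swap ht h3 (Or.inr h1) hins
  · by_cases h2 : (T t).ncard = 2
    · have hop := h.pair_open (z := z) h2 hsub Subset.rfl
      exact h.cross_arc ⟨ht, hop⟩ ht' hne hl hi0 (hpal _ hi0)
    · have h1 : (T t).ncard ≤ 1 := by omega
      have h5 : T t ⊆ {i0} := fun m hm =>
        (Set.ncard_le_one (Set.toFinite _)).1 h1 m hm i0 hi0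
      exact h.mx.notMem' (h.mem_of_single h5) ht (h.sub z (hsub hi0))

/-- **CROSS.** -/
theorem Irr.cross_ef (h : Irr U T) (hz : DPt T z a b c d) (nd : [a, b, c, d, e, f].Nodup)
    (hT : T z' = T z) (hne : z' ≠ z) (ht : dist t z = 1) (ht' : dist t z' = 1)
    (hl : z' + z ≠ 2 * t) (h3 : (T t).ncard ≤ 3) : e ∈ T t ∨ f ∈ T t := by
  obtain ⟨i, hi, hiz⟩ := h.cross_out hz hT hne ht ht' hl h3
  rcases (S5.H767.ctr_of_dpt h hz nd).miss hiz with rfl | rfl
  · exact Or.inl hi
  · exact Or.inr hi

end Vale.Agent.P032.Six
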