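import Vale.Agent.P032.R2.H609.S2n
import Vale.Agent.P032.R2.H659.S2R

/-!
# P032: the systems `rdR2` and `rdS2n` describe the situation of the boxes
-/

set_option autoImplicit false

noncomputable section

namespace Vale.Agent.P032.R2.H609

open Vale.Agent.P032.Six Vale.Agent.P032.R2.H137 Vale.Agent.P032.R2.H659

variable {U : Fin 6 → Set ℂ} {T : ℂ → Set (Fin 6)}

theorem frR2 (H : WT U T) (hmin : MinF U T) : Fr U T rdR2 := by
  intro z y a b c d e f u0 hz nd hyz hy hw
  exact ⟨datR2 T z y a b c d e f u0, hpR2 H hmin hz nd hyz hy hw, rfl, rfl, rfl, rfl, rfl, rfl⟩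

theorem frS2n (H : WT U T) (hmin : MinF U T) : Fr U T rdS2n := by
  intro z y a b c d e f u0 hz nd hyz hy hw
  exact ⟨datS2n T z (S5.H767.pt z u0) y a b c d e f u0, hpS2n H hmin hz nd hyz hy hw, rfl, rfl, rfl,
    rfl, rfl, rfl⟩

/-- **The second certificate from three invariants.** -/
theorem certS2_of_crt3 (H : WT U T) (hmin : MinF U T) {iA iC iN : List (List ℕ)}
    (A : Crt rdR2 exA iA) (C : Crt rdR2 exC iC) (N : Crt rdS2n exN iN) : CertS2 T :=
  certS2_of_crt H hmin (frR2 H hmin) (frS2n H hmin) A C N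

end Vale.Agent.P032.R2.H609
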