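import Vale.Agent.P032.R2.H609.S3Win
import Vale.Agent.P032.R2.H833.HubL

/-!
# P032: the frame with contacts which are ordinary for the ring of the centre

`HubR U T`: at most four colours, limits of exact arcs have at most three colours, no flank of a four
coloured contact carries both missing colours (`noef`), `two`, `l3`.

* `HubR.ringS`: the word of a two-pair point satisfies `RingS`;
* `HubR.end_of`, `HubR.ee_of_lim`: the ends of the exact arcs are full ends; limits too if there are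
  finitely many full ends of the kind;
* `HubR.net`, `HubR.n22`: no class with two ends of each type.
-/

set_option autoImplicit false

open Set Filter Topology Metric

noncomputable section

namespace Vale.Agent.P032.Six

open S5.H767 (Ex Lt Xs pt Ctr sub_of_closure dist_of_closure ctr_of_dpt dist_pt dist_pt_one pt_sum
  pt_three pt_six Lt_dist Lt_col ex_self)
open Vale.Agent.P032.Words

variable {U : Fin 6 → Set ℂ} {T : ℂ → Set (Fin 6)} {z v q y : ℂ} {a b c d e f : Fin 6}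

/-- the frame -/
structure HubR (U : Fin 6 → Set ℂ) (T : ℂ → Set (Fin 6)) : Prop where
  irr : Irr U T
  le4 : ∀ x, (T x).ncard ≤ 4
  /-- exact arcs end in three-coloured points -/
  end3 : ∀ {z : ℂ} {a b c d : Fin 6}, DPt T z a b c d → ∀ {v : ℂ}, Acc T z {a, b} v →
    {a, b} ⊂ T v → (T v).ncard ≤ 3
  /-- no flank of a four coloured contact has both missing colours -/
  noef : ∀ {z : ℂ} {a b c d e f : Fin 6}, DPt T z a b c d → [a, b, c, d, e, f].Nodup →
    ∀ {y p : ℂ}, dist y z = 1 → 4 ≤ (T y).ncard → dist p z = 1 → dist p y = 1 → e ∈ T p →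
    f ∈ T p → False
  /-- a class with one end of both types does not occur -/
  two : ∀ {z v q : ℂ}, EE T z v → EE T z q → T q = (T v)ᶜ →
    (∃ v', v' ≠ v ∧ EE T z v' ∧ T v' = T v) ∨ ∃ q', q' ≠ q ∧ EE T z q' ∧ T q' = T q
  /-- a class with exactly one end and two complementary ends: the centre is between them -/
  l3 : ∀ {z v q q' : ℂ}, EE T z v → EE T z q → EE T z q' → q ≠ q' → T q = (T v)ᶜ →
    T q' = (T v)ᶜ → (∀ v', EE T z v' → T v' = T v → v' = v) →
    (∀ p, EE T z p → T p = (T v)ᶜ → p = q ∨ p = q') →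
    ∃ α β γ : ℝ, 0 < α ∧ 0 < β ∧ 0 < γ ∧
      (α : ℂ) * (v - z) + (β : ℂ) * (q - z) + (γ : ℂ) * (q' - z) = 0

namespace HubR

/-- limits of exact arcs have at most three colours -/
theorem le3 (H : HubR U T) (hz : DPt T z a b c d) (hy : y ∈ closure (Ex T z {a, b})) :
    (T y).ncard ≤ 3 := by
  have h1 := sub_of_closure H.irr hy
  by_cases h2 : T y ⊆ {a, b}
  · have := Set.ncard_le_ncard h2 (Set.toFinite _)
    rw [Set.ncard_pair hz.ab] at this
    omega
  · exact H.end3 hz (acc_of_closure hy) ⟨h1, h2⟩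

/-- a four coloured point has the letters `e, f` only -/
theorem four_let (H : HubR U T) (hz : DPt T z a b c d) {l : Fin 4}
    (hl : y ∈ Lt T z a b c d e f l) (h4 : ¬ (T y).ncard ≤ 3) : l.val < 2 := by
  by_contra h
  have e23 : ∀ n : Fin 4, ¬ n.val < 2 → n = 2 ∨ n = 3 := by decide
  rcases e23 l h with rfl | rfl
  · exact h4 (H.le3 hz hl)
  · exact h4 (H.le3 hz.swap hl)

/-- **The word of a two-pair point.** -/
theorem ringS (H : HubR U T) (hz : DPt T z a b c d) (nd : [a, b, c, d, e, f].Nodup) :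
    RingS (Xs T z a b c d e f) := by
  have h := H.irr
  have C := ctr_of_dpt h hz nd
  have R := C.rawU hz
  have le : ∀ {u : ℝ}, u ∈ Xs T z a b c d e f 2 → (T (pt z u)).ncard ≤ 3 := fun hu => H.le3 hz hu
  refine ⟨C.x_per, R.anti, fun u h2 => C.x_ac (le h2) h2, ?_, ?_, ?_⟩
  · intro u l m n hl hm hn
    by_cases h3 : (T (pt z u)).ncard ≤ 3
    · exact C.x_two h3 hl hm hn
    · have k1 := H.four_let hz hl h3
      have k2 := H.four_let hz hm h3
      have k3 := H.four_let hz hn h3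
      have key : ∀ l m n : Fin 4, l.val < 2 → m.val < 2 → n.val < 2 → l = m ∨ m = n ∨ n = l := by
        decide
      exact key l m n k1 k2 k3
  · intro u l m hlm h1 h2 h3 h4
    by_cases k : (T (pt z u)).ncard ≤ 3
    · by_cases k' : (T (pt z (u + 1))).ncard ≤ 3
      · exact (C.noswap hlm (dist_pt_one z u) k k' h1 h2 h3 h4).elim
      · exact ⟨H.four_let hz h3 k', H.four_let hz h4 k'⟩
    · exact ⟨H.four_let hz h1 k, H.four_let hz h2 k⟩
  · intro u h1 h2 h3 h4
    exfalso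
    have d1 := dist_pt_one z u
    by_cases k : (T (pt z u)).ncard ≤ 3
    · by_cases k' : (T (pt z (u + 1))).ncard ≤ 3
      · exact C.noswap (l := 0) (m := 1) (by decide) d1 k k' h1 h2 h3 h4
      · exact H.noef hz nd (dist_pt z (u + 1)) (by omega) (dist_pt z u) d1 h1.2 h2.2
    · exact H.noef hz nd (dist_pt z u) (by omega) (dist_pt z (u + 1)) (by rw [dist_comm]; exact d1)
        h3.2 h4.2

/-- the end of an exact arc in the direction `o` -/
theorem end_of (H : HubR U T) (hz : DPt T z a b c d) {p : ℂ} (hp : Arc T z p {a, b}) {o : ℝ}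
    (ho : o = 1 ∨ o = -1) : ∃ l g, 0 < l ∧ l ≤ Real.pi / 3 ∧
      (∀ t ∈ Ioo 0 l, T (z + (p - z) * cis (-(o * t))) = {a, b}) ∧ g ∉ T z ∧
      T (z + (p - z) * cis (-(o * l))) = {a, b, g} ∧
      OEnd T z (z + (p - z) * cis (-(o * l))) (-o) ∧ EE T z (z + (p - z) * cis (-(o * l))) := by
  have h := H.irr
  have hab := Set.ncard_pair hz.ab
  have haz : ({a, b} : Set (Fin 6)) ⊆ T z := by
    rw [hz.pal]
    rintro i (rfl | hi)
    · simp
    · rw [mem_singleton_iff] at hi; subst hi; simp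
  obtain ⟨l, hl0, hl3, hlt, hss, hA⟩ := h.arc_side ho hab haz hp.1 hp.mem
  obtain ⟨x, hx⟩ : ∃ x, x = z + (p - z) * cis (-(o * l)) := ⟨_, rfl⟩
  rw [← hx] at hss hA
  have h3 := H.end3 hz hA hss
  obtain ⟨g, hg, hTx⟩ := h.third hz hA.dist h3 hss
  have hga : g ≠ a := fun h1 => hg (haz (h1 ▸ by simp))
  have hgb : g ≠ b := fun h1 => hg (haz (h1 ▸ by simp))
  have hgc : g ≠ c := fun h1 => hg (by rw [hz.pal, h1]; simp)
  have hgd : g ≠ d := fun h1 => hg (by rw [hz.pal, h1]; simp)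
  have hint : T z ∩ T x = {a, b} := by
    rw [hTx]
    ext i
    constructor
    · rintro ⟨h1, h2 | h2 | h2⟩
      · exact Or.inl h2
      · exact Or.inr h2
      · rw [mem_singleton_iff] at h2
        exact absurd (h2 ▸ h1) hg
    · intro hi
      exact ⟨haz hi, by rcases hi with h1 | h1 <;> [exact Or.inl h1; exact Or.inr (Or.inl h1)]⟩
  have hc3 : (T x).ncard = 3 := by
    rw [hTx]
    exact Set.ncard_eq_three.2 ⟨a, b, g, hz.ab, hga.symm, hgb.symm, rfl⟩
  have hOE : OEnd T z x (-o) := by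
    refine ⟨by rcases ho with rfl | rfl <;> norm_num, hA.dist, hz.card, hc3, by rw [hint]; exact hab,
      l, hl0, fun t ht => ?_⟩
    rw [hint]
    have h1 := hlt (l - t) ⟨by linarith [ht.2], by linarith [ht.1]⟩
    rw [← h1]
    congr 1
    rw [hx, add_sub_cancel_left, mul_assoc, ← cis_add394]
    congr 3
    ring
  refine ⟨l, g, hl0, hl3, hlt, hg, ?_⟩
  rw [← hx]
  refine ⟨hTx, hOE, ⟨-o, hOE⟩, ?_⟩
  obtain ⟨p2, hp2⟩ := hz.arc2
  refine ⟨p2, ?_⟩
  have hsd : T z \ T x = {c, d} := by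
    rw [hTx, hz.pal]
    ext i
    simp only [Set.mem_sdiff, mem_insert_iff, mem_singleton_iff, not_or]
    constructor
    · rintro ⟨h1 | h1 | h1 | h1, h2, h3, h4⟩
      · exact absurd h1 h2
      · exact absurd h1 h3
      · exact Or.inl h1
      · exact Or.inr h1
    · rintro (rfl | rfl)
      · exact ⟨by simp, hz.ac.symm, hz.bc.symm, hgc.symm⟩
      · exact ⟨by simp, hz.ad.symm, hz.bd.symm, hgd.symm⟩
  rw [hsd]
  exact hp2

/-- the angle from `p` to `v`, small if `p` is near `v` -/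
theorem _root_.Vale.Agent.P032.Six.angle_near609 (hv : dist v z = 1) {ρ : ℝ} (hρ : 0 < ρ) :
    ∀ᶠ p in 𝓝 v, dist p z = 1 → ∃ α : ℝ, |α| < ρ ∧ v = z + (p - z) * cis α := by
  have hvz : v - z ≠ 0 := by
    rw [← norm_pos_iff, ← dist_eq_norm, hv]; exact one_pos
  have h1 : ContinuousAt (fun p : ℂ => ((v - z) / (p - z)).arg) v := by
    have h2 : ContinuousAt Complex.arg ((v - z) / (v - z)) := by
      rw [div_self hvz]
      exact Complex.continuousAt_arg Complex.one_mem_slitPlane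
    have h3 : ContinuousAt (fun p : ℂ => (v - z) / (p - z)) v := by
      refine ContinuousAt.div continuousAt_const (by fun_prop) hvz
    exact ContinuousAt.comp' h2 h3
  have h4 := h1.tendsto
  rw [div_self hvz, Complex.arg_one] at h4
  filter_upwards [h4.eventually (Metric.ball_mem_nhds 0 hρ)] with p hp hpz
  refine ⟨_, by simpa using hp, ?_⟩
  have hpn : ‖p - z‖ = 1 := by rw [← dist_eq_norm]; exact hpz
  have hne : p - z ≠ 0 := by rw [← norm_pos_iff, hpn]; exact one_pos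
  have hq : ‖(v - z) / (p - z)‖ = 1 := by rw [norm_div, hpn, ← dist_eq_norm, hv, div_one]
  have h5 := Complex.norm_mul_exp_arg_mul_I ((v - z) / (p - z))
  rw [hq, Complex.ofReal_one, one_mul] at h5
  have h6 : cis ((v - z) / (p - z)).arg = (v - z) / (p - z) := h5
  rw [h6, mul_div_cancel₀ _ hne]
  ring

/-- **limits of exact arcs are full ends** if there are finitely many full ends of the kind -/
theorem ee_of_lim (H : HubR U T) (hz : DPt T z a b c d) {g : Fin 6} (hg : g ∉ T z)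
    (hv : v ∈ closure (Ex T z {a, b})) (hgv : g ∈ T v)
    (hfin : {x | EE T z x ∧ T x = {a, b, g}}.Finite) : EE T z v ∧ T v = {a, b, g} := by
  have h := H.irr
  have haz : ({a, b} : Set (Fin 6)) ⊆ T z := by
    rw [hz.pal]
    rintro i (rfl | hi)
    · simp
    · rw [mem_singleton_iff] at hi; subst hi; simp
  have hvd : dist v z = 1 := dist_of_closure hv
  have hsub := sub_of_closure h hv
  have hga : g ≠ a := fun h1 => hg (haz (h1 ▸ by simp))
  have hgb : g ≠ b := fun h1 => hg (haz (h1 ▸ by simp))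
  have hss : {a, b} ⊂ T v := ⟨hsub, fun h1 => by
    rcases h1 hgv with h2 | h2
    · exact hga h2
    · exact hgb h2⟩
  obtain ⟨g', hg', hTv'⟩ := h.third hz hvd (H.le3 hz hv) hss
  have hTv : T v = {a, b, g} := by
    have h1 := hgv
    rw [hTv'] at h1
    rcases h1 with h2 | h2 | h2
    · exact absurd h2 hga
    · exact absurd h2 hgb
    · rw [mem_singleton_iff] at h2; rw [h2]; exact hTv'
  by_contra hcon
  have hvS : v ∉ {x | EE T z x ∧ T x = {a, b, g}} := hcon
  -- a neighbourhood without ends of the kind, with palettes inside `T v`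
  have hn1 : ∀ᶠ x in 𝓝 v, x ∉ {x | EE T z x ∧ T x = {a, b, g}} :=
    hfin.isClosed.isOpen_compl.mem_nhds hvS
  have hn2 : ∀ᶠ x in 𝓝 v, T x ⊆ T v := by
    have h1 : ∀ i : Fin 6, ∀ᶠ x in 𝓝 v, i ∈ T x → i ∈ T v := by
      intro i
      by_cases hi : i ∈ T v
      · exact Eventually.of_forall fun _ _ => hi
      · filter_upwards [(h.closed i).isOpen_compl.mem_nhds hi] with x hx hx'
        exact absurd hx' hx
    filter_upwards [eventually_all.2 h1] with x hx i hi
    exact hx i hi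
  obtain ⟨ρ, hρ, hball⟩ := Metric.eventually_nhds_iff.1 (hn1.and hn2)
  obtain ⟨p, hp1, hp2⟩ := mem_closure_iff_nhds.1 hv _ (angle_near609 hvd hρ)
  obtain ⟨α, hα, hvp⟩ := hp1 hp2.1
  have hTp : T p = {a, b} := ex_self hp2
  have hα0 : α ≠ 0 := by
    rintro rfl
    rw [cis_zero394, mul_one, add_sub_cancel] at hvp
    rw [hvp, hTp] at hTv
    have h1 : g ∈ ({a, b, g} : Set (Fin 6)) := by simp
    rw [← hTv] at h1
    rcases h1 with h2 | h2
    · exact hga h2
    · exact hgb h2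
  -- the direction towards `v`
  obtain ⟨o, s, ho, hs0, hsα⟩ : ∃ o s : ℝ, (o = 1 ∨ o = -1) ∧ 0 < s ∧ α = -(o * s) := by
    rcases lt_or_gt_of_ne hα0 with h1 | h1
    · exact ⟨1, -α, Or.inl rfl, by linarith, by ring⟩
    · exact ⟨-1, α, Or.inr rfl, h1, by ring⟩
  have hs : s < ρ := by
    have h1 : |α| = s := by
      rw [hsα, abs_neg, abs_mul, abs_of_pos hs0]
      rcases ho with rfl | rfl <;> norm_num
    rwa [h1] at hα
  obtain ⟨l, g2, hl0, -, hlt, hg2, hTx, -, hE⟩ := H.end_of hz ⟨hp2.1, hp2.2⟩ ho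
  have hls : l ≤ s := by
    by_contra hc
    push Not at hc
    have h1 := hlt s ⟨hs0, hc⟩
    rw [← hsα, ← hvp, hTv] at h1
    have h2 : g ∈ ({a, b, g} : Set (Fin 6)) := by simp
    rw [h1] at h2
    rcases h2 with h2 | h2
    · exact hga h2
    · exact hgb h2
  have hd : dist (z + (p - z) * cis (-(o * l))) v < ρ := by
    have hpn : ‖p - z‖ = 1 := by rw [← dist_eq_norm]; exact hp2.1
    have e1 : z + (p - z) * cis (-(o * l)) - v =
        (p - z) * cis (-(o * s)) * (cis (o * (s - l)) - 1) := by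
      have e2 : cis (-(o * l)) = cis (-(o * s)) * cis (o * (s - l)) := by
        rw [← cis_add394]; congr 1; ring
      rw [e2, hvp, hsα]; ring
    have hn : ‖cis (-(o * s))‖ = 1 := by
      rw [show cis (-(o * s)) = z + cis (-(o * s)) - z by ring, ← dist_eq_norm]
      exact dist_add_cis z _
    rw [dist_eq_norm, e1, norm_mul, norm_mul, hpn, hn, one_mul, one_mul]
    have h5 : |o * (s - l)| = s - l := by
      rw [abs_mul, abs_of_nonneg (show (0 : ℝ) ≤ s - l by linarith)]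
      rcases ho with rfl | rfl <;> norm_num
    have h6 := norm_cis_sub_one833 (o * (s - l))
    rw [h5] at h6
    linarith
  obtain ⟨k1, k2⟩ := hball hd
  refine k1 ⟨hE, ?_⟩
  rw [hTx]
  have h1 : g2 ∈ T v := k2 (by rw [hTx]; simp)
  rw [hTv] at h1
  rcases h1 with h2 | h2 | h2
  · exact absurd (haz (h2 ▸ by simp)) hg2
  · exact absurd (haz (h2 ▸ by simp)) hg2
  · rw [mem_singleton_iff] at h2; rw [h2]

/-- the network of the two-pair points -/
theorem net (H : HubR U T) (X : Set (Fin 6)) :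
    Vale.Agent.P032.Net.H672.Net (fun z v => EE T z v ∧ T v = X)
      (fun z q => EE T z q ∧ T q = Xᶜ) := by
  have h := H.irr
  have h4 := H.le4
  have hX3 : ∀ {z v}, EE T z v ∧ T v = X → X.ncard = 3 := by
    rintro z v ⟨h1, rfl⟩; exact h1.card_v
  have hX3' : ∀ {z v}, EE T z v ∧ T v = Xᶜ → X.ncard = 3 := by
    rintro z v ⟨h1, h2⟩
    have h3 := h1.card_v
    rw [h2] at h3
    have := Set.ncard_add_ncard_compl X
    rw [Nat.card_eq_fintype_card, Fintype.card_fin] at this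
    omega
  have hc : ∀ {z v z' q}, EE T z v ∧ T v = X → EE T z' q ∧ T q = Xᶜ → T q = (T v)ᶜ := by
    rintro z v z' q ⟨-, h1⟩ ⟨-, h2⟩
    rw [h1, h2]
  refine
    { dist_t := fun hv => hv.1.dist
      dist_c := fun hq => hq.1.dist
      ne := fun {z z' v} hv hq => ?_
      rh := fun {z v q} hv hq => ⟨⟨hv.1.rh h h4 hq.1 (hc hv hq), hv.2⟩,
        ⟨hv.1.rh' h h4 hq.1 (hc hv hq), hq.2⟩⟩
      three_t := ?_
      three_c := ?_
      sep := ?_
      L2 := ?_
      L3 := ?_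
      L3' := ?_ }
  · exact ((hv.1.en' hv.2).ne (hX3 hv) (hq.1.en' hq.2)) rfl
  · rintro v z₁ z₂ z₃ z₄ ⟨a1, q1, b1⟩ ⟨a2, q2, b2⟩ ⟨a3, q3, b3⟩ ⟨a4, q4, b4⟩
    exact h.en_three (hX3 a1) ⟨a1.1.en' a1.2, q1, b1.1.en' b1.2⟩
      ⟨a2.1.en' a2.2, q2, b2.1.en' b2.2⟩ ⟨a3.1.en' a3.2, q3, b3.1.en' b3.2⟩
      ⟨a4.1.en' a4.2, q4, b4.1.en' b4.2⟩
  · rintro q z₁ z₂ z₃ z₄ ⟨a1, q1, b1⟩ ⟨a2, q2, b2⟩ ⟨a3, q3, b3⟩ ⟨a4, q4, b4⟩
    have e : ∀ {z v}, EE T z v ∧ T v = X → En T Xᶜᶜ z v := fun hv =>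
      hv.1.en' (by rw [compl_compl]; exact hv.2)
    exact h.en_three (X := Xᶜ) (ncard_compl_three (hX3' a1))
      ⟨a1.1.en' a1.2, q1, e b1⟩ ⟨a2.1.en' a2.2, q2, e b2⟩
      ⟨a3.1.en' a3.2, q3, e b3⟩ ⟨a4.1.en' a4.2, q4, e b4⟩
  · rintro z v₁ v₂ q₁ q₂ hv₁ hv₂ hq₁ hq₂
    have := h.sep833 hv₁.1 hv₂.1 hq₁.1 hq₂.1 (hv₂.2.trans hv₁.2.symm) (hc hv₁ hq₁) (hc hv₁ hq₂)
    refine this.trans_le (le_of_eq ?_)
    unfold cr Vale.Agent.P032.Net.H672.dt
    ring
  · intro z v q hv hq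
    rcases H.two hv.1 hq.1 (hc hv hq) with ⟨v', h5, h6, h7⟩ | ⟨q', h5, h6, h7⟩
    · exact Or.inl ⟨v', h5, h6, h7.trans hv.2⟩
    · exact Or.inr ⟨q', h5, h6, h7.trans hq.2⟩
  · intro z v q q' hv hq hq' hne hu1 hu2
    exact H.l3 hv.1 hq.1 hq'.1 hne (hc hv hq) (hc hv hq')
      (fun v' h5 h6 => hu1 v' ⟨h5, h6.trans hv.2⟩)
      (fun p h5 h6 => hu2 p ⟨h5, by rw [h6, hv.2]⟩)
  · intro z q v v' hq hv hv' hne hu1 hu2
    exact H.l3 hq.1 hv.1 hv'.1 hne (by rw [hv.2, hq.2, compl_compl])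
      (by rw [hv'.2, hq.2, compl_compl])
      (fun v' h5 h6 => hu1 v' ⟨h5, h6.trans hq.2⟩)
      (fun p h5 h6 => hu2 p ⟨h5, by rw [h6, hq.2, compl_compl]⟩)

/-- **N22** -/
theorem n22 (H : HubR U T) {v v' q q' : ℂ} (h1 : EE T z v) (h2 : EE T z v') (h3 : EE T z q)
    (h4 : EE T z q') (e2 : T v' = T v) (e3 : T q = (T v)ᶜ) (e4 : T q' = (T v)ᶜ) :
    v = v' ∨ q = q' := by
  by_contra hcon
  push Not at hcon
  exact (H.net (T v)).no_two_two ⟨h1, rfl⟩ ⟨h2, e2⟩ ⟨h3, e3⟩ ⟨h4, e4⟩ hcon.1 hcon.2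

end HubR

end Vale.Agent.P032.Six
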