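import Vale.Agent.P032.R2.H659.Cone
import Vale.Agent.P032.R2.H833.S3A

/-!
# P032: swapped contacts of type S3, any world (rule NS')

`z, y, p` a unit triangle.

* `Irr.tri_free`: if `S(z)` and `S(y)` have exact arcs `P`, `Q` in the same direction `m`, then the palette
  of `p + m` is disjoint from `P` and `Q`; so `p` with at most three colours cannot carry all other
  colours.
* `S3x`: `z = {ab|cd}`, `T y = {a, b, e, f}`, `p` a flank with `e, f ∈ T p` and at most three colours.
  `S3x.not_ab`: on an exact `cd`-arc of `S(z)` the translate to `S(y)` is never on an exact `ab`-arc;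
  `S3x.dich`: if `y = {ab|ef}` is a two-pair point then the translate is `{e, f}` or all of `T y`
  (a contact of type S1); `S3x.third`: then the palette of `p + m` is inside `{a, b}`.
-/

set_option autoImplicit false

open Set Filter Topology Metric

noncomputable section

namespace Vale.Agent.P032.Six

open S5.H767 (line_free)

section
variable {k : ℕ} {U : Fin k → Set ℂ} {T : ℂ → Set (Fin k)}

/-- translates of an exact arc, any number of colours -/
theorem Irr.prism609 (h : Irr U T) {z y p : ℂ} {P : Set (Fin k)} (hp : Arc T z p P)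
    (hy : dist y z = 1) (h1 : p ≠ y) (h2 : p + y ≠ 2 * z) {i : Fin k} (hi : i ∈ P) :
    i ∉ Pal U (y + p - z) := by
  have hd : dist p (y + p - z) = 1 := by
    rw [dist_comm, dist_eq_norm, show y + p - z - p = y - z by ring, ← dist_eq_norm]
    exact hy
  refine line_free h hp.1 (t := i) ?_ hd (fun h3 => h2 ?_) fun h3 => h1 ?_
  · filter_upwards [hp.2] with q hq
    rw [hq]; exact hi
  · linear_combination h3
  · linear_combination -h3

/-- points of the arc near `g`, off a finite set -/
theorem Arc.near_off {z g : ℂ} {P : Set (Fin k)} (hg : Arc T z g P) {V : Set ℂ} (hV : V ∈ 𝓝 g)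
    {F : Set ℂ} (hF : F.Finite) : ∃ g' ∈ V, Arc T z g' P ∧ g' ∉ F := by
  obtain ⟨t0, ht0⟩ := exists_cis (u := g - z) (by rw [← dist_eq_norm]; exact hg.1)
  have hpt : g = z + cis t0 := by rw [← ht0]; ring
  have hcont : Continuous fun t : ℝ => z + cis t := continuous_const.add continuous_cis
  have h1 : ∀ᶠ t in 𝓝 t0, z + cis t ∈ V ∧ Arc T z (z + cis t) P := by
    have ht : Tendsto (fun t : ℝ => z + cis t) (𝓝 t0) (𝓝[sphere z 1] g) := by
      rw [hpt]
      exact tendsto_nhdsWithin_iff.2 ⟨hcont.tendsto t0, Eventually.of_forall fun t =>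
        dist_add_cis z _⟩
    have h2 : ∀ᶠ q in 𝓝[sphere z 1] g, q ∈ V ∧ Arc T z q P := by
      filter_upwards [mem_nhdsWithin_of_mem_nhds hV, eventually_eventually_nhdsWithin.2 hg.2,
        self_mem_nhdsWithin] with q k1 k2 k3
      exact ⟨k1, k3, k2⟩
    exact ht.eventually h2
  obtain ⟨η, hη, hb⟩ := Metric.eventually_nhds_iff.1 h1
  by_contra hcon
  push Not at hcon
  have hδ : 0 < min η 1 := lt_min hη one_pos
  have h3 : (Ioo t0 (t0 + min η 1)).Infinite := Ioo_infinite (by linarith)
  refine h3 (Set.Finite.of_injOn (f := fun t => z + cis t) (t := F) ?_ ?_ hF)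
  · intro t ht
    obtain ⟨k1, k2⟩ := hb (y := t) (by
      rw [Real.dist_eq, abs_of_pos (by linarith [ht.1])]
      linarith [ht.2, min_le_left η 1])
    exact hcon _ k1 k2
  · intro s hs t ht hst
    have hst' : cis s = cis t := by
      have : z + cis s = z + cis t := hst
      linear_combination this
    have e1 : cis (s - t) = 1 := by
      rw [show s - t = s + -t by ring, cis_add394, hst', ← cis_add394, add_neg_cancel, cis_zero394]
    unfold cis at e1
    obtain ⟨n, hn⟩ := Complex.exp_eq_one_iff.1 e1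
    have h4 := congrArg Complex.im hn
    have h5 : s - t = n * (2 * Real.pi) := by simpa using h4
    have hm := min_le_right η 1
    have hpi := Real.pi_gt_three
    have h6 : |s - t| < 1 := by
      rw [abs_lt]
      constructor <;> linarith [hs.1, hs.2, ht.1, ht.2]
    have h7 : n = 0 := by
      by_contra hn0
      have h8 : (1 : ℝ) ≤ |(n : ℝ)| := by
        have : (1 : ℤ) ≤ |n| := Int.one_le_abs hn0
        exact_mod_cast this
      rw [h5, abs_mul, abs_of_pos (by positivity : 0 < 2 * Real.pi)] at h6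
      nlinarith
    rw [h7] at h5
    push_cast at h5
    linarith

/-- **Unit triangles.** `S(z)` is exactly `P` and `S(y)` exactly `Q` in the direction `g - z`: the third
vertex `p` with at most three colours does not carry all the other colours -/
theorem Irr.tri_free (h : Irr U T) {z y p g : ℂ} {P Q : Set (Fin k)} (hyz : dist y z = 1)
    (hpz : dist p z = 1) (hpy : dist p y = 1) (hg : Arc T z g P) (hu : Arc T y (y + g - z) Q)
    (h3 : (T p).ncard ≤ 3) (hs : (P ∪ Q)ᶜ ⊆ T p) : False := by
  have hcont : Tendsto (fun q : ℂ => y + q - z) (𝓝[sphere z 1] g) (𝓝[sphere y 1] (y + g - z)) := by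
    refine tendsto_nhdsWithin_iff.2 ⟨?_, ?_⟩
    · have : Continuous fun q : ℂ => y + q - z := by fun_prop
      exact (this.tendsto g).mono_left nhdsWithin_le_nhds
    · filter_upwards [self_mem_nhdsWithin] with q hq
      rw [mem_sphere, dist_eq_norm, show y + q - z - y = q - z by ring, ← dist_eq_norm]
      exact hq
  -- directions near `g`
  have hex : ∃ g', Arc T z g' P ∧ Arc T y (y + g' - z) Q ∧ g' ≠ p ∧ g' + p ≠ 2 * z ∧
      g' ≠ y + z - p ∧ g' ≠ z + p - y := by
    have hV : ∀ᶠ q in 𝓝[sphere z 1] g, Arc T y (y + q - z) Q := by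
      have h1 : ∀ᶠ x in 𝓝[sphere y 1] (y + g - z), Arc T y x Q := by
        filter_upwards [eventually_eventually_nhdsWithin.2 hu.2, self_mem_nhdsWithin] with x k1 k2
        exact ⟨k2, k1⟩
      exact hcont.eventually h1
    rw [eventually_nhdsWithin_iff] at hV
    obtain ⟨g', k1, k2, k3⟩ := hg.near_off hV
      (F := {p, 2 * z - p, y + z - p, z + p - y}) (by simp)
    simp only [mem_insert_iff, mem_singleton_iff, not_or] at k3
    exact ⟨g', k2, k1 k2.1, k3.1, fun h1 => k3.2.1 (by linear_combination h1), k3.2.2.1,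
      k3.2.2.2⟩
  obtain ⟨g', k1, k2, k3, k4, k5, k6⟩ := hex
  have hsub : T (p + g' - z) ⊆ T p := by
    intro i hi
    by_contra hip
    have hi2 : i ∈ P ∪ Q := by
      by_contra hc
      exact hip (hs hc)
    rcases hi2 with hiP | hiQ
    · exact h.prism609 k1 hpz k3 k4 hiP (h.sub _ hi)
    · refine h.prism609 (z := y) (y := p) k2 hpy (fun h1 => k6 ?_) (fun h1 => k5 ?_) hiQ ?_
      · linear_combination h1
      · linear_combination h1
      · rw [show p + (y + g' - z) - y = p + g' - z by ring]
        exact h.sub _ hi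
  refine h.not_sub (x := p) (y := p + g' - z) ?_ h3 hsub
  rw [dist_eq_norm, show p + g' - z - p = g' - z by ring, ← dist_eq_norm]
  exact k1.1

end

variable {U : Fin 6 → Set ℂ} {T : ℂ → Set (Fin 6)} {z y p g : ℂ} {a b c d e f : Fin 6}

/-- a swapped contact of type S3: `z = {ab|cd}`, `T y = {a, b, e, f}`, flank `p` with `e, f ∈ T p` -/
structure S3x (U : Fin 6 → Set ℂ) (T : ℂ → Set (Fin 6)) (z y p : ℂ) (a b c d e f : Fin 6) :
    Prop where
  irr : Irr U T
  dp : DPt T z a b c d
  nd : [a, b, c, d, e, f].Nodup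
  pal : T y = {a, b, e, f}
  yz : dist y z = 1
  pz : dist p z = 1
  py : dist p y = 1
  he : e ∈ T p
  hf : f ∈ T p
  three : (T p).ncard ≤ 3

namespace S3x

theorem all (C : S3x U T z y p a b c d e f) (i : Fin 6) :
    i = a ∨ i = b ∨ i = c ∨ i = d ∨ i = e ∨ i = f :=
  (S5.H767.ctr_of_dpt C.irr C.dp C.nd).all i

/-- **Rule NS'**: no exact `ab`-arc of `S(y)` over an exact `cd`-arc of `S(z)` -/
theorem not_ab (C : S3x U T z y p a b c d e f) (hg : Arc T z g {c, d})
    (hu : Arc T y (y + g - z) {a, b}) : False := by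
  refine C.irr.tri_free C.yz C.pz C.py hg hu C.three fun i hi => ?_
  rcases C.all i with rfl | rfl | rfl | rfl | rfl | rfl
  · exact absurd (Or.inr (Or.inl rfl)) hi
  · exact absurd (Or.inr (Or.inr rfl)) hi
  · exact absurd (Or.inl (Or.inl rfl)) hi
  · exact absurd (Or.inl (Or.inr rfl)) hi
  · exact C.he
  · exact C.hf

theorem sep (C : S3x U T z y p a b c d e f) :
    (a ≠ b ∧ a ≠ c ∧ a ≠ d ∧ a ≠ e ∧ a ≠ f) ∧ (b ≠ c ∧ b ≠ d ∧ b ≠ e ∧ b ≠ f) ∧
      (c ≠ d ∧ c ≠ e ∧ c ≠ f) ∧ (d ≠ e ∧ d ≠ f) ∧ e ≠ f := by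
  have hn := C.nd
  simp only [List.nodup_cons, List.mem_cons, List.not_mem_nil, or_false, not_or, List.nodup_nil,
    and_true, not_false_eq_true] at hn
  exact hn

/-- over an exact `cd`-arc of `S(z)` the palettes of `S(y)` are inside `T y` -/
theorem sub_y (C : S3x U T z y p a b c d e f) (hg : Arc T z g {c, d}) : T (y + g - z) ⊆ T y := by
  have h := C.irr
  obtain ⟨⟨ab, ac, ad, ae, af⟩, ⟨bc, bd, be, bf⟩, ⟨cd, ce, cf⟩, ⟨de, df⟩, ef⟩ := C.sep
  have hTg : T g = {c, d} := hg.mem
  have h1 : g ≠ y := by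
    rintro rfl
    have hc : c ∈ T g := by rw [hTg]; simp
    rw [C.pal] at hc
    simp [ac.symm, bc.symm, ce, cf] at hc
  have h2 : g + y ≠ 2 * z := by
    intro h2
    have e1 : 2 * z - y = g := by linear_combination -h2
    exact h.anti C.dp C.yz (h.sub _ (by rw [C.pal]; simp)) (h.sub _ (by rw [C.pal]; simp))
      (by rw [e1]; exact h.sub _ (by rw [hTg]; simp))
      (by rw [e1]; exact h.sub _ (by rw [hTg]; simp))
  intro i hi
  rw [C.pal]
  rcases C.all i with rfl | rfl | rfl | rfl | rfl | rfl
  · simp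
  · simp
  · exact absurd (h.sub _ hi) (h.prism609 hg C.yz h1 h2 (by simp))
  · exact absurd (h.sub _ hi) (h.prism609 hg C.yz h1 h2 (by simp))
  · simp
  · simp

/-- **dichotomy**: over an exact `cd`-arc of `S(z)` the two-pair point `y` sees `{e, f}` or a contact of
type S1 -/
theorem dich (C : S3x U T z y p a b c d e f) (hy : DPt T y a b e f) (hg : Arc T z g {c, d}) :
    T (y + g - z) = {e, f} ∨ T (y + g - z) = T y := by
  have h := C.irr
  have hsub := C.sub_y hg
  have hud : dist (y + g - z) y = 1 := by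
    rw [dist_eq_norm, show y + g - z - y = g - z by ring, ← dist_eq_norm]; exact hg.1
  have hle := Set.ncard_le_ncard hsub (Set.toFinite _)
  rw [hy.card] at hle
  by_cases h4 : (T (y + g - z)).ncard = 4
  · exact Or.inr (Set.eq_of_subset_of_ncard_le hsub (by rw [h4, hy.card]) (Set.toFinite _))
  left
  by_cases h3 : (T (y + g - z)).ncard = 3
  · exfalso
    have hc := Set.ncard_sdiff hsub (Set.toFinite _)
    rw [hy.card, h3] at hc
    obtain ⟨i, hi⟩ := Set.ncard_eq_one.1 (show (T y \ T (y + g - z)).ncard = 1 by omega)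
    have hins : T y ⊆ insert i (T (y + g - z)) := by
      intro m hm
      by_cases hmx : m ∈ T (y + g - z)
      · exact Or.inr hmx
      · left
        have : m ∈ T y \ T (y + g - z) := ⟨hm, hmx⟩
        rw [hi] at this
        exact this
    have hiy : i ∈ T y := by
      have : i ∈ T y \ T (y + g - z) := by rw [hi]; rfl
      exact this.1
    rw [hy.pal] at hiy
    rcases hiy with h1 | h1 | h1 | h1
    · exact h.no_three_in hy hud (by omega) (Or.inl h1) hins
    · exact h.no_three_in hy hud (by omega) (Or.inr h1) hins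
    · exact h.no_three_in hy.swap hud (by omega) (Or.inl h1) hins
    · exact h.no_three_in hy.swap hud (by omega) (Or.inr h1) hins
  by_cases h2 : (T (y + g - z)).ncard = 2
  · have hop := h.pair_open (z := y) h2 hsub Subset.rfl
    rcases h.twoPairs hy (y + g - z) hud hop hsub with h1 | h1
    · exfalso
      exact C.not_ab hg ⟨hud, by rw [← h1]; exact hop⟩
    · exact h1
  · exfalso
    obtain ⟨i0, hi0⟩ := h.ne (y + g - z)
    have h1 : (T (y + g - z)).ncard ≤ 1 := by omega
    have h5 : T (y + g - z) ⊆ {i0} := fun m hm =>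
      (Set.ncard_le_one (Set.toFinite _)).1 h1 m hm i0 hi0
    exact h.mx.notMem' (h.mem_of_single h5) hud (h.sub y (hsub hi0))

/-- the third vertex over an exact `cd`-arc of `S(z)` with an exact `ef`-arc of `S(y)` -/
theorem third (C : S3x U T z y p a b c d e f) (hg : Arc T z g {c, d})
    (hu : Arc T y (y + g - z) {e, f}) (h1 : g ≠ p) (h2 : g + p ≠ 2 * z) (h3 : g ≠ y + z - p)
    (h4 : g ≠ z + p - y) : T (p + g - z) ⊆ {a, b} := by
  have h := C.irr
  intro i hi
  have k1 : ∀ j ∈ ({c, d} : Set (Fin 6)), j ∉ T (p + g - z) := fun j hj h5 =>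
    h.prism609 hg C.pz h1 h2 hj (h.sub _ h5)
  have k2 : ∀ j ∈ ({e, f} : Set (Fin 6)), j ∉ T (p + g - z) := fun j hj h5 => by
    refine h.prism609 (z := y) (y := p) hu C.py (fun h6 => h4 ?_) (fun h6 => h3 ?_) hj ?_
    · linear_combination h6
    · linear_combination h6
    · rw [show p + (y + g - z) - y = p + g - z by ring]
      exact h.sub _ h5
  rcases C.all i with rfl | rfl | rfl | rfl | rfl | rfl
  · simp
  · simp
  · exact absurd hi (k1 _ (by simp))
  · exact absurd hi (k1 _ (by simp))
  · exact absurd hi (k2 _ (by simp))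
  · exact absurd hi (k2 _ (by simp))

end S3x

end Vale.Agent.P032.Six
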