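import Vale.Agent.P032.R2.H264.Asm
import Vale.Agent.P032.R2.H137.Roots
import Vale.Agent.P032.R2.H609.Typ
import Vale.Agent.P032.R2.H659.S2F

/-!
# P032: the worlds of the roots `rdR2` and `rdS2n`

`z = {a, b | c, d}`, `w = pt z u0 = {a, c | e, f}` and `y = {a, e | b, f}` on the circle of `z`.  The anchor time
is the time of `w`; the `cd`-arcs of the circle of `z` are typed by `y`.

* `hpR2`: the hypotheses of the root `rdR2` (rings of `z` and `y`);
* `hpS2n`: the hypotheses of the root `rdS2n` (rings of `z`, `w` and `y`).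
-/

set_option autoImplicit false

open Set Filter Topology Metric

noncomputable section

namespace Vale.Agent.P032.R2.H609

open Vale.Agent.P032.Six Vale.Agent.P032.Words Vale.Agent.P032.S5.H767
open Vale.Agent.P032.R2.H741.Tp Vale.Agent.P032.R2.H264 Vale.Agent.P032.R2.H137
open Vale.Agent.P032.R2.H659 (FU fu_closed xS cS xS_inj)

variable {U : Fin 6 → Set ℂ} {T : ℂ → Set (Fin 6)} {z y w : ℂ} {a b c d e f : Fin 6} {u0 : ℝ}

/-- the letter sets of the circle of `z` with `cd`-arcs typed by `y` -/
def FTy (T : ℂ → Set (Fin 6)) (z y : ℂ) (a b c d e f : Fin 6) : Fin 6 → Set ℂ :=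
  ![Lt T z a b c d e f 0, Lt T z a b c d e f 1, Lt T z a b c d e f 2,
    Lt T z a b c d e f 3 ∩ TyE T z y b f, Lt T z a b c d e f 3 ∩ TyE T z y a e, ∅]

theorem fty_closed (h : Irr U T) (l : Fin 6) : IsClosed (FTy T z y a b c d e f l) := by
  have h4 : ∀ m, IsClosed (Lt T z a b c d e f m) := fun m => Lt_closed h m
  fin_cases l
  · exact h4 0
  · exact h4 1
  · exact h4 2
  · exact (h4 3).inter (TyE.closed h)
  · exact (h4 3).inter (TyE.closed h)
  · exact isClosed_empty

/-- the contact `y` -/
theorem endCt_S2 (hz : DPt T z a b c d) (nd : [a, b, c, d, e, f].Nodup) (hyz : dist y z = 1)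
    (hy : DPt T y a e b f) : EndCt T z y a b c d e f where
  hz := hz
  nd := nd
  hyz := hyz
  pal := by
    rw [hy.pal]
    ext i
    simp only [mem_insert_iff, mem_singleton_iff]
    tauto
  typ := Or.inl hy

/-- no ring with letters only -/
theorem yh_none {G : RD} {D : Dat} (h : G.Y = 0) : R2.H492.YH G D := by
  have k : ∀ s, G.R ≤ s → s < G.R + G.Y → False := by
    intro s h1 h2
    rw [h] at h2
    omega
  exact ⟨fun s h1 h2 => (k s h1 h2).elim, fun s h1 h2 => (k s h1 h2).elim,
    fun s h1 h2 => (k s h1 h2).elim, fun s h1 h2 => (k s h1 h2).elim,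
    fun s h1 h2 => (k s h1 h2).elim, fun s h1 h2 => (k s h1 h2).elim⟩

/-! ### the root `rdS2n` -/

/-- the data of `rdS2n` -/
def datS2n (T : ℂ → Set (Fin 6)) (z w y : ℂ) (a b c d e f : Fin 6) (u0 : ℝ) : Dat where
  c := cS z w y
  x := xS a b c d e f
  F r := match r with
    | 0 => FTy T z y a b c d e f
    | 1 => FU T w a c e f b d
    | _ => FU T y a e b f c d
  u0 := u0

theorem s2n_lt : ∀ r < 3, ∀ j < 6, rdS2n.sg r j < 6 := by decide

theorem s2n_inj : ∀ r < 3, ∀ i < 6, ∀ j < 6, rdS2n.sg r i = rdS2n.sg r j → i = j := by decide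

theorem wdS2n (H : WT U T) (hmin : MinF U T) (hz : DPt T z a b c d)
    (nd : [a, b, c, d, e, f].Nodup) (hyz : dist y z = 1) (hy : DPt T y a e b f)
    (hwz : dist w z = 1) (hw : DPt T w a c e f) :
    Wd U T rdS2n (datS2n T z w y a b c d e f u0) where
  wt := H
  mn := hmin
  sgl := s2n_lt
  sgi := s2n_inj
  xi := xS_inj nd
  dpt := by
    intro r hr
    have hr : r < 3 := hr
    interval_cases r
    · exact hz
    · exact hw
    · exact hy
  adj := by
    intro r hr s hs h
    have hr : r < 3 := hr
    have hs : s < 3 := hs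
    interval_cases r <;> interval_cases s
    · exact absurd h (by decide)
    · show dist z w = 1
      rw [dist_comm]; exact hwz
    · show dist z y = 1
      rw [dist_comm]; exact hyz
    all_goals exact absurd h (by decide)
  yhub := fun s h1 h2 => by
    have h1 : 3 ≤ s := h1
    have h2 : s < 3 := h2
    omega
  yadj := fun s h1 h2 => by
    have h1 : 3 ≤ s := h1
    have h2 : s < 3 := h2
    omega
  F0 := by
    intro r hr
    have hr : r < 3 := hr
    interval_cases r <;> rfl
  F1 := by
    intro r hr
    have hr : r < 3 := hr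
    interval_cases r <;> rfl
  F2 := by
    intro r hr
    have hr : r < 3 := hr
    interval_cases r <;> exact union_empty _
  F3 := by
    intro r hr
    have hr : r < 3 := hr
    interval_cases r
    · show Lt T z a b c d e f 3 ∩ TyE T z y b f ∪ Lt T z a b c d e f 3 ∩ TyE T z y a e =
        Lt T z a b c d e f 3
      rw [← inter_union_distrib_left]
      exact inter_eq_left.2 ((endCt_S2 hz nd hyz hy).cover H)
    · exact union_empty _
    · exact union_empty _
  cl := by
    intro r hr l
    have hr : r < 3 := hr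
    interval_cases r
    · exact fty_closed H.irr l
    · exact fu_closed H.irr l
    · exact fu_closed H.irr l

theorem typd_S2n (H : WT U T) (hz : DPt T z a b c d)
    (nd : [a, b, c, d, e, f].Nodup) (hyz : dist y z = 1) (hy : DPt T y a e b f) :
    ∀ r < rdS2n.R, ∀ p < 2, rdS2n.ty r p = true →
      R2.H301.Typd T rdS2n (datS2n T z w y a b c d e f u0) r p := by
  intro r hr p hp h
  have hr : r < 3 := hr
  interval_cases r <;> interval_cases p
  · exact absurd h (by decide)
  · exact R2.H301.Typd.of_typ (P := {c, d}) (SE := TyE T z y b f) (SF := TyE T z y a e)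
      ((endCt_S2 hz nd hyz hy).typE H) (fun q hq => hq) (fun q hq => hq)
  all_goals exact absurd h (by decide)

theorem md_S2n : ∀ r < 3, ∀ a < 4, rdS2n.md r a = 0 ∨ rdS2n.md r a = 4 := by decide

/-- **The hypotheses of the root `rdS2n`.** -/
theorem hpS2n (H : WT U T) (hmin : MinF U T) (hz : DPt T z a b c d)
    (nd : [a, b, c, d, e, f].Nodup) (hyz : dist y z = 1) (hy : DPt T y a e b f)
    (hw : DPt T (pt z u0) a c e f) :
    Hp U T rdS2n (datS2n T z (pt z u0) y a b c d e f u0) where
  toWd := wdS2n H hmin hz nd hyz hy (dist_pt z u0) hw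
  cnt := (R2.H413.WD.of_wd (wdS2n H hmin hz nd hyz hy (dist_pt z u0) hw)).cnt_top md_S2n
  md4 := by
    intro r hr m hm h
    rcases md_S2n r hr m hm with h1 | h1
    · omega
    · exact h1
  nrz := fun r _ h => absurd h (by show ¬ false = true; simp)
  anc := by
    intro r hr s hs h m hm h1
    have hr : r < 3 := hr
    have hs : s < 3 := hs
    interval_cases r <;> interval_cases s
    · exact absurd h (by decide)
    · obtain rfl : m = 0 := by
        have h2 : (1 : ℕ) = m + 1 := h1
        omega
      show pt z (u0 + ((0 : ℕ) : ℝ)) = pt z u0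
      rw [Nat.cast_zero, add_zero]
    · exfalso
      have h2 : (0 : ℕ) = m + 1 := h1
      omega
    all_goals exact absurd h (by decide)
  typ := typd_S2n H hz nd hyz hy
  ap := by
    intro L0 L K _ _ r _ p _ h
    exact absurd h (by show ¬ 0 = p + 1; omega)
  ad := by
    intro r _ m _ h
    exact absurd h (by show ¬ 0 = m + 1; omega)
  ncr := fun r _ p _ h => absurd h (by show ¬ false = true; simp)
  yh := yh_none rfl

/-! ### the root `rdR2` -/

/-- the data of `rdR2` -/
def datR2 (T : ℂ → Set (Fin 6)) (z y : ℂ) (a b c d e f : Fin 6) (u0 : ℝ) : Dat where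
  c r := match r with
    | 0 => z
    | _ => y
  x := xS a b c d e f
  F r := match r with
    | 0 => FTy T z y a b c d e f
    | _ => FU T y a e b f c d
  u0 := u0

theorem r2_lt : ∀ r < 2, ∀ j < 6, rdR2.sg r j < 6 := by decide

theorem r2_inj : ∀ r < 2, ∀ i < 6, ∀ j < 6, rdR2.sg r i = rdR2.sg r j → i = j := by decide

theorem wdR2 (H : WT U T) (hmin : MinF U T) (hz : DPt T z a b c d)
    (nd : [a, b, c, d, e, f].Nodup) (hyz : dist y z = 1) (hy : DPt T y a e b f) :
    Wd U T rdR2 (datR2 T z y a b c d e f u0) where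
  wt := H
  mn := hmin
  sgl := r2_lt
  sgi := r2_inj
  xi := xS_inj nd
  dpt := by
    intro r hr
    have hr : r < 2 := hr
    interval_cases r
    · exact hz
    · exact hy
  adj := by
    intro r hr s hs h
    have hr : r < 2 := hr
    have hs : s < 2 := hs
    interval_cases r <;> interval_cases s
    · exact absurd h (by decide)
    · show dist z y = 1
      rw [dist_comm]; exact hyz
    all_goals exact absurd h (by decide)
  yhub := fun s h1 h2 => by
    have h1 : 2 ≤ s := h1
    have h2 : s < 2 := h2
    omega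
  yadj := fun s h1 h2 => by
    have h1 : 2 ≤ s := h1
    have h2 : s < 2 := h2
    omega
  F0 := by
    intro r hr
    have hr : r < 2 := hr
    interval_cases r <;> rfl
  F1 := by
    intro r hr
    have hr : r < 2 := hr
    interval_cases r <;> rfl
  F2 := by
    intro r hr
    have hr : r < 2 := hr
    interval_cases r <;> exact union_empty _
  F3 := by
    intro r hr
    have hr : r < 2 := hr
    interval_cases r
    · show Lt T z a b c d e f 3 ∩ TyE T z y b f ∪ Lt T z a b c d e f 3 ∩ TyE T z y a e =
        Lt T z a b c d e f 3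
      rw [← inter_union_distrib_left]
      exact inter_eq_left.2 ((endCt_S2 hz nd hyz hy).cover H)
    · exact union_empty _
  cl := by
    intro r hr l
    have hr : r < 2 := hr
    interval_cases r
    · exact fty_closed H.irr l
    · exact fu_closed H.irr l

theorem md_R2 : ∀ r < 2, ∀ a < 4, rdR2.md r a = 0 ∨ rdR2.md r a = 4 := by decide

/-- **The hypotheses of the root `rdR2`.** -/
theorem hpR2 (H : WT U T) (hmin : MinF U T) (hz : DPt T z a b c d)
    (nd : [a, b, c, d, e, f].Nodup) (hyz : dist y z = 1) (hy : DPt T y a e b f)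
    (hw : DPt T (pt z u0) a c e f) :
    Hp U T rdR2 (datR2 T z y a b c d e f u0) where
  toWd := wdR2 H hmin hz nd hyz hy
  cnt := (R2.H413.WD.of_wd (wdR2 H hmin hz nd hyz hy)).cnt_top md_R2
  md4 := by
    intro r hr m hm h
    rcases md_R2 r hr m hm with h1 | h1
    · omega
    · exact h1
  nrz := fun r _ h => absurd h (by show ¬ false = true; simp)
  anc := by
    intro r _ s _ _ m _ h1
    exact absurd h1 (by show ¬ 0 = m + 1; omega)
  typ := by
    intro r hr p hp h
    have hr : r < 2 := hr
    interval_cases r <;> interval_cases p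
    · exact absurd h (by decide)
    · exact R2.H301.Typd.of_typ (P := {c, d}) (SE := TyE T z y b f) (SF := TyE T z y a e)
        ((endCt_S2 hz nd hyz hy).typE H) (fun q hq => hq) (fun q hq => hq)
    all_goals exact absurd h (by decide)
  ap := by
    intro L0 L K _ _ r _ p _ h
    exact absurd h (by show ¬ 0 = p + 1; omega)
  ad := by
    intro r hr m _ h
    have hr : r < 2 := hr
    interval_cases r
    · obtain rfl : m = 4 := by
        have h2 : (5 : ℕ) = m + 1 := h
        omega
      exact hw
    · exfalso
      have h2 : (0 : ℕ) = m + 1 := h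
      omega
  ncr := fun r _ p _ h => absurd h (by show ¬ false = true; simp)
  yh := yh_none rfl

end Vale.Agent.P032.R2.H609
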