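import Vale.Agent.P032.R2.H784.ConvC
import Vale.Agent.P032.R2.H784.Lim
import Vale.Agent.P032.S5.H80.Clean
import Vale.Agent.P032.S5.H843.Core7

/-!
# P032: contact S3, at the point

`z = ab | cd` a two-pair point, `y` on `S(z)` with the palette `{a, b, e, f}`.
-/

open Set Filter Topology Metric

noncomputable section

namespace Vale.Agent.P032.Six

open Vale.Agent.P032.S5.H767 Vale.Agent.P032.Words

section General

variable {k : ℕ} {U : Fin k → Set ℂ} {T : ℂ → Set (Fin k)}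

/-- the branches of the circle about `z` at the point `y` -/
theorem tendsto_br (z y : ℂ) (τ : ℝ) :
    Tendsto (fun t : ℝ => z + (y - z) * cis (τ * t)) (𝓝[>] 0) (𝓝 y) := tendsto_arc z y τ

/-- **one-sided branches**: `z = ab | cd` and `w` on `S(z)`: one branch of `S(w)` at `z` has no `b`,
the other one has no `a` -/
theorem Irr.branches (h : Irr U T) {z w : ℂ} {a b c d : Fin k} (hz : DPt T z a b c d)
    (hw : dist z w = 1) : ∃ τ : ℝ, (τ = 1 ∨ τ = -1) ∧
      (∀ᶠ t : ℝ in 𝓝[>] 0, b ∉ Pal U (w + (z - w) * cis (τ * t))) ∧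
      ∀ᶠ t : ℝ in 𝓝[>] 0, a ∉ Pal U (w + (z - w) * cis (-τ * t)) := by
  have hwz : dist w z = 1 := by rw [dist_comm]; exact hw
  set V : ℂ := 2 * z - w with hVdef
  have hV : dist V z = 1 := by
    rw [dist_eq_norm] at hw ⊢
    rw [← hw]; congr 1; rw [hVdef]; ring
  have e2 : 2 * z - V = w := by rw [hVdef]; ring
  have e3 : V - z = z - w := by rw [hVdef]; ring
  obtain ⟨p, hp⟩ := hz.arc1
  obtain ⟨g, hg, hgV, hgV2⟩ := hp.exists_off_line (y := V)
  have hcr := cr_ne_of hg.1 hV hgV hgV2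
  have hcr' : cr (V - z) (g - z) ≠ 0 := by
    intro h0
    apply hcr
    unfold cr at h0 ⊢
    linarith
  -- the core for a distribution of the two colours
  have key : ∀ a b : Fin k, Sd U g z a b → ∃ τ : ℝ, (τ = 1 ∨ τ = -1) ∧
      (∀ᶠ t : ℝ in 𝓝[>] 0, b ∉ Pal U (w + (z - w) * cis (τ * t))) ∧
      ∀ᶠ t : ℝ in 𝓝[>] 0, a ∉ Pal U (w + (z - w) * cis (-τ * t)) := by
    intro a b hcen
    have hin : ∀ τ : ℝ, 0 < τ * cr (V - z) (g - z) →
        ∀ᶠ t : ℝ in 𝓝[>] 0, b ∉ Pal U (w + (z - w) * cis (τ * t)) := by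
      intro τ hτ
      filter_upwards [branch_in hg.1 hτ, (tendsto_branch z V τ).eventually hcen] with t h1 h2
      rw [e2, e3] at h1 h2
      exact h2.2 h1
    have hout : ∀ τ : ℝ, τ * cr (V - z) (g - z) < 0 →
        ∀ᶠ t : ℝ in 𝓝[>] 0, a ∉ Pal U (w + (z - w) * cis (τ * t)) := by
      intro τ hτ
      filter_upwards [branch_out hg.1 hτ, (tendsto_branch z V τ).eventually hcen] with t h1 h2
      rw [e2, e3] at h1 h2
      exact h2.1 h1
    rcases lt_or_gt_of_ne hcr' with h1 | h1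
    · exact ⟨-1, Or.inr rfl, hin _ (by linarith), hout _ (by linarith)⟩
    · exact ⟨1, Or.inl rfl, hin _ (by linarith), hout _ (by linarith)⟩
  rcases h.sides hz hg.1 with hs | hs
  · exact key a b (h.sd_center hg hs)
  · obtain ⟨τ, hτ, h1, h2⟩ := key b a (h.sd_center (by rwa [pair_comm]) hs)
    refine ⟨-τ, ?_, h2, ?_⟩
    · rcases hτ with rfl | rfl
      · exact Or.inr rfl
      · exact Or.inl (by norm_num)
    · rw [neg_neg]; exact h1

/-- a ray orthogonal to an arc on which `i` is in all palettes avoids `i` -/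
theorem Irr.arc_avoid (h : Irr U T) {z p : ℂ} {P : Set (Fin k)} (hp : Arc T z p P) {i : Fin k}
    (hi : i ∈ P) {σ : ℝ} (hσ : σ = 1 ∨ σ = -1) :
    ∀ᶠ r : ℝ in 𝓝[>] 0, i ∉ Pal U (z + r * (σ * (Complex.I * (p - z)))) := by
  obtain ⟨t0, ht0⟩ := exists_cis (u := p - z) (by rw [← dist_eq_norm]; exact hp.1)
  have hgt : p = z + cis t0 := by rw [← ht0]; ring
  have hp' := hp
  rw [hgt] at hp'
  obtain ⟨η, hη, hJ⟩ := hp'.exists_eta
  have := h.mx.ray_avoid hη (i := i) (fun t ht => h.sub _ (by rw [hJ t ht]; exact hi)) hσ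
  rw [ht0]
  exact this

end General

/-- a property on a branch, in the angle coordinate -/
theorem ev_right {z : ℂ} {u : ℝ} {P : ℂ → Prop}
    (h : ∀ᶠ t : ℝ in 𝓝[>] 0, P (z + (pt z u - z) * cis (1 * t))) : ∀ᶠ v in 𝓝[>] u, P (pt z v) := by
  have hpi := Real.pi_pos
  have h1 : Tendsto (fun v : ℝ => (v - u) * (Real.pi / 3)) (𝓝[>] u) (𝓝[>] 0) := by
    refine tendsto_nhdsWithin_of_tendsto_nhds_of_eventually_within _ ?_ ?_
    · have : Continuous fun v : ℝ => (v - u) * (Real.pi / 3) := by fun_prop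
      have h2 := this.tendsto u
      simp only [sub_self, zero_mul] at h2
      exact h2.mono_left nhdsWithin_le_nhds
    · filter_upwards [self_mem_nhdsWithin] with v hv
      exact mem_Ioi.2 (mul_pos (sub_pos.2 hv) (by positivity))
  filter_upwards [h1.eventually h] with v hv
  have e : z + (pt z u - z) * cis (1 * ((v - u) * (Real.pi / 3))) = pt z v := by
    unfold pt
    rw [add_sub_cancel_left, ← cis_add]
    congr 2; ring
  push_cast at hv e ⊢
  rwa [e] at hv

theorem ev_left {z : ℂ} {u : ℝ} {P : ℂ → Prop}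
    (h : ∀ᶠ t : ℝ in 𝓝[>] 0, P (z + (pt z u - z) * cis (-1 * t))) : ∀ᶠ v in 𝓝[<] u, P (pt z v) := by
  have hpi := Real.pi_pos
  have h1 : Tendsto (fun v : ℝ => (u - v) * (Real.pi / 3)) (𝓝[<] u) (𝓝[>] 0) := by
    refine tendsto_nhdsWithin_of_tendsto_nhds_of_eventually_within _ ?_ ?_
    · have : Continuous fun v : ℝ => (u - v) * (Real.pi / 3) := by fun_prop
      have h2 := this.tendsto u
      simp only [sub_self, zero_mul] at h2
      exact h2.mono_left nhdsWithin_le_nhds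
    · filter_upwards [self_mem_nhdsWithin] with v hv
      exact mem_Ioi.2 (mul_pos (sub_pos.2 hv) (by positivity))
  filter_upwards [h1.eventually h] with v hv
  have e : z + (pt z u - z) * cis (-1 * ((u - v) * (Real.pi / 3))) = pt z v := by
    unfold pt
    rw [add_sub_cancel_left, ← cis_add]
    congr 2; ring
  push_cast at hv e ⊢
  rwa [e] at hv

variable {U : Fin 6 → Set ℂ} {T : ℂ → Set (Fin 6)} {z y : ℂ} {a b c d e f : Fin 6}

/-- contact S3: `z = ab | cd`, `y` on `S(z)` with the palette `{a, b, e, f}` -/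
structure S3at (U : Fin 6 → Set ℂ) (T : ℂ → Set (Fin 6)) (z y : ℂ) (a b c d e f : Fin 6) :
    Prop where
  irr : Irr U T
  dp : DPt T z a b c d
  nd : [a, b, c, d, e, f].Nodup
  dist : dist y z = 1
  pal : T y = {a, b, e, f}

namespace S3at

theorem ne (C : S3at U T z y a b c d e f) : (a ≠ b ∧ a ≠ c ∧ a ≠ d ∧ a ≠ e ∧ a ≠ f) ∧
    (b ≠ c ∧ b ≠ d ∧ b ≠ e ∧ b ≠ f) ∧ (c ≠ d ∧ c ≠ e ∧ c ≠ f) ∧ (d ≠ e ∧ d ≠ f) ∧ e ≠ f := by
  have hn := C.nd
  simp only [List.nodup_cons, List.mem_cons, List.not_mem_nil, or_false, not_or, List.nodup_nil,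
    and_true, not_false_eq_true] at hn
  obtain ⟨⟨ab, ac, ad, ae, af⟩, ⟨bc, bd, be, bf⟩, ⟨cd, ce, cf⟩, ⟨de, df⟩, ef⟩ := hn
  exact ⟨⟨ab, ac, ad, ae, af⟩, ⟨bc, bd, be, bf⟩, ⟨cd, ce, cf⟩, ⟨de, df⟩, ef⟩

theorem ctr (C : S3at U T z y a b c d e f) : Ctr U T z a b c d e f := ctr_of_dpt C.irr C.dp C.nd

theorem dist' (C : S3at U T z y a b c d e f) : Dist.dist z y = 1 := by rw [dist_comm]; exact C.dist

theorem zy (C : S3at U T z y a b c d e f) : z ≠ y := by
  intro h; have := C.dist; rw [h, dist_self] at this; exact zero_ne_one this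

/-- exchange `a, b` -/
theorem swap_ab (C : S3at U T z y a b c d e f) : S3at U T z y b a c d e f where
  irr := C.irr
  dp := C.dp.swap12
  nd := by
    obtain ⟨⟨ab, ac, ad, ae, af⟩, ⟨bc, bd, be, bf⟩, ⟨cd, ce, cf⟩, ⟨de, df⟩, ef⟩ := C.ne
    simp [ab.symm, ac, ad, ae, af, bc, bd, be, bf, cd, ce, cf, de, df, ef]
  dist := C.dist
  pal := by rw [C.pal]; ext i; simp only [mem_insert_iff, mem_singleton_iff]; tauto

/-- exchange `c, d` -/
theorem swap_cd (C : S3at U T z y a b c d e f) : S3at U T z y a b d c e f where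
  irr := C.irr
  dp := C.dp.swap34
  nd := by
    obtain ⟨⟨ab, ac, ad, ae, af⟩, ⟨bc, bd, be, bf⟩, ⟨cd, ce, cf⟩, ⟨de, df⟩, ef⟩ := C.ne
    simp [ab, ac, ad, ae, af, bc, bd, be, bf, cd.symm, ce, cf, de, df, ef]
  dist := C.dist
  pal := C.pal

/-- exchange `e, f` -/
theorem swap_ef (C : S3at U T z y a b c d e f) : S3at U T z y a b c d f e where
  irr := C.irr
  dp := C.dp
  nd := by
    obtain ⟨⟨ab, ac, ad, ae, af⟩, ⟨bc, bd, be, bf⟩, ⟨cd, ce, cf⟩, ⟨de, df⟩, ef⟩ := C.ne
    simp [ab, ac, ad, ae, af, bc, bd, be, bf, cd, ce, cf, de, df, ef.symm]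
  dist := C.dist
  pal := by rw [C.pal]; ext i; simp only [mem_insert_iff, mem_singleton_iff]; tauto

/-- `y` two-pair with the same pair: the contact seen from `y` -/
theorem dual (C : S3at U T z y a b c d e f) (hy : DPt T y a b e f) : S3at U T y z a b e f c d where
  irr := C.irr
  dp := hy
  nd := by
    obtain ⟨⟨ab, ac, ad, ae, af⟩, ⟨bc, bd, be, bf⟩, ⟨cd, ce, cf⟩, ⟨de, df⟩, ef⟩ := C.ne
    simp [ab, ac, ad, ae, af, bc, bd, be, bf, cd, ce.symm, cf.symm, de.symm, df.symm, ef]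
  dist := C.dist'
  pal := C.dp.pal

theorem card (C : S3at U T z y a b c d e f) : (T y).ncard = 4 := by
  obtain ⟨⟨ab, ac, ad, ae, af⟩, ⟨bc, bd, be, bf⟩, ⟨cd, ce, cf⟩, ⟨de, df⟩, ef⟩ := C.ne
  rw [C.pal, Set.ncard_insert_of_notMem (by simp [ab, ae, af]),
    Set.ncard_insert_of_notMem (by simp [be, bf]), Set.ncard_pair ef]

theorem c_not (C : S3at U T z y a b c d e f) : c ∉ T y := by
  obtain ⟨⟨ab, ac, ad, ae, af⟩, ⟨bc, bd, be, bf⟩, ⟨cd, ce, cf⟩, ⟨de, df⟩, ef⟩ := C.ne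
  rw [C.pal]; simp [ac.symm, bc.symm, ce, cf]

theorem d_not (C : S3at U T z y a b c d e f) : d ∉ T y := by
  obtain ⟨⟨ab, ac, ad, ae, af⟩, ⟨bc, bd, be, bf⟩, ⟨cd, ce, cf⟩, ⟨de, df⟩, ef⟩ := C.ne
  rw [C.pal]; simp [ad.symm, bd.symm, de, df]

/-- palettes without `c, d` are below the palette of `y` -/
theorem sub_of (C : S3at U T z y a b c d e f) {x : ℂ} (h1 : c ∉ T x) (h2 : d ∉ T x) : T x ⊆ T y := by
  intro i hi
  rw [C.pal]
  rcases C.ctr.all i with rfl | rfl | rfl | rfl | rfl | rfl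
  · simp
  · simp
  · exact absurd hi h1
  · exact absurd hi h2
  · simp
  · simp

/-! ### exact arcs of `y` -/

/-- **shift**: `c, d` are absent at `y + θ` if `z + θ` is on an exact `cd`-arc -/
theorem shift (C : S3at U T z y a b c d e f) {g : ℂ} (hg : Arc T z g {c, d}) (h1 : g ≠ y)
    (h2 : g + y ≠ 2 * z) : c ∉ Pal U (y + g - z) ∧ d ∉ Pal U (y + g - z) := by
  have hd : Dist.dist g (y + g - z) = 1 := by
    have := C.dist
    rw [dist_eq_norm] at this ⊢
    rw [← this, ← norm_neg]; congr 1; ring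
  have hne : y + g - z ≠ z := fun h => h2 (by linear_combination h)
  have hne2 : y + g - z + z ≠ 2 * g := fun h => h1 (by linear_combination -h)
  constructor
  · refine line_free C.irr hg.1 ?_ hd hne hne2
    filter_upwards [hg.2] with q hq
    rw [hq]; simp
  · refine line_free C.irr hg.1 ?_ hd hne hne2
    filter_upwards [hg.2] with q hq
    rw [hq]; simp

theorem shift_sub (C : S3at U T z y a b c d e f) {g : ℂ} (hg : Arc T z g {c, d}) (h1 : g ≠ y)
    (h2 : g + y ≠ 2 * z) : T (y + g - z) ⊆ T y := by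
  obtain ⟨k1, k2⟩ := C.shift hg h1 h2
  exact C.sub_of (fun h => k1 (C.irr.sub _ h)) fun h => k2 (C.irr.sub _ h)

/-- exact arcs of `y` at `y + θ` -/
theorem shift_arc (C : S3at U T z y a b c d e f) {g : ℂ} (hg : Arc T z g {c, d}) (h1 : g ≠ y)
    (h2 : g + y ≠ 2 * z) {V : Set ℂ} (hV : V ∈ 𝓝 (y + g - z)) :
    ∃ q ∈ V, Arc T y q (T q) ∧ T q ⊆ T y ∧ (T q).ncard = 2 := by
  have hd : Dist.dist (y + g - z) y = 1 := by
    have := hg.1
    rw [dist_eq_norm] at this ⊢
    rw [← this]; congr 1; ring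
  obtain ⟨q, hq, hq1, hq2, hq3, hq4, hq5⟩ := C.irr.arc_of_sub hd (C.shift_sub hg h1 h2) hV
  refine ⟨q, hq, ⟨hq1, hq2⟩, hq3.trans (C.shift_sub hg h1 h2), ?_⟩
  have h6 := Set.ncard_sdiff (hq3.trans (C.shift_sub hg h1 h2)) (Set.toFinite _)
  rw [C.card] at h6
  omega

/-- some exact arc of `y` inside its palette -/
theorem exists_arc (C : S3at U T z y a b c d e f) :
    ∃ q, Arc T y q (T q) ∧ T q ⊆ T y ∧ (T q).ncard = 2 := by
  obtain ⟨p, hp⟩ := C.dp.arc2
  obtain ⟨g, hg, h1, h2⟩ := hp.exists_off_line (y := y)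
  obtain ⟨q, -, hq⟩ := C.shift_arc hg h1 h2 univ_mem
  exact ⟨q, hq⟩

/-- **the kinds of `y`** -/
theorem kinds (C : S3at U T z y a b c d e f) (hmin : Mn U T) :
    (∃ A, Harm T y A) ∨ DPt T y a b e f ∨ DPt T y a e b f ∨ DPt T y a f b e := by
  by_cases hD : ∃ a' b' c' d', DPt T y a' b' c' d'
  · right
    obtain ⟨a', b', c', d', hD⟩ := hD
    -- `a` first
    obtain ⟨⟨ab, ac, ad, ae, af⟩, ⟨bc, bd, be, bf⟩, ⟨cd, ce, cf⟩, ⟨de, df⟩, ef⟩ := C.ne
    have ha : a ∈ ({a', b', c', d'} : Set (Fin 6)) := by rw [← hD.pal, C.pal]; simp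
    have hfirst : ∃ b' c' d', DPt T y a b' c' d' := by
      rcases ha with rfl | rfl | rfl | ha
      · exact ⟨_, _, _, hD⟩
      · exact ⟨_, _, _, hD.swap12⟩
      · exact ⟨_, _, _, hD.swap⟩
      · rw [mem_singleton_iff] at ha
        subst ha
        exact ⟨_, _, _, hD.swap.swap12⟩
    obtain ⟨b', c', d', hD⟩ := hfirst
    have hb' : b' ∈ ({a, b, e, f} : Set (Fin 6)) := by rw [← C.pal, hD.pal]; simp
    have hc' : c' ∈ ({a, b, e, f} : Set (Fin 6)) := by rw [← C.pal, hD.pal]; simp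
    have hd' : d' ∈ ({a, b, e, f} : Set (Fin 6)) := by rw [← C.pal, hD.pal]; simp
    simp only [mem_insert_iff, mem_singleton_iff] at hb' hc' hd'
    have k1 := hD.ab
    have k2 := hD.ac
    have k3 := hD.ad
    have k4 := hD.bc
    have k5 := hD.bd
    have k6 := hD.cd
    rcases hb' with rfl | rfl | rfl | rfl
    · exact absurd rfl k1
    · left
      rcases hc' with rfl | rfl | rfl | rfl
      · exact absurd rfl k2
      · exact absurd rfl k4
      · rcases hd' with rfl | rfl | rfl | rfl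
        · exact absurd rfl k3
        · exact absurd rfl k5
        · exact absurd rfl k6
        · exact hD
      · rcases hd' with rfl | rfl | rfl | rfl
        · exact absurd rfl k3
        · exact absurd rfl k5
        · exact hD.swap34
        · exact absurd rfl k6
    · right; left
      rcases hc' with rfl | rfl | rfl | rfl
      · exact absurd rfl k2
      · rcases hd' with rfl | rfl | rfl | rfl
        · exact absurd rfl k3
        · exact absurd rfl k6
        · exact absurd rfl k5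
        · exact hD
      · exact absurd rfl k4
      · rcases hd' with rfl | rfl | rfl | rfl
        · exact absurd rfl k3
        · exact hD.swap34
        · exact absurd rfl k5
        · exact absurd rfl k6
    · right; right
      rcases hc' with rfl | rfl | rfl | rfl
      · exact absurd rfl k2
      · rcases hd' with rfl | rfl | rfl | rfl
        · exact absurd rfl k3
        · exact absurd rfl k6
        · exact hD
        · exact absurd rfl k5
      · rcases hd' with rfl | rfl | rfl | rfl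
        · exact absurd rfl k3
        · exact hD.swap34
        · exact absurd rfl k6
        · exact absurd rfl k5
      · exact absurd rfl k4
  · left
    obtain ⟨q, hq, hqs, -⟩ := C.exists_arc
    exact C.irr.harm_of_noD hmin C.card ⟨q, hq.1, hqs⟩ fun a' b' c' d' h => hD ⟨a', b', c', d', h⟩

/-! ### letters at `y` -/

/-- `C` is not a letter at `y` -/
theorem not_C (C : S3at U T z y a b c d e f) : y ∉ Lt T z a b c d e f 3 := fun h =>
  C.c_not (Lt_col C.irr h (Or.inl rfl))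

/-- an exact `ab`-arc of `S(y)`: `A` is not a letter at `y` -/
theorem not_A (C : S3at U T z y a b c d e f) {p : ℂ} (hp : Arc T y p {a, b}) :
    y ∉ Lt T z a b c d e f 2 := by
  intro hA
  have hA : y ∈ closure (Ex T z {a, b}) := hA
  have hnl := C.irr.no_layer (z := y) (q := p) hp.1
  obtain ⟨q, hq, hqE⟩ := mem_closure_iff_nhds.1 hA _ hnl
  have hqT := ex_self hqE
  have h1 := hq (by rw [hp.mem, hqT])
  rw [hqT, Set.ncard_pair C.ne.1.1] at h1
  omega

/-- `y` is isolated from the points with `a, b` if it is a two-pair point -/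
theorem not_A' (C : S3at U T z y a b c d e f) (hy : DPt T y a b e f) :
    y ∉ Lt T z a b c d e f 2 := by
  obtain ⟨p, hp⟩ := hy.arc1
  exact C.not_A hp

/-! ### sides -/

theorem sides (C : S3at U T z y a b c d e f) : Sd U z y a b ∨ Sd U z y b a := C.irr.sides C.dp C.dist

/-- the rays at `y` orthogonal to an exact `ef`-arc of `S(y)` -/
theorem rays (C : S3at U T z y a b c d e f) (hs : Sd U z y a b) {p : ℂ} (hp : Arc T y p {e, f})
    (h2 : p + z ≠ 2 * y) : ∃ s : ℝ, (s = 1 ∨ s = -1) ∧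
      Ray (U a) y (s * (Complex.I * (p - y))) ∧ Ray (U b) y (-(s * (Complex.I * (p - y)))) ∧
      0 < ip (s * (Complex.I * (p - y))) (z - y) := by
  obtain ⟨⟨ab, ac, ad, ae, af⟩, ⟨bc, bd, be, bf⟩, ⟨cd, ce, cf⟩, ⟨de, df⟩, ef⟩ := C.ne
  have hpz : p ≠ z := by
    rintro rfl
    have h1 := hp.mem
    rw [C.dp.pal] at h1
    have : a ∈ ({e, f} : Set (Fin 6)) := by rw [← h1]; simp
    rcases this with h | h
    · exact ae h
    · exact af h
  have hcr := cr_ne_of hp.1 C.dist' hpz h2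
  rw [← ip_I] at hcr
  have key : ∀ s : ℝ, (s = 1 ∨ s = -1) → 0 < s * ip (Complex.I * (p - y)) (z - y) →
      Ray (U a) y (s * (Complex.I * (p - y))) ∧
        Ray (U b) y (-(s * (Complex.I * (p - y)))) ∧
        0 < ip (s * (Complex.I * (p - y))) (z - y) := by
    intro s hs1 hpos
    have hip : ip (s * (Complex.I * (p - y))) (z - y) = s * ip (Complex.I * (p - y)) (z - y) :=
      ip_smul s _ _
    have hsub : ∀ x : ℂ, T x ⊆ T y → e ∉ Pal U x → f ∉ Pal U x → T x ⊆ {a, b} := by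
      intro x hx he hf i hi
      have h3 := hx hi
      rw [C.pal] at h3
      rcases h3 with rfl | rfl | rfl | h3
      · exact Or.inl rfl
      · exact Or.inr rfl
      · exact absurd (C.irr.sub _ hi) he
      · rw [mem_singleton_iff] at h3
        subst h3
        exact absurd (C.irr.sub _ hi) hf
    have hs1' : -s = 1 ∨ -s = -1 := by
      rcases hs1 with rfl | rfl
      · exact Or.inr rfl
      · exact Or.inl (by norm_num)
    have eneg : -((s : ℂ) * (Complex.I * (p - y))) = ((-s : ℝ) : ℂ) * (Complex.I * (p - y)) := by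
      push_cast; ring
    refine ⟨?_, ?_, by rw [hip]; exact hpos⟩
    · filter_upwards [C.irr.arc_avoid hp (i := e) (by simp) hs1,
        C.irr.arc_avoid hp (i := f) (by simp) hs1,
        (tendsto_ray y (s * (Complex.I * (p - y)))).eventually (C.irr.nhd y),
        (tendsto_ray y (s * (Complex.I * (p - y)))).eventually hs,
        ray_in (u := s * (Complex.I * (p - y))) C.dist (by rw [hip]; exact hpos)]
        with r h3 h4 h5 h6 h7
      refine C.irr.mem_of_single fun i hi => ?_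
      rcases hsub _ h5 h3 h4 hi with rfl | h8
      · rfl
      · rw [mem_singleton_iff] at h8
        subst h8
        exact absurd (C.irr.sub _ hi) (h6.2 h7)
    · rw [eneg]
      filter_upwards [C.irr.arc_avoid hp (i := e) (by simp) hs1',
        C.irr.arc_avoid hp (i := f) (by simp) hs1',
        (tendsto_ray y ((-s : ℝ) * (Complex.I * (p - y)))).eventually (C.irr.nhd y),
        (tendsto_ray y ((-s : ℝ) * (Complex.I * (p - y)))).eventually hs,
        ray_out (u := (-s : ℝ) * (Complex.I * (p - y))) C.dist (by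
          rw [ip_smul]; linarith)]
        with r h3 h4 h5 h6 h7
      refine C.irr.mem_of_single fun i hi => ?_
      rcases hsub _ h5 h3 h4 hi with rfl | h8
      · exact absurd (C.irr.sub _ hi) (h6.1 h7)
      · exact h8
  rcases lt_or_gt_of_ne hcr with h3 | h3
  · exact ⟨-1, Or.inr rfl, key (-1) (Or.inr rfl) (by linarith)⟩
  · exact ⟨1, Or.inl rfl, key 1 (Or.inl rfl) (by linarith)⟩

/-- **sides of `S(y)` at `z`**: the same distribution as on `S(z)` at `y` -/
theorem side_z (C : S3at U T z y a b c d e f) (hs : Sd U z y a b) {p : ℂ}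
    (hp : Arc T y p {e, f}) : Sd U y z a b := by
  obtain ⟨q, hq, -, hq2⟩ := hp.exists_off_line (y := z)
  obtain ⟨s, -, h1, h2, h3⟩ := C.rays hs hq hq2
  exact C.irr.mx.sd_of_rays h1 h2 C.dist' h3

/-- **sides of `S(y)`** if `S(y)` has an exact `ef`-arc -/
theorem sides_y (C : S3at U T z y a b c d e f) {p : ℂ} (hp : Arc T y p {e, f}) {V : ℂ}
    (hV : Dist.dist V y = 1) : Sd U y V a b ∨ Sd U y V b a := by
  obtain ⟨q, hq, hqV, hqV2, -, hq2⟩ := hp.exists_off_two (y := V) (y' := z)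
  have hcr := cr_ne_of hq.1 hV hqV hqV2
  rw [← ip_I] at hcr
  have key : ∀ a b : Fin 6, ∀ C : S3at U T z y a b c d e f, Sd U z y a b →
      Sd U y V a b ∨ Sd U y V b a := by
    intro a b C hs
    obtain ⟨s, hs1, h1, h2, -⟩ := C.rays hs hq hq2
    have hne : ip (s * (Complex.I * (q - y))) (V - y) ≠ 0 := by
      rw [ip_smul]
      rcases hs1 with rfl | rfl
      · simpa using hcr
      · simpa using hcr
    rcases lt_or_gt_of_ne hne with h3 | h3
    · exact Or.inr (C.irr.mx.sd_of_rays' h1 h2 hV h3)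
    · exact Or.inl (C.irr.mx.sd_of_rays h1 h2 hV h3)
  rcases C.sides with h1 | h1
  · exact key a b C h1
  · exact (key b a C.swap_ab h1).symm

/-! ### the words -/

/-- a colour of `z` is not the only colour of a point of `S(z)` -/
theorem not_single (C : S3at U T z y a b c d e f) {q : ℂ} (hq : Dist.dist q z = 1) {i : Fin 6}
    (hi : i ∈ T z) : ¬ T q ⊆ {i} := fun h =>
  C.irr.mx.notMem' (C.irr.mem_of_single h) hq (C.irr.sub _ hi)

theorem dist_br (C : S3at U T z y a b c d e f) (s : ℝ) :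
    Dist.dist (z + (y - z) * cis s) z = 1 := dist_arc C.dist s

/-- **the word of `z` at `y`**: `e` on one branch of `S(z)`, `f` on the other one, exactly -/
theorem word (C : S3at U T z y a b c d e f) (hy : DPt T y a b e f) : ∃ τ : ℝ, (τ = 1 ∨ τ = -1) ∧
    (∀ᶠ t : ℝ in 𝓝[>] 0, e ∈ T (z + (y - z) * cis (τ * t)) ∧
      f ∉ Pal U (z + (y - z) * cis (τ * t)) ∧
      (T (z + (y - z) * cis (τ * t)) ⊆ {a, e} ∨ T (z + (y - z) * cis (τ * t)) ⊆ {b, e})) ∧
    ∀ᶠ t : ℝ in 𝓝[>] 0, f ∈ T (z + (y - z) * cis (-τ * t)) ∧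
      e ∉ Pal U (z + (y - z) * cis (-τ * t)) ∧
      (T (z + (y - z) * cis (-τ * t)) ⊆ {a, f} ∨ T (z + (y - z) * cis (-τ * t)) ⊆ {b, f}) := by
  obtain ⟨τ, hτ, h1, h2⟩ := C.irr.branches hy.swap C.dist
  obtain ⟨τ', hτ', h3, h4⟩ := C.irr.branches hy C.dist
  have key : ∀ (e f : Fin 6) (C : S3at U T z y a b c d e f) (σ : ℝ), (σ = 1 ∨ σ = -1) →
      (∀ᶠ t : ℝ in 𝓝[>] 0, f ∉ Pal U (z + (y - z) * cis (σ * t))) →
      ∀ᶠ t : ℝ in 𝓝[>] 0, e ∈ T (z + (y - z) * cis (σ * t)) ∧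
      f ∉ Pal U (z + (y - z) * cis (σ * t)) ∧
      (T (z + (y - z) * cis (σ * t)) ⊆ {a, e} ∨ T (z + (y - z) * cis (σ * t)) ⊆ {b, e}) := by
    intro e f C σ hσ hf
    have hab : (∀ᶠ t : ℝ in 𝓝[>] 0, b ∉ Pal U (z + (y - z) * cis (σ * t))) ∨
        ∀ᶠ t : ℝ in 𝓝[>] 0, a ∉ Pal U (z + (y - z) * cis (σ * t)) := by
      by_cases hc : σ = τ'
      · left; rw [hc]; exact h3
      · right
        have : σ = -τ' := by
          rcases hσ with rfl | rfl <;> rcases hτ' with rfl | rfl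
          · exact absurd rfl hc
          · norm_num
          · rfl
          · exact absurd rfl hc
        rw [this]; exact h4
    have hcont := tendsto_br z y σ
    have main : ∀ a b : Fin 6, S3at U T z y a b c d e f →
        (∀ᶠ t : ℝ in 𝓝[>] 0, b ∉ Pal U (z + (y - z) * cis (σ * t))) →
        ∀ᶠ t : ℝ in 𝓝[>] 0, e ∈ T (z + (y - z) * cis (σ * t)) ∧
          f ∉ Pal U (z + (y - z) * cis (σ * t)) ∧ T (z + (y - z) * cis (σ * t)) ⊆ {a, e} := by
      intro a b C hb
      filter_upwards [hf, hb, hcont.eventually (C.irr.nhd y)] with t k1 k2 k3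
      have hsub : T (z + (y - z) * cis (σ * t)) ⊆ {a, e} := by
        intro i hi
        have k4 := k3 hi
        rw [C.pal] at k4
        rcases k4 with rfl | rfl | rfl | k4
        · exact Or.inl rfl
        · exact absurd (C.irr.sub _ hi) k2
        · exact Or.inr rfl
        · rw [mem_singleton_iff] at k4
          subst k4
          exact absurd (C.irr.sub _ hi) k1
      refine ⟨?_, k1, hsub⟩
      by_contra hcon
      refine C.not_single (C.dist_br (σ * t)) (i := a) (by rw [C.dp.pal]; simp) fun i hi => ?_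
      rcases hsub hi with rfl | h5
      · rfl
      · rw [mem_singleton_iff] at h5
        subst h5
        exact absurd hi hcon
    rcases hab with hb | ha
    · exact (main a b C hb).mono fun t ht => ⟨ht.1, ht.2.1, Or.inl ht.2.2⟩
    · exact (main b a C.swap_ab ha).mono fun t ht => ⟨ht.1, ht.2.1, Or.inr ht.2.2⟩
  refine ⟨τ, hτ, key e f C τ hτ h1, key f e C.swap_ef (-τ) ?_ h2⟩
  rcases hτ with rfl | rfl
  · exact Or.inr rfl
  · exact Or.inl (by norm_num)

/-- the side words at a time, exactly: one side only `e`, the other side only `f` -/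
theorem word_pt {u : ℝ} (C : S3at U T z (pt z u) a b c d e f) (hy : DPt T (pt z u) a b e f) :
    ((∀ᶠ v in 𝓝[>] u, e ∈ T (pt z v) ∧ f ∉ Pal U (pt z v)) ∧
      ∀ᶠ v in 𝓝[<] u, f ∈ T (pt z v) ∧ e ∉ Pal U (pt z v)) ∨
    ((∀ᶠ v in 𝓝[>] u, f ∈ T (pt z v) ∧ e ∉ Pal U (pt z v)) ∧
      ∀ᶠ v in 𝓝[<] u, e ∈ T (pt z v) ∧ f ∉ Pal U (pt z v)) := by
  obtain ⟨τ, hτ, h1, h2⟩ := C.word hy
  rcases hτ with rfl | rfl
  · left
    exact ⟨ev_right (P := fun q => e ∈ T q ∧ f ∉ Pal U q) (h1.mono fun t ht => ⟨ht.1, ht.2.1⟩),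
      ev_left (P := fun q => f ∈ T q ∧ e ∉ Pal U q) (h2.mono fun t ht => ⟨ht.1, ht.2.1⟩)⟩
  · right
    rw [neg_neg] at h2
    exact ⟨ev_right (P := fun q => f ∈ T q ∧ e ∉ Pal U q) (h2.mono fun t ht => ⟨ht.1, ht.2.1⟩),
      ev_left (P := fun q => e ∈ T q ∧ f ∉ Pal U q) (h1.mono fun t ht => ⟨ht.1, ht.2.1⟩)⟩

/-- the letters on the two sides of a contact S3, `y` two-pair -/
theorem letters_pt {u : ℝ} (C : S3at U T z (pt z u) a b c d e f) (hy : DPt T (pt z u) a b e f) :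
    (∀ l, u ∈ Xs T z a b c d e f l ↔ l = 0 ∨ l = 1) ∧
    (((∀ᶠ v in 𝓝[>] u, ∀ l, v ∈ Xs T z a b c d e f l ↔ l = 0) ∧
      ∀ᶠ v in 𝓝[<] u, ∀ l, v ∈ Xs T z a b c d e f l ↔ l = 1) ∨
    ((∀ᶠ v in 𝓝[>] u, ∀ l, v ∈ Xs T z a b c d e f l ↔ l = 1) ∧
      ∀ᶠ v in 𝓝[<] u, ∀ l, v ∈ Xs T z a b c d e f l ↔ l = 0)) := by
  have hA : u ∉ Xs T z a b c d e f 2 := C.not_A' hy
  have hC : u ∉ Xs T z a b c d e f 3 := C.not_C
  have eA : ∀ᶠ v in 𝓝 u, v ∉ Xs T z a b c d e f 2 :=
    (C.ctr.x_closed 2).isOpen_compl.mem_nhds hA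
  have eC : ∀ᶠ v in 𝓝 u, v ∉ Xs T z a b c d e f 3 :=
    (C.ctr.x_closed 3).isOpen_compl.mem_nhds hC
  have key0 : ∀ {F : Filter ℝ}, F ≤ 𝓝 u → (∀ᶠ v in F, e ∈ T (pt z v) ∧ f ∉ Pal U (pt z v)) →
      ∀ᶠ v in F, ∀ l, v ∈ Xs T z a b c d e f l ↔ l = 0 := by
    intro F hF h1
    filter_upwards [h1, hF eA, hF eC] with v h2 h3 h4 l
    fin_cases l
    · exact ⟨fun _ => rfl, fun _ => ⟨dist_pt z v, h2.1⟩⟩
    · exact ⟨fun h => absurd (C.irr.sub _ h.2) h2.2, fun h => absurd h (by decide)⟩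
    · exact ⟨fun h => absurd h h3, fun h => absurd h (by decide)⟩
    · exact ⟨fun h => absurd h h4, fun h => absurd h (by decide)⟩
  have key1 : ∀ {F : Filter ℝ}, F ≤ 𝓝 u → (∀ᶠ v in F, f ∈ T (pt z v) ∧ e ∉ Pal U (pt z v)) →
      ∀ᶠ v in F, ∀ l, v ∈ Xs T z a b c d e f l ↔ l = 1 := by
    intro F hF h1
    filter_upwards [h1, hF eA, hF eC] with v h2 h3 h4 l
    fin_cases l
    · exact ⟨fun h => absurd (C.irr.sub _ h.2) h2.2, fun h => absurd h (by decide)⟩
    · exact ⟨fun _ => rfl, fun _ => ⟨dist_pt z v, h2.1⟩⟩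
    · exact ⟨fun h => absurd h h3, fun h => absurd h (by decide)⟩
    · exact ⟨fun h => absurd h h4, fun h => absurd h (by decide)⟩
  refine ⟨fun l => ?_, ?_⟩
  · fin_cases l
    · exact ⟨fun _ => Or.inl rfl, fun _ => ⟨dist_pt z u, by rw [C.pal]; simp⟩⟩
    · exact ⟨fun _ => Or.inr rfl, fun _ => ⟨dist_pt z u, by rw [C.pal]; simp⟩⟩
    · exact ⟨fun h => absurd h hA, fun h => absurd h (by decide)⟩
    · exact ⟨fun h => absurd h hC, fun h => absurd h (by decide)⟩
  · rcases C.word_pt hy with ⟨h1, h2⟩ | ⟨h1, h2⟩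
    · exact Or.inl ⟨key0 nhdsWithin_le_nhds h1, key1 nhdsWithin_le_nhds h2⟩
    · exact Or.inr ⟨key1 nhdsWithin_le_nhds h1, key0 nhdsWithin_le_nhds h2⟩

end S3at

end Vale.Agent.P032.Six
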