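import Vale.Agent.P032.R2.H833.S3D
import Vale.Agent.P032.R2.H137.TableF

/-!
# P032: the windows of one ring in the world with contacts of type S3 only

`RingS X`: the ring axioms with the swap rule (a common pair of letters of two neighbours is `e, f`; one
of the two is a centre: no `A`, `C` at the neighbours of the centre, and `A` or `C` at both points at
distance two).  `kill w`: the list of atoms `w` contradicts `RingS`.  `S3W.ringS`: the word of a two-pair
point satisfies `RingS`.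
-/

set_option autoImplicit false

open Set Filter Topology Metric

noncomputable section

namespace Vale.Agent.P032.Words

open Vale.Agent.P032.R2.H741

/-- the centre of a swap -/
def Cen (X : Fin 4 → Set ℝ) (u : ℝ) : Prop :=
  (u + 1 ∉ X 2 ∧ u + 1 ∉ X 3 ∧ u - 1 ∉ X 2 ∧ u - 1 ∉ X 3) ∧
    ((u + 2 ∈ X 2 ∧ u - 2 ∈ X 2) ∨ (u + 2 ∈ X 3 ∧ u - 2 ∈ X 3))

/-- the ring axioms with the swap rule -/
structure RingS (X : Fin 4 → Set ℝ) : Prop where
  per : ∀ l u, u + 6 ∈ X l ↔ u ∈ X l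
  anti : ∀ u, u ∈ X 2 → u + 3 ∉ X 3
  ac : ∀ u, u ∈ X 2 → u ∉ X 3
  two : ∀ u l m n, u ∈ X l → u ∈ X m → u ∈ X n → l = m ∨ m = n ∨ n = l
  pair : ∀ u l m, l ≠ m → u ∈ X l → u ∈ X m → u + 1 ∈ X l → u + 1 ∈ X m → l.val < 2 ∧ m.val < 2
  cen : ∀ u, u ∈ X 0 → u ∈ X 1 → u + 1 ∈ X 0 → u + 1 ∈ X 1 → Cen X u ∨ Cen X (u + 1)

/-- presence of an atom at the time `t` -/
def Pres (X : Fin 4 → Set ℝ) (t : ℝ) (x : Atom) : Prop :=
  t + ((x.1 % 6 : ℕ) : ℝ) ∈ X ⟨x.2 % 4, Nat.mod_lt _ (by norm_num)⟩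

/-- the atom `(k mod 6, l)` is in the list -/
def hasA (w : List Atom) (k l : ℕ) : Bool := w.any fun x => Nat.beq x.1 (k % 6) && Nat.beq x.2 l

/-- a violation of the centre `k` -/
def viol (w : List Atom) (k : ℕ) : Bool :=
  hasA w (k + 1) 2 || hasA w (k + 1) 3 || hasA w (k + 5) 2 || hasA w (k + 5) 3 ||
    (hasA w (k + 2) 0 && hasA w (k + 2) 1) || (hasA w (k + 4) 0 && hasA w (k + 4) 1) ||
    (hasA w (k + 2) 2 && hasA w (k + 4) 3) || (hasA w (k + 2) 3 && hasA w (k + 4) 2)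

/-- two letters at `k` and at `k + 1` -/
def hasP (w : List Atom) (k l m : ℕ) : Bool :=
  hasA w k l && hasA w k m && hasA w (k + 1) l && hasA w (k + 1) m

/-- the list contradicts `RingS` at the position `k` -/
def killAt (w : List Atom) (k : ℕ) : Bool :=
  (hasA w k 0 && hasA w k 1 && hasA w k 2) || (hasA w k 0 && hasA w k 1 && hasA w k 3) ||
    (hasA w k 2 && hasA w k 3) || (hasA w k 2 && hasA w (k + 3) 3) ||
    hasP w k 0 2 || hasP w k 0 3 || hasP w k 1 2 || hasP w k 1 3 || hasP w k 2 3 ||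
    (hasP w k 0 1 && viol w k && viol w (k + 1))

/-- the list contradicts `RingS` -/
def kill (w : List Atom) : Bool := (List.range 6).any (killAt w)

/-- the letters `l`, `m` at one position -/
def hasE (w : List Atom) (l m : ℕ) : Bool := (List.range 6).any fun k => hasA w k l && hasA w k m

variable {X : Fin 4 → Set ℝ}

theorem RingS.per_nat (R : RingS X) (l : Fin 4) (u : ℝ) : ∀ n : ℕ, u + 6 * n ∈ X l ↔ u ∈ X l
  | 0 => by simp
  | n + 1 => by
    have e : u + 6 * ((n + 1 : ℕ) : ℝ) = u + 6 * n + 6 := by push_cast; ring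
    rw [e, R.per, R.per_nat l u n]

theorem RingS.pres (R : RingS X) {t : ℝ} {w : List Atom} (hw : ∀ x ∈ w, Pres X t x) {k l : ℕ}
    (hl : l < 4) (h : hasA w k l = true) : t + k ∈ X ⟨l, hl⟩ := by
  rw [hasA, List.any_eq_true] at h
  obtain ⟨x, hx, hx2⟩ := h
  rw [Bool.and_eq_true] at hx2
  have e1 := Nat.eq_of_beq_eq_true hx2.1
  have e2 := Nat.eq_of_beq_eq_true hx2.2
  have h1 := hw x hx
  unfold Pres at h1
  have e3 : (⟨x.2 % 4, Nat.mod_lt _ (by norm_num)⟩ : Fin 4) = ⟨l, hl⟩ := by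
    apply Fin.ext
    show x.2 % 4 = l
    rw [e2, Nat.mod_eq_of_lt hl]
  rw [e3, e1, Nat.mod_mod] at h1
  have e4 : t + (k : ℝ) = t + ((k % 6 : ℕ) : ℝ) + 6 * ((k / 6 : ℕ) : ℝ) := by
    have h2 : k = k % 6 + 6 * (k / 6) := (Nat.mod_add_div k 6).symm
    have h3 : (k : ℝ) = ((k % 6 + 6 * (k / 6) : ℕ) : ℝ) := by rw [← h2]
    rw [h3]
    push_cast
    ring
  rw [e4, R.per_nat]
  exact h1

theorem RingS.back (R : RingS X) {u : ℝ} {l : Fin 4} {n : ℝ} (h : u + (6 - n) ∈ X l) :
    u - n ∈ X l := by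
  rw [← R.per]
  rwa [show u - n + 6 = u + (6 - n) by ring]

theorem RingS.viol (R : RingS X) {t : ℝ} {w : List Atom} (hw : ∀ x ∈ w, Pres X t x) {k : ℕ}
    (h : viol w k = true) : ¬ Cen X (t + k) := by
  rintro ⟨⟨h1, h2, h3, h4⟩, h5⟩
  have q1 : t + ((k + 1 : ℕ) : ℝ) = t + k + 1 := by push_cast; ring
  have q2 : t + ((k + 2 : ℕ) : ℝ) = t + k + 2 := by push_cast; ring
  have q5 : t + ((k + 5 : ℕ) : ℝ) = t + k + (6 - 1) := by push_cast; ring
  have q4 : t + ((k + 4 : ℕ) : ℝ) = t + k + (6 - 2) := by push_cast; ring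
  have ef : ∀ {v : ℝ}, v ∈ X 0 → v ∈ X 1 → (v ∈ X 2 ∨ v ∈ X 3) → False := by
    rintro v k1 k2 (k3 | k3)
    · rcases R.two v 0 1 2 k1 k2 k3 with h | h | h <;> exact absurd h (by decide)
    · rcases R.two v 0 1 3 k1 k2 k3 with h | h | h <;> exact absurd h (by decide)
  unfold Words.viol at h
  simp only [Bool.or_eq_true, Bool.and_eq_true] at h
  have p2 : t + k + 2 ∈ X 2 ∨ t + k + 2 ∈ X 3 := h5.imp (fun h => h.1) fun h => h.1
  have p4 : t + k - 2 ∈ X 2 ∨ t + k - 2 ∈ X 3 := h5.imp (fun h => h.2) fun h => h.2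
  rcases h with ((((((h | h) | h) | h) | h) | h) | h) | h
  · have := R.pres hw (by norm_num) h
    rw [q1] at this
    exact h1 this
  · have := R.pres hw (by norm_num) h
    rw [q1] at this
    exact h2 this
  · have := R.pres hw (by norm_num) h
    rw [q5] at this
    exact h3 (R.back this)
  · have := R.pres hw (by norm_num) h
    rw [q5] at this
    exact h4 (R.back this)
  · have k1 := R.pres hw (by norm_num) h.1
    have k2 := R.pres hw (by norm_num) h.2
    rw [q2] at k1 k2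
    exact ef k1 k2 p2
  · have k1 := R.pres hw (by norm_num) h.1
    have k2 := R.pres hw (by norm_num) h.2
    rw [q4] at k1 k2
    exact ef (R.back k1) (R.back k2) p4
  · have k1 := R.pres hw (by norm_num) h.1
    have k2 := R.pres hw (by norm_num) h.2
    rw [q2] at k1
    rw [q4] at k2
    rcases h5 with h5 | h5
    · exact R.ac _ h5.2 (R.back k2)
    · exact R.ac _ k1 h5.1
  · have k1 := R.pres hw (by norm_num) h.1
    have k2 := R.pres hw (by norm_num) h.2
    rw [q2] at k1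
    rw [q4] at k2
    rcases h5 with h5 | h5
    · exact R.ac _ h5.1 k1
    · exact R.ac _ (R.back k2) h5.2

theorem RingS.hasP (R : RingS X) {t : ℝ} {w : List Atom} (hw : ∀ x ∈ w, Pres X t x) {k l m : ℕ}
    (hl : l < 4) (hm : m < 4) (h : hasP w k l m = true) (hlm : l ≠ m) : l < 2 ∧ m < 2 := by
  unfold Words.hasP at h
  simp only [Bool.and_eq_true] at h
  obtain ⟨⟨⟨h1, h2⟩, h3⟩, h4⟩ := h
  have k1 := R.pres hw hl h1
  have k2 := R.pres hw hm h2
  have k3 := R.pres hw hl h3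
  have k4 := R.pres hw hm h4
  have q1 : t + ((k + 1 : ℕ) : ℝ) = t + k + 1 := by push_cast; ring
  rw [q1] at k3 k4
  exact R.pair _ ⟨l, hl⟩ ⟨m, hm⟩ (fun e => hlm (by simpa using e)) k1 k2 k3 k4

/-- **A killed list of atoms is never present.** -/
theorem RingS.kill (R : RingS X) {t : ℝ} {w : List Atom} (hk : kill w = true) :
    ¬ ∀ x ∈ w, Pres X t x := by
  intro hw
  rw [Words.kill, List.any_eq_true] at hk
  obtain ⟨k, -, h⟩ := hk
  unfold killAt at h
  simp only [Bool.or_eq_true] at h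
  rcases h with ((((((((h | h) | h) | h) | h) | h) | h) | h) | h) | h
  · simp only [Bool.and_eq_true] at h
    rcases R.two (t + k) 0 1 2 (R.pres hw (by norm_num) h.1.1) (R.pres hw (by norm_num) h.1.2)
      (R.pres hw (by norm_num) h.2) with h | h | h <;> exact absurd h (by decide)
  · simp only [Bool.and_eq_true] at h
    rcases R.two (t + k) 0 1 3 (R.pres hw (by norm_num) h.1.1) (R.pres hw (by norm_num) h.1.2)
      (R.pres hw (by norm_num) h.2) with h | h | h <;> exact absurd h (by decide)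
  · simp only [Bool.and_eq_true] at h
    exact R.ac (t + k) (R.pres hw (by norm_num) h.1) (R.pres hw (by norm_num) h.2)
  · simp only [Bool.and_eq_true] at h
    have k2 := R.pres hw (by norm_num) h.2
    have q3 : t + ((k + 3 : ℕ) : ℝ) = t + k + 3 := by push_cast; ring
    rw [q3] at k2
    exact R.anti (t + k) (R.pres hw (by norm_num) h.1) k2
  · have := R.hasP hw (by norm_num) (by norm_num) h (by norm_num)
    omega
  · have := R.hasP hw (by norm_num) (by norm_num) h (by norm_num)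
    omega
  · have := R.hasP hw (by norm_num) (by norm_num) h (by norm_num)
    omega
  · have := R.hasP hw (by norm_num) (by norm_num) h (by norm_num)
    omega
  · have := R.hasP hw (by norm_num) (by norm_num) h (by norm_num)
    omega
  · simp only [Bool.and_eq_true] at h
    obtain ⟨⟨h1, h2⟩, h3⟩ := h
    have c1 := R.viol hw h2
    have c2 := R.viol hw h3
    have q1 : t + ((k + 1 : ℕ) : ℝ) = t + k + 1 := by push_cast; ring
    rw [q1] at c2
    unfold Words.hasP at h1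
    simp only [Bool.and_eq_true] at h1
    obtain ⟨⟨⟨k1, k2⟩, k3⟩, k4⟩ := h1
    have m3 := R.pres hw (by norm_num) k3
    have m4 := R.pres hw (by norm_num) k4
    rw [q1] at m3 m4
    rcases R.cen (t + k) (R.pres hw (by norm_num) k1) (R.pres hw (by norm_num) k2) m3 m4 with h | h
    · exact c1 h
    · exact c2 h

/-- two letters at one position -/
theorem RingS.hasE (R : RingS X) {t : ℝ} {w : List Atom} (hw : ∀ x ∈ w, Pres X t x) {l m : ℕ}
    (hl : l < 4) (hm : m < 4) (h : hasE w l m = true) :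
    ∃ u : ℝ, u ∈ X ⟨l, hl⟩ ∧ u ∈ X ⟨m, hm⟩ := by
  rw [Words.hasE, List.any_eq_true] at h
  obtain ⟨k, -, h⟩ := h
  rw [Bool.and_eq_true] at h
  exact ⟨t + k, R.pres hw hl h.1, R.pres hw hm h.2⟩

end Vale.Agent.P032.Words

namespace Vale.Agent.P032.Six

open S5.H767 (Ex Lt Xs pt Ctr sub_of_closure dist_of_closure ctr_of_dpt dist_pt dist_pt_one pt_sum
  pt_three pt_six Lt_dist Lt_col)
open Vale.Agent.P032.Words

variable {U : Fin 6 → Set ℂ} {T : ℂ → Set (Fin 6)} {z y : ℂ} {a b c d e f : Fin 6}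

namespace S3W

/-- limits of exact arcs have at most three colours -/
theorem le3 (H : S3W U T) (hz : DPt T z a b c d) (hy : y ∈ closure (Ex T z {a, b})) :
    (T y).ncard ≤ 3 := by
  have h1 := sub_of_closure H.irr hy
  by_cases h2 : T y ⊆ {a, b}
  · have := Set.ncard_le_ncard h2 (Set.toFinite _)
    rw [Set.ncard_pair hz.ab] at this
    omega
  · exact H.end3 hz (acc_of_closure hy) ⟨h1, h2⟩

/-- the colours `e, f` at a contact -/
theorem ef_four (H : S3W U T) (hz : DPt T z a b c d) (nd : [a, b, c, d, e, f].Nodup)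
    (hy : dist y z = 1) (h4 : ¬ (T y).ncard ≤ 3) :
    ((a ∈ T y ∧ b ∈ T y) ∨ (c ∈ T y ∧ d ∈ T y)) ∧ e ∈ T y ∧ f ∈ T y := by
  have C := ctr_of_dpt H.irr hz nd
  have hc : (T y).ncard = 4 := by have := H.le4 y; omega
  have out : ∀ {i j : Fin 6}, i ∈ T z → j ∈ T z → T y ∩ T z = {i, j} →
      (∃ m n, DPt T y i j m n) → e ∈ T y ∧ f ∈ T y := by
    rintro i j hi hj hint ⟨m, n, hD⟩
    have hm : m ∉ T z := by
      intro h5
      have h6 : m ∈ T y ∩ T z := ⟨by rw [hD.pal]; simp, h5⟩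
      rw [hint] at h6
      rcases h6 with h6 | h6
      · exact hD.ac h6.symm
      · exact hD.bc (by simpa using h6.symm)
    have hn : n ∉ T z := by
      intro h5
      have h6 : n ∈ T y ∩ T z := ⟨by rw [hD.pal]; simp, h5⟩
      rw [hint] at h6
      rcases h6 with h6 | h6
      · exact hD.ad h6.symm
      · exact hD.bd (by simpa using h6.symm)
    have hmT : m ∈ T y := by rw [hD.pal]; simp
    have hnT : n ∈ T y := by rw [hD.pal]; simp
    rcases C.miss hm with rfl | rfl <;> rcases C.miss hn with rfl | rfl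
    · exact absurd rfl hD.cd
    · exact ⟨hmT, hnT⟩
    · exact ⟨hnT, hmT⟩
    · exact absurd rfl hD.cd
  have haz : a ∈ T z := by rw [hz.pal]; simp
  have hbz : b ∈ T z := by rw [hz.pal]; simp
  have hcz : c ∈ T z := by rw [hz.pal]; simp
  have hdz : d ∈ T z := by rw [hz.pal]; simp
  rcases H.tie hz hy hc with ⟨hint, hD⟩ | ⟨hint, hD⟩
  · have h1 : a ∈ T y ∩ T z := by rw [hint]; simp
    have h2 : b ∈ T y ∩ T z := by rw [hint]; simp
    exact ⟨Or.inl ⟨h1.1, h2.1⟩, out haz hbz hint hD⟩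
  · have h1 : c ∈ T y ∩ T z := by rw [hint]; simp
    have h2 : d ∈ T y ∩ T z := by rw [hint]; simp
    exact ⟨Or.inr ⟨h1.1, h2.1⟩, out hcz hdz hint hD⟩

/-- a four coloured point has the letters `e, f` only -/
theorem four_let (H : S3W U T) (hz : DPt T z a b c d) {l : Fin 4}
    (hl : y ∈ Lt T z a b c d e f l) (h4 : ¬ (T y).ncard ≤ 3) : l.val < 2 := by
  by_contra h
  have e23 : ∀ n : Fin 4, ¬ n.val < 2 → n = 2 ∨ n = 3 := by decide
  rcases e23 l h with rfl | rfl
  · exact h4 (H.le3 hz hl)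
  · exact h4 (H.le3 hz.swap hl)

/-- the rule at a swapped contact -/
theorem cen_of (H : S3W U T) (hz : DPt T z a b c d) (nd : [a, b, c, d, e, f].Nodup) {p : ℂ}
    (hy : dist y z = 1) (h4 : ¬ (T y).ncard ≤ 3) (hp : dist p z = 1) (hpy : dist p y = 1)
    (he : e ∈ T p) (hf : f ∈ T p) :
    (p ∉ Lt T z a b c d e f 2 ∧ p ∉ Lt T z a b c d e f 3 ∧
      y + z - p ∉ Lt T z a b c d e f 2 ∧ y + z - p ∉ Lt T z a b c d e f 3) ∧
    ((z + p - y ∈ Lt T z a b c d e f 2 ∧ 2 * z - p ∈ Lt T z a b c d e f 2) ∨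
      (z + p - y ∈ Lt T z a b c d e f 3 ∧ 2 * z - p ∈ Lt T z a b c d e f 3)) := by
  have h := H.irr
  obtain ⟨h1, heY, hfY⟩ := H.ef_four hz nd hy h4
  -- the case of a common pair `ab`
  have key : ∀ {a b c d : Fin 6}, DPt T z a b c d → [a, b, c, d, e, f].Nodup → a ∈ T y → b ∈ T y →
      (p ∉ closure (Ex T z {a, b}) ∧ p ∉ closure (Ex T z {c, d}) ∧
        y + z - p ∉ closure (Ex T z {a, b}) ∧ y + z - p ∉ closure (Ex T z {c, d})) ∧
      z + p - y ∈ closure (Ex T z {a, b}) ∧ 2 * z - p ∈ closure (Ex T z {a, b}) := by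
    intro a b c d hz nd ha hb
    have L : Lock T z y a b c d e f := H.lock hz hy nd ha hb heY hfY
    obtain ⟨⟨k1, k2⟩, k3, k4⟩ := L.swapped H hp hpy he hf
    obtain ⟨g1, g2⟩ := L.flank' hp hpy
    refine ⟨⟨L.not_ab H hp hpy, fun h5 => ?_, L.not_ab H g1 g2, fun h5 => ?_⟩, k3, k4⟩
    · have h6 := sub_of_closure h h5
      exact L.not_cd H hp hpy k1 (h.sub _ (h6 (by simp))) (h.sub _ (h6 (by simp)))
    · have h6 := sub_of_closure h h5
      exact L.not_cd H g1 g2 k2 (h.sub _ (h6 (by simp))) (h.sub _ (h6 (by simp)))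
  rcases h1 with ⟨ha, hb⟩ | ⟨hc, hd⟩
  · obtain ⟨k1, k2⟩ := key hz nd ha hb
    exact ⟨k1, Or.inl k2⟩
  · have nd2 : [c, d, a, b, e, f].Nodup :=
      ((List.perm_append_comm (l₁ := [a, b]) (l₂ := [c, d])).append_right [e, f]).nodup_iff.1 nd
    obtain ⟨⟨k1, k2, k3, k4⟩, k5⟩ := key hz.swap nd2 hc hd
    exact ⟨⟨k2, k1, k4, k3⟩, Or.inr k5⟩

theorem _root_.Vale.Agent.P032.Six.pt_back (z : ℂ) (u : ℝ) :
    pt z u + z - pt z (u + 1) = pt z (u - 1) ∧ z + pt z (u + 1) - pt z u = pt z (u + 2) ∧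
      2 * z - pt z (u + 1) = pt z (u - 2) := by
  have h1 := pt_sum z u
  have h2 := pt_sum z (u - 1)
  rw [show u - 1 + 2 = u + 1 by ring, show u - 1 + 1 = u by ring] at h2
  have h3 := pt_three z (u - 2)
  rw [show u - 2 + 3 = u + 1 by ring] at h3
  refine ⟨by linear_combination -h2, by linear_combination -h1, by linear_combination -h3⟩

/-- **The word of a two-pair point.** -/
theorem ringS (H : S3W U T) (hz : DPt T z a b c d) (nd : [a, b, c, d, e, f].Nodup) :
    RingS (Xs T z a b c d e f) := by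
  have h := H.irr
  have C := ctr_of_dpt h hz nd
  have R := C.rawU hz
  have le : ∀ {u : ℝ}, u ∈ Xs T z a b c d e f 2 → (T (pt z u)).ncard ≤ 3 := fun hu => H.le3 hz hu
  refine ⟨C.x_per, R.anti, fun u h2 => C.x_ac (le h2) h2, ?_, ?_, ?_⟩
  · intro u l m n hl hm hn
    by_cases h3 : (T (pt z u)).ncard ≤ 3
    · exact C.x_two h3 hl hm hn
    · have k1 := H.four_let hz hl h3
      have k2 := H.four_let hz hm h3
      have k3 := H.four_let hz hn h3
      have key : ∀ l m n : Fin 4, l.val < 2 → m.val < 2 → n.val < 2 → l = m ∨ m = n ∨ n = l := by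
        decide
      exact key l m n k1 k2 k3
  · intro u l m hlm h1 h2 h3 h4
    by_cases k : (T (pt z u)).ncard ≤ 3
    · by_cases k' : (T (pt z (u + 1))).ncard ≤ 3
      · exact (C.noswap hlm (dist_pt_one z u) k k' h1 h2 h3 h4).elim
      · exact ⟨H.four_let hz h3 k', H.four_let hz h4 k'⟩
    · exact ⟨H.four_let hz h1 k, H.four_let hz h2 k⟩
  · intro u h1 h2 h3 h4
    have d1 := dist_pt_one z u
    by_cases k : (T (pt z u)).ncard ≤ 3
    · by_cases k' : (T (pt z (u + 1))).ncard ≤ 3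
      · exact (C.noswap (l := 0) (m := 1) (by decide) d1 k k' h1 h2 h3 h4).elim
      · right
        have := H.cen_of hz nd (dist_pt z (u + 1)) k' (dist_pt z u) d1 h1.2 h2.2
        obtain ⟨⟨g1, g2, g3, g4⟩, g5⟩ := this
        have e1 : pt z (u + 1) + z - pt z u = pt z (u + 1 + 1) := by
          have := pt_sum z u
          rw [show u + 1 + 1 = u + 2 by ring]
          linear_combination -this
        have e2 : z + pt z u - pt z (u + 1) = pt z (u + 1 - 2) := by
          have := (pt_back z u).1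
          rw [show u + 1 - 2 = u - 1 by ring, ← this]; ring
        have e3 : 2 * z - pt z u = pt z (u + 1 + 2) := by
          rw [show u + 1 + 2 = u + 3 by ring, pt_three]
        have e4 : pt z u = pt z (u + 1 - 1) := by rw [add_sub_cancel_right]
        rw [e1] at g3 g4
        rw [e2, e3] at g5
        rw [e4] at g1 g2
        exact ⟨⟨g3, g4, g1, g2⟩, g5.imp (fun h => ⟨h.2, h.1⟩) fun h => ⟨h.2, h.1⟩⟩
    · left
      have := H.cen_of hz nd (dist_pt z u) k (dist_pt z (u + 1)) (by rw [dist_comm]; exact d1)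
        h3.2 h4.2
      obtain ⟨e1, e2, e3⟩ := pt_back z u
      rw [e1, e2, e3] at this
      exact this

end S3W

end Vale.Agent.P032.Six
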