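import Vale.Agent.P032.R2.H609.S3At

/-!
# P032: the triangle of two-pair points `ab | cd`, `ab | ef`, `cd | ef`

On the circle of `z = ab | cd` the points `y = ab | ef` at `u` and `p = cd | ef` at `u + 1` exchange the
letters `e, f` exactly.
-/

open Set Filter Topology Metric

noncomputable section

namespace Vale.Agent.P032.Six

open Vale.Agent.P032.S5.H767 Vale.Agent.P032.Words

variable {U : Fin 6 → Set ℂ} {T : ℂ → Set (Fin 6)} {z y : ℂ} {a b c d e f : Fin 6}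

namespace S3at

/-- the same contact with the pairs of `z` exchanged: `T y = {c, d, e, f}` -/
theorem nd_swap (hn : [a, b, c, d, e, f].Nodup) : [c, d, a, b, e, f].Nodup := by
  simp only [List.nodup_cons, List.mem_cons, List.not_mem_nil, or_false, not_or, List.nodup_nil,
    and_true, not_false_eq_true] at hn ⊢
  obtain ⟨⟨ab, ac, ad, ae, af⟩, ⟨bc, bd, be, bf⟩, ⟨cd, ce, cf⟩, ⟨de, df⟩, ef⟩ := hn
  exact ⟨⟨cd, Ne.symm ac, Ne.symm bc, ce, cf⟩, ⟨Ne.symm ad, Ne.symm bd, de, df⟩, ⟨ab, ae, af⟩,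
    ⟨be, bf⟩, ef⟩

/-- the constructor for the other pair of the centre -/
theorem other (h : Irr U T) (hz : DPt T z a b c d) (hn : [a, b, c, d, e, f].Nodup)
    (hyz : Dist.dist y z = 1) (hT : T y = {c, d, e, f}) : S3at U T z y c d a b e f :=
  ⟨h, hz.swap, nd_swap hn, hyz, hT⟩

/-- letters of `e`, `f` do not depend on the order of the pairs -/
theorem mem_zero {u : ℝ} : u ∈ Xs T z a b c d e f 0 ↔ e ∈ T (pt z u) :=
  ⟨fun h => h.2, fun h => ⟨dist_pt z u, h⟩⟩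

theorem mem_one {u : ℝ} : u ∈ Xs T z a b c d e f 1 ↔ f ∈ T (pt z u) :=
  ⟨fun h => h.2, fun h => ⟨dist_pt z u, h⟩⟩

/-- a colour which is there on the right of `u` is absent on the right of `u + 1` -/
theorem right_free (h : Irr U T) {u : ℝ} {i : Fin 6} (hi : ∀ᶠ v in 𝓝[>] u, i ∈ T (pt z v)) :
    ∀ᶠ v in 𝓝[>] u, i ∉ Pal U (pt z (v + 1)) := by
  have h2 : ∀ᶠ v in 𝓝[>] u, ∀ᶠ w in 𝓝 v, i ∈ T (pt z w) := by
    have h3 := eventually_eventually_nhdsWithin.2 hi
    filter_upwards [h3, self_mem_nhdsWithin] with v hv hv2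
    have hv2 : u < v := hv2
    rwa [nhdsWithin_eq_nhds.2 (Ioi_mem_nhds hv2)] at hv
  filter_upwards [h2] with v hv
  obtain ⟨k1, k2⟩ := S5.H767.tri (dist_pt z v) (dist_pt z (v + 1))
  refine line_free h (dist_pt z v) ?_ (dist_pt_one z v) (fun h => k1 h.symm)
    (fun h => k2 (by rw [← h]; ring))
  exact ev_sphere (p := fun q => i ∈ T q) hv

/-- a colour which is there on the left of `u` is absent on the left of `u + 1` -/
theorem left_free (h : Irr U T) {u : ℝ} {i : Fin 6} (hi : ∀ᶠ v in 𝓝[<] u, i ∈ T (pt z v)) :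
    ∀ᶠ v in 𝓝[<] u, i ∉ Pal U (pt z (v + 1)) := by
  have h2 : ∀ᶠ v in 𝓝[<] u, ∀ᶠ w in 𝓝 v, i ∈ T (pt z w) := by
    have h3 := eventually_eventually_nhdsWithin.2 hi
    filter_upwards [h3, self_mem_nhdsWithin] with v hv hv2
    have hv2 : v < u := hv2
    rwa [nhdsWithin_eq_nhds.2 (Iio_mem_nhds hv2)] at hv
  filter_upwards [h2] with v hv
  obtain ⟨k1, k2⟩ := S5.H767.tri (dist_pt z v) (dist_pt z (v + 1))
  refine line_free h (dist_pt z v) ?_ (dist_pt_one z v) (fun h => k1 h.symm)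
    (fun h => k2 (by rw [← h]; ring))
  exact ev_sphere (p := fun q => i ∈ T q) hv

/-- shift of one-sided limits -/
theorem shift_right {u s : ℝ} {P : ℝ → Prop} (h : ∀ᶠ v in 𝓝[>] (u + s), P v) :
    ∀ᶠ v in 𝓝[>] u, P (v + s) := by
  have h1 : Tendsto (fun v : ℝ => v + s) (𝓝[>] u) (𝓝[>] (u + s)) := by
    refine tendsto_nhdsWithin_of_tendsto_nhds_of_eventually_within _ ?_ ?_
    · exact ((continuous_id.add continuous_const).tendsto u).mono_left nhdsWithin_le_nhds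
    · filter_upwards [self_mem_nhdsWithin] with v hv
      exact mem_Ioi.2 (by have : u < v := hv; linarith)
  exact h1.eventually h

theorem shift_left {u s : ℝ} {P : ℝ → Prop} (h : ∀ᶠ v in 𝓝[<] (u + s), P v) :
    ∀ᶠ v in 𝓝[<] u, P (v + s) := by
  have h1 : Tendsto (fun v : ℝ => v + s) (𝓝[<] u) (𝓝[<] (u + s)) := by
    refine tendsto_nhdsWithin_of_tendsto_nhds_of_eventually_within _ ?_ ?_
    · exact ((continuous_id.add continuous_const).tendsto u).mono_left nhdsWithin_le_nhds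
    · filter_upwards [self_mem_nhdsWithin] with v hv
      exact mem_Iio.2 (by have : v < u := hv; linarith)
  exact h1.eventually h

/-- **T1.** `z = ab | cd`, `y = ab | ef` at `u`, `p = cd | ef` at `u + 1`: the letters `e, f` are
exchanged, exactly, on both sides. -/
theorem exchange {u : ℝ} (C : S3at U T z (pt z u) a b c d e f) (hy : DPt T (pt z u) a b e f)
    (hp : DPt T (pt z (u + 1)) c d e f) :
    ((∀ᶠ v in 𝓝[>] u, (e ∈ T (pt z v) ∧ f ∉ Pal U (pt z v)) ∧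
        f ∈ T (pt z (v + 1)) ∧ e ∉ Pal U (pt z (v + 1))) ∧
      ∀ᶠ v in 𝓝[<] u, (f ∈ T (pt z v) ∧ e ∉ Pal U (pt z v)) ∧
        e ∈ T (pt z (v + 1)) ∧ f ∉ Pal U (pt z (v + 1))) ∨
    ((∀ᶠ v in 𝓝[>] u, (f ∈ T (pt z v) ∧ e ∉ Pal U (pt z v)) ∧
        e ∈ T (pt z (v + 1)) ∧ f ∉ Pal U (pt z (v + 1))) ∧
      ∀ᶠ v in 𝓝[<] u, (e ∈ T (pt z v) ∧ f ∉ Pal U (pt z v)) ∧
        f ∈ T (pt z (v + 1)) ∧ e ∉ Pal U (pt z (v + 1))) := by
  have C' : S3at U T z (pt z (u + 1)) c d a b e f := other C.irr C.dp C.nd (dist_pt z _) hp.pal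
  rcases C.word_pt hy with ⟨h1, h2⟩ | ⟨h1, h2⟩
  · have r1 := right_free C.irr (h1.mono fun v hv => hv.1)
    have r2 := left_free C.irr (h2.mono fun v hv => hv.1)
    left
    rcases C'.word_pt hp with ⟨h3, h4⟩ | ⟨h3, h4⟩
    · exfalso
      obtain ⟨v, hv1, hv2⟩ := (r1.and (shift_right h3)).exists
      exact hv1 (C.irr.sub _ hv2.1)
    · exact ⟨h1.and (shift_right h3), h2.and (shift_left h4)⟩
  · have r1 := right_free C.irr (h1.mono fun v hv => hv.1)
    right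
    rcases C'.word_pt hp with ⟨h3, h4⟩ | ⟨h3, h4⟩
    · exact ⟨h1.and (shift_right h3), h2.and (shift_left h4)⟩
    · exfalso
      obtain ⟨v, hv1, hv2⟩ := (r1.and (shift_right h3)).exists
      exact hv1 (C.irr.sub _ hv2.1)

end S3at

end Vale.Agent.P032.Six
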